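import Mathlib

/-!
# P121: three-marginal Coulomb optimal transport on `ℝ³` (definitions)

Only the definitions used in the statements of the hand-ins live in this file.
-/

namespace Vale.Agent.Lib.P121

open MeasureTheory
open scoped ENNReal

/-- Euclidean three-space. -/
abbrev E3 : Type := EuclideanSpace ℝ (Fin 3)

/-- The three-particle Coulomb cost `1/|x-y| + 1/|x-z| + 1/|y-z|`, with values in `[0,∞]`;
it is `∞` as soon as two of the points coincide (since `0⁻¹ = ∞` in `ℝ≥0∞`). -/
noncomputable def coulomb (x y z : E3) : ℝ≥0∞ :=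
  (ENNReal.ofReal (dist x y))⁻¹ + (ENNReal.ofReal (dist x z))⁻¹ + (ENNReal.ofReal (dist y z))⁻¹

/-- `π` is a Borel measure on `(ℝ³)³` all of whose three coordinate marginals equal `μ`. -/
def IsCoupling (μ : Measure E3) (π : Measure (E3 × E3 × E3)) : Prop :=
  π.map (fun p => p.1) = μ ∧ π.map (fun p => p.2.1) = μ ∧ π.map (fun p => p.2.2) = μ

/-- The Kantorovich value: the infimum of the Coulomb cost over all couplings of `(μ, μ, μ)`. -/
noncomputable def kantorovich (μ : Measure E3) : ℝ≥0∞ :=
  ⨅ (π : Measure (E3 × E3 × E3)) (_ : IsCoupling μ π), ∫⁻ p, coulomb p.1 p.2.1 p.2.2 ∂π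

/-- `(Id, T₂, T₃)` is an optimal Monge plan for `μ`: `T₂, T₃` are Borel maps pushing `μ` to `μ`
and the cost of the induced coupling equals the Kantorovich value. -/
def IsOptimalMonge (μ : Measure E3) (T₂ T₃ : E3 → E3) : Prop :=
  Measurable T₂ ∧ Measurable T₃ ∧ μ.map T₂ = μ ∧ μ.map T₃ = μ ∧
    ∫⁻ x, coulomb x (T₂ x) (T₃ x) ∂μ = kantorovich μ

/-- The radial shift by the signed length `t`: the point `x ≠ 0` is moved to `(1 + t/|x|) x`,
i.e. by the signed distance `t` along the line through `0` and `x`. -/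
noncomputable def radialShift (t : ℝ) (x : E3) : E3 := x + (t * ‖x‖⁻¹) • x

/-- The probability measure `(ν + F₁#ν + F₂#ν)/3`, where `F₁` is the radial shift by `-20`
and `F₂` is the radial shift by `60`. -/
noncomputable def tripled (ν : Measure E3) : Measure E3 :=
  (3 : ℝ≥0∞)⁻¹ • (ν + ν.map (radialShift (-20)) + ν.map (radialShift 60))

end Vale.Agent.Lib.P121
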