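import Vale.Agent.Lib.P121.Graph

namespace Vale.Agent.Lib.P121

open MeasureTheory
open scoped ENNReal

lemma measurable_radialShift (t : ℝ) : Measurable (radialShift t) := by
  unfold radialShift
  exact measurable_id.add ((measurable_const.mul measurable_norm.inv).smul measurable_id)

lemma measurable_cyc : Measurable cyc := by
  unfold cyc
  refine Measurable.ite (measurableSet_le measurable_norm measurable_const)
    (measurable_radialShift _) ?_
  exact Measurable.ite (measurableSet_le measurable_norm measurable_const)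
    (measurable_radialShift _) (measurable_radialShift _)

lemma measurable_pot : Measurable pot := by
  unfold pot
  refine Measurable.ite (measurableSet_le measurable_norm measurable_const)
    (measurable_const.sub (measurable_norm.div_const _)) ?_
  exact Measurable.ite (measurableSet_le measurable_norm measurable_const)
    (measurable_const.sub (measurable_const.mul measurable_norm))
    (measurable_const.sub (measurable_norm.div_const _))

lemma measurable_coulomb : Measurable (fun p : E3 × E3 × E3 => coulomb p.1 p.2.1 p.2.2) := by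
  unfold coulomb
  have m1 : Measurable fun p : E3 × E3 × E3 => p.1 := measurable_fst
  have m2 : Measurable fun p : E3 × E3 × E3 => p.2.1 := measurable_fst.comp measurable_snd
  have m3 : Measurable fun p : E3 × E3 × E3 => p.2.2 := measurable_snd.comp measurable_snd
  exact (((m1.dist m2).ennreal_ofReal.inv).add ((m1.dist m3).ennreal_ofReal.inv)).add
    ((m2.dist m3).ennreal_ofReal.inv)

lemma measurableSet_blobs (e : E3) : MeasurableSet {x | blobs e x} := by
  have mn : Measurable fun x : E3 => ‖x‖ := measurable_norm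
  have c1 : Measurable fun x : E3 => ‖x - ‖x‖ • e‖ :=
    (measurable_id.sub (mn.smul measurable_const)).norm
  have c2 : Measurable fun x : E3 => ‖x + ‖x‖ • e‖ :=
    (measurable_id.add (mn.smul measurable_const)).norm
  have c3 : Measurable fun x : E3 => ‖x‖ / 100 := mn.div_const _
  have m1 : MeasurableSet {x : E3 | blob1 e x} :=
    (measurableSet_le measurable_const mn).inter
      ((measurableSet_le mn measurable_const).inter (measurableSet_le c1 c3))
  have m2 : MeasurableSet {x : E3 | blob2 e x} :=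
    (measurableSet_le measurable_const mn).inter
      ((measurableSet_le mn measurable_const).inter (measurableSet_le c2 c3))
  have m3 : MeasurableSet {x : E3 | blob3 e x} :=
    (measurableSet_le measurable_const mn).inter
      ((measurableSet_le mn measurable_const).inter (measurableSet_le c1 c3))
  exact m1.union (m2.union m3)

lemma differentiableOn_radialShift (t : ℝ) : DifferentiableOn ℝ (radialShift t) {0}ᶜ := by
  intro x hx
  have hx' : x ≠ 0 := hx
  apply DifferentiableAt.differentiableWithinAt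
  unfold radialShift
  have hn : DifferentiableAt ℝ (fun y : E3 => ‖y‖) x := differentiableAt_id.norm ℝ hx'
  exact differentiableAt_id.add
    (((differentiableAt_const _).mul (hn.inv (norm_ne_zero_iff.2 hx'))).smul differentiableAt_id)

section main

variable (e : E3) (ν : Measure E3)

lemma ae_blobs_tripled (hsupp : ∀ᵐ x ∂ν, blob1 e x) : ∀ᵐ x ∂(tripled ν), blobs e x := by
  unfold tripled
  apply Measure.ae_smul_measure
  rw [ae_add_measure_iff, ae_add_measure_iff,
    ae_map_iff (measurable_radialShift _).aemeasurable (measurableSet_blobs e),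
    ae_map_iff (measurable_radialShift _).aemeasurable (measurableSet_blobs e)]
  refine ⟨⟨?_, ?_⟩, ?_⟩
  · filter_upwards [hsupp] with x hx using Or.inl hx
  · filter_upwards [hsupp] with x hx using Or.inr (Or.inl (blob2_F hx))
  · filter_upwards [hsupp] with x hx using Or.inr (Or.inr (blob3_G hx))

lemma lintegral_tripled {f : E3 → ℝ≥0∞} (hf : Measurable f) :
    ∫⁻ x, f x ∂(tripled ν) = 3⁻¹ * (∫⁻ x, f x ∂ν + ∫⁻ x, f (radialShift (-20) x) ∂ν
      + ∫⁻ x, f (radialShift 60 x) ∂ν) := by
  unfold tripled
  rw [lintegral_smul_measure, lintegral_add_measure, lintegral_add_measure,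
    lintegral_map hf (measurable_radialShift _), lintegral_map hf (measurable_radialShift _),
    smul_eq_mul]

lemma third_mul_three (C : ℝ≥0∞) : (3 : ℝ≥0∞)⁻¹ * (C + C + C) = C := by
  have h : C + C + C = 3 * C := by ring
  rw [h, ← mul_assoc, ENNReal.inv_mul_cancel (by norm_num) (by norm_num), one_mul]

lemma map_cyc_tripled (hsupp : ∀ᵐ x ∂ν, blob1 e x) : (tripled ν).map cyc = tripled ν := by
  unfold tripled
  rw [Measure.map_smul, Measure.map_add _ _ measurable_cyc, Measure.map_add _ _ measurable_cyc,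
    Measure.map_map measurable_cyc (measurable_radialShift _),
    Measure.map_map measurable_cyc (measurable_radialShift _)]
  have h1 : ν.map cyc = ν.map (radialShift (-20)) :=
    Measure.map_congr (by filter_upwards [hsupp] with x hx using cyc_1 hx)
  have h2 : ν.map (cyc ∘ radialShift (-20)) = ν.map (radialShift 60) :=
    Measure.map_congr (by filter_upwards [hsupp] with x hx using cyc_2 hx)
  have h3 : ν.map (cyc ∘ radialShift 60) = ν := by
    have : ν.map (cyc ∘ radialShift 60) = ν.map id :=
      Measure.map_congr (by filter_upwards [hsupp] with x hx using cyc_3 hx)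
    rw [this, Measure.map_id]
  rw [h1, h2, h3]
  congr 1
  exact (add_rotate _ _ _).symm

lemma isProbabilityMeasure_tripled [IsProbabilityMeasure ν] :
    IsProbabilityMeasure (tripled ν) := by
  have := Measure.isProbabilityMeasure_map (μ := ν) (measurable_radialShift (-20)).aemeasurable
  have := Measure.isProbabilityMeasure_map (μ := ν) (measurable_radialShift 60).aemeasurable
  constructor
  simp only [tripled, Measure.smul_apply, Measure.add_apply, measure_univ, smul_eq_mul]
  rw [show (1 : ℝ≥0∞) + 1 + 1 = 3 by norm_num]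
  exact ENNReal.inv_mul_cancel (by norm_num) (by norm_num)

lemma null_preimage (t s : ℝ) (hsupp : ∀ᵐ x ∂ν, blob1 e x) (hν : ν ≪ volume)
    (hinv : ∀ x, blob1 e x → radialShift s (radialShift t x) = x ∧ radialShift t x ≠ 0)
    {N : Set E3} (hN : volume N = 0) : ν (radialShift t ⁻¹' N) = 0 := by
  have h1 : volume (radialShift s '' (N ∩ {0}ᶜ)) = 0 :=
    addHaar_image_eq_zero_of_differentiableOn_of_addHaar_eq_zero volume
      ((differentiableOn_radialShift s).mono Set.inter_subset_right)
      (measure_mono_null Set.inter_subset_left hN)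
  have h2 : ν (radialShift s '' (N ∩ {0}ᶜ)) = 0 := hν h1
  have h3 : ν {x | ¬ blob1 e x} = 0 := ae_iff.1 hsupp
  refine measure_mono_null ?_ (measure_union_null h3 h2)
  intro x hx
  by_cases hb : blob1 e x
  · right
    exact ⟨radialShift t x, ⟨hx, (hinv x hb).2⟩, (hinv x hb).1⟩
  · left; exact hb

lemma tripled_ac (hν : ν ≪ volume) (hsupp : ∀ᵐ x ∂ν, blob1 e x) : tripled ν ≪ volume := by
  refine Measure.AbsolutelyContinuous.mk fun N hN h0 => ?_
  have hF : ν (radialShift (-20) ⁻¹' N) = 0 := by
    refine null_preimage e ν (-20) (-20) hsupp hν (fun x hx => ⟨F_invol hx, ?_⟩) h0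
    intro h'
    have := norm_F hx
    rw [h', norm_zero] at this
    linarith [hx.2.1]
  have hG : ν (radialShift 60 ⁻¹' N) = 0 := by
    refine null_preimage e ν 60 (-60) hsupp hν (fun x hx => ⟨G_inv hx, ?_⟩) h0
    intro h'
    have := norm_G hx
    rw [h', norm_zero] at this
    linarith [hx.1]
  simp only [tripled, Measure.smul_apply, Measure.add_apply, smul_eq_mul]
  rw [Measure.map_apply (measurable_radialShift _) hN,
    Measure.map_apply (measurable_radialShift _) hN, hν h0, hF, hG]
  simp

lemma lintegral_pot_tripled [IsProbabilityMeasure ν] (hsupp : ∀ᵐ x ∂ν, blob1 e x) :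
    ∫⁻ x, ENNReal.ofReal (pot x) ∂(tripled ν) = 3⁻¹ * ENNReal.ofReal (19 / 240) := by
  have mp : Measurable fun x => ENNReal.ofReal (pot x) := measurable_pot.ennreal_ofReal
  have mpF : Measurable fun x => ENNReal.ofReal (pot (radialShift (-20) x)) :=
    mp.comp (measurable_radialShift _)
  rw [lintegral_tripled ν mp]
  have s1 : ∫⁻ x, (ENNReal.ofReal (pot x) + ENNReal.ofReal (pot (radialShift (-20) x))) ∂ν
      = ∫⁻ x, ENNReal.ofReal (pot x) ∂ν + ∫⁻ x, ENNReal.ofReal (pot (radialShift (-20) x)) ∂ν :=
    lintegral_add_left mp _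
  have s2 : ∫⁻ x, (ENNReal.ofReal (pot x) + ENNReal.ofReal (pot (radialShift (-20) x))
      + ENNReal.ofReal (pot (radialShift 60 x))) ∂ν
      = ∫⁻ x, (ENNReal.ofReal (pot x) + ENNReal.ofReal (pot (radialShift (-20) x))) ∂ν
        + ∫⁻ x, ENNReal.ofReal (pot (radialShift 60 x)) ∂ν :=
    lintegral_add_left (mp.add mpF) _
  rw [← s1, ← s2]
  have key : ∀ᵐ x ∂ν, ENNReal.ofReal (pot x) + ENNReal.ofReal (pot (radialShift (-20) x))
      + ENNReal.ofReal (pot (radialShift 60 x)) = ENNReal.ofReal (19 / 240) := by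
    filter_upwards [hsupp] with x hx
    have b1 := pot_bounds (Or.inl hx : blobs e x)
    have b2 := pot_bounds (Or.inr (Or.inl (blob2_F hx)) : blobs e _)
    have b3 := pot_bounds (Or.inr (Or.inr (blob3_G hx)) : blobs e _)
    rw [← ENNReal.ofReal_add b1.1 b2.1, ← ENNReal.ofReal_add (by linarith) b3.1, pot_sum hx]
  rw [lintegral_congr_ae key, lintegral_const, measure_univ, mul_one]

lemma coupling_lower [IsProbabilityMeasure ν] (he : ‖e‖ = 1) (hsupp : ∀ᵐ x ∂ν, blob1 e x)
    (π : Measure (E3 × E3 × E3)) (hπ : IsCoupling (tripled ν) π) :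
    ENNReal.ofReal (19 / 240) ≤ ∫⁻ p, coulomb p.1 p.2.1 p.2.2 ∂π := by
  obtain ⟨h1, h2, h3⟩ := hπ
  have hb := ae_blobs_tripled e ν hsupp
  have m1 : Measurable fun p : E3 × E3 × E3 => p.1 := measurable_fst
  have m2 : Measurable fun p : E3 × E3 × E3 => p.2.1 := measurable_fst.comp measurable_snd
  have m3 : Measurable fun p : E3 × E3 × E3 => p.2.2 := measurable_snd.comp measurable_snd
  have a1 : ∀ᵐ p ∂π, blobs e p.1 := ae_of_ae_map m1.aemeasurable (by rw [h1]; exact hb)
  have a2 : ∀ᵐ p ∂π, blobs e p.2.1 := ae_of_ae_map m2.aemeasurable (by rw [h2]; exact hb)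
  have a3 : ∀ᵐ p ∂π, blobs e p.2.2 := ae_of_ae_map m3.aemeasurable (by rw [h3]; exact hb)
  have mp : Measurable fun x => ENNReal.ofReal (pot x) := measurable_pot.ennreal_ofReal
  have i1 : ∫⁻ p, ENNReal.ofReal (pot p.1) ∂π = 3⁻¹ * ENNReal.ofReal (19 / 240) := by
    rw [← lintegral_pot_tripled e ν hsupp, ← h1, lintegral_map mp m1]
  have i2 : ∫⁻ p, ENNReal.ofReal (pot p.2.1) ∂π = 3⁻¹ * ENNReal.ofReal (19 / 240) := by
    rw [← lintegral_pot_tripled e ν hsupp, ← h2, lintegral_map mp m2]
  have i3 : ∫⁻ p, ENNReal.ofReal (pot p.2.2) ∂π = 3⁻¹ * ENNReal.ofReal (19 / 240) := by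
    rw [← lintegral_pot_tripled e ν hsupp, ← h3, lintegral_map mp m3]
  have three : (3 : ℝ≥0∞) * 3⁻¹ = 1 := ENNReal.mul_inv_cancel (by norm_num) (by norm_num)
  calc ENNReal.ofReal (19 / 240)
      = 3⁻¹ * ENNReal.ofReal (19 / 240) + 3⁻¹ * ENNReal.ofReal (19 / 240)
          + 3⁻¹ * ENNReal.ofReal (19 / 240) := by
        rw [← add_mul, ← add_mul, show (3 : ℝ≥0∞)⁻¹ + 3⁻¹ + 3⁻¹ = 3 * 3⁻¹ by ring, three, one_mul]
    _ = ∫⁻ p, (ENNReal.ofReal (pot p.1) + ENNReal.ofReal (pot p.2.1)
          + ENNReal.ofReal (pot p.2.2)) ∂π := by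
        have s1 : ∫⁻ p, (ENNReal.ofReal (pot p.1) + ENNReal.ofReal (pot p.2.1)) ∂π
            = ∫⁻ p, ENNReal.ofReal (pot p.1) ∂π + ∫⁻ p, ENNReal.ofReal (pot p.2.1) ∂π :=
          lintegral_add_left (mp.comp m1) _
        have s2 : ∫⁻ p, (ENNReal.ofReal (pot p.1) + ENNReal.ofReal (pot p.2.1)
            + ENNReal.ofReal (pot p.2.2)) ∂π
            = ∫⁻ p, (ENNReal.ofReal (pot p.1) + ENNReal.ofReal (pot p.2.1)) ∂π
              + ∫⁻ p, ENNReal.ofReal (pot p.2.2) ∂π :=
          lintegral_add_left ((mp.comp m1).add (mp.comp m2)) _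
        rw [s2, s1, i1, i2, i3]
    _ ≤ ∫⁻ p, coulomb p.1 p.2.1 p.2.2 ∂π := by
        refine lintegral_mono_ae ?_
        filter_upwards [a1, a2, a3] with p q1 q2 q3
        have b1 := pot_bounds q1
        have b2 := pot_bounds q2
        have b3 := pot_bounds q3
        rw [← ENNReal.ofReal_add b1.1 b2.1, ← ENNReal.ofReal_add (by linarith) b3.1]
        exact pot_le_coulomb he q1 q2 q3

lemma monge_cost [IsProbabilityMeasure ν] (hsupp : ∀ᵐ x ∂ν, blob1 e x) :
    ∫⁻ x, coulomb x (cyc x) (cyc (cyc x)) ∂(tripled ν) = ENNReal.ofReal (19 / 240) := by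
  have mg : Measurable fun x => coulomb x (cyc x) (cyc (cyc x)) := by
    unfold coulomb
    have c0 : Measurable fun x : E3 => x := measurable_id
    have c1 : Measurable fun x : E3 => cyc x := measurable_cyc
    have c2 : Measurable fun x : E3 => cyc (cyc x) := measurable_cyc.comp measurable_cyc
    exact (((c0.dist c1).ennreal_ofReal.inv).add ((c0.dist c2).ennreal_ofReal.inv)).add
      ((c1.dist c2).ennreal_ofReal.inv)
  have e1 : ∫⁻ x, coulomb x (cyc x) (cyc (cyc x)) ∂ν = ENNReal.ofReal (19 / 240) := by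
    have : ∀ᵐ x ∂ν, coulomb x (cyc x) (cyc (cyc x)) = ENNReal.ofReal (19 / 240) := by
      filter_upwards [hsupp] with x hx
      rw [cyc_1 hx, cyc_2 hx, coulomb_graph hx]
    rw [lintegral_congr_ae this, lintegral_const, measure_univ, mul_one]
  have e2 : ∫⁻ x, coulomb (radialShift (-20) x) (cyc (radialShift (-20) x))
      (cyc (cyc (radialShift (-20) x))) ∂ν = ENNReal.ofReal (19 / 240) := by
    have : ∀ᵐ x ∂ν, coulomb (radialShift (-20) x) (cyc (radialShift (-20) x))
        (cyc (cyc (radialShift (-20) x))) = ENNReal.ofReal (19 / 240) := by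
      filter_upwards [hsupp] with x hx
      rw [cyc_2 hx, cyc_3 hx, ← coulomb_rot, coulomb_graph hx]
    rw [lintegral_congr_ae this, lintegral_const, measure_univ, mul_one]
  have e3 : ∫⁻ x, coulomb (radialShift 60 x) (cyc (radialShift 60 x))
      (cyc (cyc (radialShift 60 x))) ∂ν = ENNReal.ofReal (19 / 240) := by
    have : ∀ᵐ x ∂ν, coulomb (radialShift 60 x) (cyc (radialShift 60 x))
        (cyc (cyc (radialShift 60 x))) = ENNReal.ofReal (19 / 240) := by
      filter_upwards [hsupp] with x hx
      rw [cyc_3 hx, cyc_1 hx, ← coulomb_rot, ← coulomb_rot, coulomb_graph hx]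
    rw [lintegral_congr_ae this, lintegral_const, measure_univ, mul_one]
  rw [lintegral_tripled ν mg, e1, e2, e3, third_mul_three]

/-- The explicit family: full statement. -/
theorem family_optimal (he : ‖e‖ = 1) [IsProbabilityMeasure ν] (hν : ν ≪ volume)
    (hsupp : ∀ᵐ x ∂ν, 1 ≤ ‖x‖ ∧ ‖x‖ ≤ 2 ∧ ‖x - ‖x‖ • e‖ ≤ ‖x‖ / 100) :
    IsProbabilityMeasure (tripled ν) ∧ tripled ν ≪ volume ∧
      kantorovich (tripled ν) = ENNReal.ofReal (19 / 240) ∧
      ∃ T₂ T₃ : E3 → E3, IsOptimalMonge (tripled ν) T₂ T₃ := by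
  have hs : ∀ᵐ x ∂ν, blob1 e x := hsupp
  have hmap := map_cyc_tripled e ν hs
  have hmap2 : (tripled ν).map (cyc ∘ cyc) = tripled ν := by
    rw [← Measure.map_map measurable_cyc measurable_cyc, hmap, hmap]
  have c0 : Measurable fun x : E3 => x := measurable_id
  have c1 : Measurable fun x : E3 => cyc x := measurable_cyc
  have c2 : Measurable fun x : E3 => cyc (cyc x) := measurable_cyc.comp measurable_cyc
  have mtr : Measurable fun x : E3 => (x, cyc x, cyc (cyc x)) := c0.prodMk (c1.prodMk c2)
  have hK : kantorovich (tripled ν) = ENNReal.ofReal (19 / 240) := by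
    apply le_antisymm
    · refine iInf₂_le_of_le ((tripled ν).map (fun x => (x, cyc x, cyc (cyc x)))) ⟨?_, ?_, ?_⟩ ?_
      · rw [Measure.map_map measurable_fst mtr]
        exact Measure.map_id
      · have m2 : Measurable fun p : E3 × E3 × E3 => p.2.1 := measurable_fst.comp measurable_snd
        rw [Measure.map_map m2 mtr]
        exact hmap
      · have m3 : Measurable fun p : E3 × E3 × E3 => p.2.2 := measurable_snd.comp measurable_snd
        rw [Measure.map_map m3 mtr]
        exact hmap2
      · rw [lintegral_map measurable_coulomb mtr]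
        exact le_of_eq (monge_cost e ν hs)
    · exact le_iInf₂ (coupling_lower e ν he hs)
  refine ⟨isProbabilityMeasure_tripled ν, tripled_ac e ν hν hs, hK, cyc, cyc ∘ cyc,
    measurable_cyc, measurable_cyc.comp measurable_cyc, hmap, hmap2, ?_⟩
  rw [hK]
  exact monge_cost e ν hs

end main

end Vale.Agent.Lib.P121
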