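import Mathlib

namespace Vale.Agent.Lib.P121

variable {V : Type*} [NormedAddCommGroup V] [InnerProductSpace ℝ V]

/-- tangent-line bound for the convex function `d ↦ 1/d` at `L`. -/
lemma tangent_bound {d L : ℝ} (hd : 0 < d) (hL : 0 < L) : 2 / L - d / L ^ 2 ≤ d⁻¹ := by
  have h : 2 / L - d / L ^ 2 = (2 * L - d) / L ^ 2 := by field_simp
  rw [h, ← one_div, div_le_div_iff₀ (by positivity) hd]
  nlinarith [sq_nonneg (d - L)]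

lemma real_core (r1 r2 r3 s12 s23 s13 d12 d23 d13 : ℝ)
    (h1 : 1 ≤ r1) (h1' : r1 ≤ 2) (h2 : 18 ≤ r2) (h2' : r2 ≤ 19) (h3 : 61 ≤ r3) (h3' : r3 ≤ 62)
    (hd12 : 0 < d12) (hd23 : 0 < d23) (hd13 : 0 < d13)
    (e12 : d12 ^ 2 = r1 ^ 2 + r2 ^ 2 - 2 * s12) (e23 : d23 ^ 2 = r2 ^ 2 + r3 ^ 2 - 2 * s23)
    (e13 : d13 ^ 2 = r1 ^ 2 + r3 ^ 2 - 2 * s13)
    (c12 : -(r1 * r2) ≤ s12) (c23 : -(r2 * r3) ≤ s23) (c13 : s13 ≤ r1 * r3)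
    (key : 0 ≤ 3 * r1 * r2 * r3 + 2 * r3 * s12 + 2 * r1 * s23 + r2 * s13) :
    19 / 120 - r1 / 450 - 17 / 6400 * r2 - r3 / 2304 ≤ d12⁻¹ + d13⁻¹ + d23⁻¹ := by
  have t12 := tangent_bound hd12 (by norm_num : (0 : ℝ) < 20)
  have t23 := tangent_bound hd23 (by norm_num : (0 : ℝ) < 80)
  have t13 := tangent_bound hd13 (by norm_num : (0 : ℝ) < 60)
  -- the defects
  have hle12 : d12 ≤ r1 + r2 :=
    (sq_le_sq₀ hd12.le (by linarith)).mp (by linarith)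
  have hle23 : d23 ≤ r2 + r3 :=
    (sq_le_sq₀ hd23.le (by linarith)).mp (by linarith)
  have hge13 : r3 - r1 ≤ d13 :=
    (sq_le_sq₀ (by linarith) hd13.le).mp (by linarith)
  have hA : r1 * r2 + s12 ≤ 21 * (r1 + r2 - d12) := by
    nlinarith [sq_nonneg (r1 + r2 - d12),
      mul_nonneg (sub_nonneg.2 hle12) (by linarith : (0 : ℝ) ≤ 21 - (r1 + r2))]
  have hB : r2 * r3 + s23 ≤ 81 * (r2 + r3 - d23) := by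
    nlinarith [sq_nonneg (r2 + r3 - d23),
      mul_nonneg (sub_nonneg.2 hle23) (by linarith : (0 : ℝ) ≤ 81 - (r2 + r3))]
  have hC : 59 * (d13 - (r3 - r1)) ≤ r1 * r3 - s13 := by
    nlinarith [sq_nonneg (d13 - (r3 - r1)),
      mul_nonneg (sub_nonneg.2 hge13) (by linarith : (0 : ℝ) ≤ (r3 - r1) - 59)]
  have hK : 18 * (r1 * r3 - s13) ≤ 124 * (r1 * r2 + s12) + 4 * (r2 * r3 + s23) := by
    nlinarith [mul_nonneg (sub_nonneg.2 c13) (by linarith : (0 : ℝ) ≤ r2 - 18),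
      mul_nonneg (by linarith : (0 : ℝ) ≤ r1 * r2 + s12) (by linarith : (0 : ℝ) ≤ 62 - r3),
      mul_nonneg (by linarith : (0 : ℝ) ≤ r2 * r3 + s23) (by linarith : (0 : ℝ) ≤ 2 - r1)]
  norm_num at t12 t23 t13
  linarith

lemma norm_sq_three (a b c : ℝ) (x y z : V) :
    ‖a • x + b • y + c • z‖ ^ 2 = a ^ 2 * ‖x‖ ^ 2 + b ^ 2 * ‖y‖ ^ 2 + c ^ 2 * ‖z‖ ^ 2
      + 2 * a * b * inner ℝ x y + 2 * a * c * inner ℝ x z + 2 * b * c * inner ℝ y z := by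
  rw [← real_inner_self_eq_norm_sq]
  simp only [inner_add_left, inner_add_right, real_inner_smul_left, real_inner_smul_right,
    real_inner_self_eq_norm_sq]
  rw [real_inner_comm x y, real_inner_comm x z, real_inner_comm y z]
  simp only [norm_smul, Real.norm_eq_abs, mul_pow, sq_abs]
  ring

/-- The key three-body inequality: for `|x₁| ∈ [1,2]`, `|x₂| ∈ [18,19]`, `|x₃| ∈ [61,62]`
the Coulomb cost dominates a sum of functions of the three norms. -/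
lemma main_ineq (x1 x2 x3 : V)
    (h1 : 1 ≤ ‖x1‖) (h1' : ‖x1‖ ≤ 2) (h2 : 18 ≤ ‖x2‖) (h2' : ‖x2‖ ≤ 19)
    (h3 : 61 ≤ ‖x3‖) (h3' : ‖x3‖ ≤ 62) :
    19 / 120 - ‖x1‖ / 450 - 17 / 6400 * ‖x2‖ - ‖x3‖ / 2304
      ≤ (dist x1 x2)⁻¹ + (dist x1 x3)⁻¹ + (dist x2 x3)⁻¹ := by
  have n12 : x1 ≠ x2 := fun h => by rw [h] at h1'; linarith
  have n13 : x1 ≠ x3 := fun h => by rw [h] at h1'; linarith
  have n23 : x2 ≠ x3 := fun h => by rw [h] at h2'; linarith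
  have key0 := sq_nonneg ‖(‖x2‖ * ‖x3‖) • x1 + (2 * ‖x1‖ * ‖x3‖) • x2 + (‖x1‖ * ‖x2‖) • x3‖
  rw [norm_sq_three] at key0
  have key1 : 0 ≤ (2 * ‖x1‖ * ‖x2‖ * ‖x3‖) * (3 * ‖x1‖ * ‖x2‖ * ‖x3‖ + 2 * ‖x3‖ * inner ℝ x1 x2
      + 2 * ‖x1‖ * inner ℝ x2 x3 + ‖x2‖ * inner ℝ x1 x3) := by
    have e : (2 * ‖x1‖ * ‖x2‖ * ‖x3‖) * (3 * ‖x1‖ * ‖x2‖ * ‖x3‖ + 2 * ‖x3‖ * inner ℝ x1 x2
      + 2 * ‖x1‖ * inner ℝ x2 x3 + ‖x2‖ * inner ℝ x1 x3) =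
      (‖x2‖ * ‖x3‖) ^ 2 * ‖x1‖ ^ 2 + (2 * ‖x1‖ * ‖x3‖) ^ 2 * ‖x2‖ ^ 2 + (‖x1‖ * ‖x2‖) ^ 2 * ‖x3‖ ^ 2 +
        2 * (‖x2‖ * ‖x3‖) * (2 * ‖x1‖ * ‖x3‖) * inner ℝ x1 x2 +
        2 * (‖x2‖ * ‖x3‖) * (‖x1‖ * ‖x2‖) * inner ℝ x1 x3 +
        2 * (2 * ‖x1‖ * ‖x3‖) * (‖x1‖ * ‖x2‖) * inner ℝ x2 x3 := by ring
    rw [e]; exact key0
  have key : 0 ≤ 3 * ‖x1‖ * ‖x2‖ * ‖x3‖ + 2 * ‖x3‖ * inner ℝ x1 x2
      + 2 * ‖x1‖ * inner ℝ x2 x3 + ‖x2‖ * inner ℝ x1 x3 :=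
    nonneg_of_mul_nonneg_right key1 (by positivity)
  refine real_core ‖x1‖ ‖x2‖ ‖x3‖ (inner ℝ x1 x2) (inner ℝ x2 x3) (inner ℝ x1 x3) _ _ _
    h1 h1' h2 h2' h3 h3' (dist_pos.2 n12) (dist_pos.2 n23) (dist_pos.2 n13) ?_ ?_ ?_ ?_ ?_ ?_ key
  · rw [dist_eq_norm, norm_sub_sq_real]; ring
  · rw [dist_eq_norm, norm_sub_sq_real]; ring
  · rw [dist_eq_norm, norm_sub_sq_real]; ring
  · exact neg_le_of_abs_le (abs_real_inner_le_norm x1 x2)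
  · exact neg_le_of_abs_le (abs_real_inner_le_norm x2 x3)
  · exact real_inner_le_norm x1 x3

end Vale.Agent.Lib.P121
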