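import Vale.Agent.Lib.P121.Potential

namespace Vale.Agent.Lib.P121

open MeasureTheory
open scoped ENNReal

lemma radialShift_eq {t : ℝ} {x : E3} (hx : x ≠ 0) :
    radialShift t x = ((‖x‖ + t) / ‖x‖) • x := by
  have h0 : ‖x‖ ≠ 0 := norm_ne_zero_iff.2 hx
  have h1 : (‖x‖ + t) / ‖x‖ = 1 + t * ‖x‖⁻¹ := by field_simp
  rw [radialShift, h1, add_smul, one_smul]

lemma norm_radialShift {t : ℝ} {x : E3} (hx : x ≠ 0) : ‖radialShift t x‖ = |‖x‖ + t| := by
  have h0 : ‖x‖ ≠ 0 := norm_ne_zero_iff.2 hx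
  rw [radialShift_eq hx, norm_smul, Real.norm_eq_abs, abs_div, abs_norm, div_mul_cancel₀ _ h0]

lemma radialShift_zero (x : E3) : radialShift 0 x = x := by
  simp [radialShift]

lemma radialShift_radialShift_pos {s t : ℝ} {x : E3} (hx : x ≠ 0) (h : 0 < ‖x‖ + t) :
    radialShift s (radialShift t x) = radialShift (t + s) x := by
  have h0 : ‖x‖ ≠ 0 := norm_ne_zero_iff.2 hx
  have hn : ‖radialShift t x‖ = ‖x‖ + t := by rw [norm_radialShift hx, abs_of_pos h]
  have hne : radialShift t x ≠ 0 := by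
    intro h'; rw [h', norm_zero] at hn; linarith
  rw [radialShift_eq hne, hn, radialShift_eq hx, radialShift_eq hx, smul_smul]
  congr 1
  field_simp
  ring

lemma neg_div_neg_eq_neg_div_neg_aux (s t r : ℝ) (hnt : r + t ≠ 0) (h0 : r ≠ 0) :
    (-(r + t) + s) / -(r + t) * ((r + t) / r) = (r + (t - s)) / r := by
  field_simp
  ring

lemma radialShift_radialShift_neg {s t : ℝ} {x : E3} (hx : x ≠ 0) (h : ‖x‖ + t < 0) :
    radialShift s (radialShift t x) = radialShift (t - s) x := by
  have h0 : ‖x‖ ≠ 0 := norm_ne_zero_iff.2 hx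
  have hn : ‖radialShift t x‖ = -(‖x‖ + t) := by rw [norm_radialShift hx, abs_of_neg h]
  have hne : radialShift t x ≠ 0 := by
    intro h'; rw [h', norm_zero] at hn; linarith
  rw [radialShift_eq hne, hn, radialShift_eq hx, radialShift_eq hx, smul_smul]
  congr 1
  have hnt : ‖x‖ + t ≠ 0 := ne_of_lt h
  rw [neg_div_neg_eq_neg_div_neg_aux s t ‖x‖ hnt h0]

lemma dist_self_radialShift {t : ℝ} {x : E3} (hx : x ≠ 0) : dist x (radialShift t x) = |t| := by
  have h0 : ‖x‖ ≠ 0 := norm_ne_zero_iff.2 hx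
  rw [dist_eq_norm, radialShift, sub_add_cancel_left, norm_neg, norm_smul, Real.norm_eq_abs,
    abs_mul, abs_inv, abs_norm, mul_assoc, inv_mul_cancel₀ h0, mul_one]

lemma dist_radialShift_radialShift {s t : ℝ} {x : E3} (hx : x ≠ 0) :
    dist (radialShift s x) (radialShift t x) = |s - t| := by
  have h0 : ‖x‖ ≠ 0 := norm_ne_zero_iff.2 hx
  rw [dist_eq_norm, radialShift, radialShift, add_sub_add_left_eq_sub, ← sub_smul, ← sub_mul,
    norm_smul, Real.norm_eq_abs, abs_mul, abs_inv, abs_norm, mul_assoc, inv_mul_cancel₀ h0, mul_one]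

section graph

variable {e x : E3}

lemma blob1_ne_zero (h : blob1 e x) : x ≠ 0 := by
  intro h'; have := h.1; rw [h', norm_zero] at this; linarith

lemma norm_F (h : blob1 e x) : ‖radialShift (-20) x‖ = 20 - ‖x‖ := by
  rw [norm_radialShift (blob1_ne_zero h), abs_of_neg (by linarith [h.2.1])]; ring

lemma norm_G (h : blob1 e x) : ‖radialShift 60 x‖ = ‖x‖ + 60 := by
  rw [norm_radialShift (blob1_ne_zero h), abs_of_pos (by linarith [h.1])]

lemma blob2_F (h : blob1 e x) : blob2 e (radialShift (-20) x) := by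
  have hx := blob1_ne_zero h
  have h0 : ‖x‖ ≠ 0 := norm_ne_zero_iff.2 hx
  have hpos : 0 < ‖x‖ := by linarith [h.1]
  refine ⟨by rw [norm_F h]; linarith [h.2.1], by rw [norm_F h]; linarith [h.1], ?_⟩
  rw [norm_F h]
  have e1 : radialShift (-20) x + (20 - ‖x‖) • e = ((‖x‖ + -20) / ‖x‖) • (x - ‖x‖ • e) := by
    rw [radialShift_eq hx, smul_sub, smul_smul, div_mul_cancel₀ _ h0]
    have e2 : (20 - ‖x‖) • e = -((‖x‖ + -20) • e) := by
      rw [← neg_smul]; congr 1; ring
    rw [e2, sub_eq_add_neg]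
  rw [e1, norm_smul, Real.norm_eq_abs, abs_div, abs_norm, abs_of_neg (by linarith [h.2.1])]
  have := h.2.2
  rw [div_mul_eq_mul_div, div_le_div_iff₀ hpos (by norm_num)]
  nlinarith [h.1, h.2.1]

lemma blob3_G (h : blob1 e x) : blob3 e (radialShift 60 x) := by
  have hx := blob1_ne_zero h
  have h0 : ‖x‖ ≠ 0 := norm_ne_zero_iff.2 hx
  have hpos : 0 < ‖x‖ := by linarith [h.1]
  refine ⟨by rw [norm_G h]; linarith [h.1], by rw [norm_G h]; linarith [h.2.1], ?_⟩
  rw [norm_G h]
  have e1 : radialShift 60 x - (‖x‖ + 60) • e = ((‖x‖ + 60) / ‖x‖) • (x - ‖x‖ • e) := by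
    rw [radialShift_eq hx, smul_sub, smul_smul, div_mul_cancel₀ _ h0]
  rw [e1, norm_smul, Real.norm_eq_abs, abs_div, abs_norm, abs_of_pos (by linarith [h.1])]
  have := h.2.2
  rw [div_mul_eq_mul_div, div_le_div_iff₀ hpos (by norm_num)]
  nlinarith [h.1, h.2.1]

lemma pot_sum (h : blob1 e x) :
    pot x + pot (radialShift (-20) x) + pot (radialShift 60 x) = 19 / 240 := by
  rw [pot_blob1 h, pot_blob2 (blob2_F h), pot_blob3 (blob3_G h), norm_F h, norm_G h]
  ring

lemma coulomb_graph (h : blob1 e x) :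
    coulomb x (radialShift (-20) x) (radialShift 60 x) = ENNReal.ofReal (19 / 240) := by
  have hx := blob1_ne_zero h
  rw [coulomb, dist_self_radialShift hx, dist_self_radialShift hx, dist_radialShift_radialShift hx,
    ← ENNReal.ofReal_inv_of_pos (by norm_num), ← ENNReal.ofReal_inv_of_pos (by norm_num),
    ← ENNReal.ofReal_inv_of_pos (by norm_num), ← ENNReal.ofReal_add (by positivity) (by positivity),
    ← ENNReal.ofReal_add (by positivity) (by positivity)]
  norm_num

lemma cyc_1 (h : blob1 e x) : cyc x = radialShift (-20) x := by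
  simp [cyc, h.2.1]

lemma cyc_2 (h : blob1 e x) : cyc (radialShift (-20) x) = radialShift 60 x := by
  have h2 : ¬ ‖radialShift (-20) x‖ ≤ 2 := by rw [norm_F h]; have := h.2.1; intro h'; linarith
  have h3 : ‖radialShift (-20) x‖ ≤ 19 := by rw [norm_F h]; linarith [h.1]
  rw [cyc, if_neg h2, if_pos h3, radialShift_radialShift_neg (blob1_ne_zero h) (by linarith [h.2.1])]
  norm_num

lemma cyc_3 (h : blob1 e x) : cyc (radialShift 60 x) = x := by
  have h2 : ¬ ‖radialShift 60 x‖ ≤ 2 := by rw [norm_G h]; have := h.1; intro h'; linarith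
  have h3 : ¬ ‖radialShift 60 x‖ ≤ 19 := by rw [norm_G h]; have := h.1; intro h'; linarith
  rw [cyc, if_neg h2, if_neg h3, radialShift_radialShift_pos (blob1_ne_zero h) (by linarith [h.1])]
  norm_num [radialShift_zero]

lemma F_invol (h : blob1 e x) : radialShift (-20) (radialShift (-20) x) = x := by
  rw [radialShift_radialShift_neg (blob1_ne_zero h) (by linarith [h.2.1])]
  norm_num [radialShift_zero]

lemma G_inv (h : blob1 e x) : radialShift (-60) (radialShift 60 x) = x := by
  rw [radialShift_radialShift_pos (blob1_ne_zero h) (by linarith [h.1])]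
  norm_num [radialShift_zero]

end graph

end Vale.Agent.Lib.P121
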