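import Vale.Agent.Lib.P121.Defs

namespace Vale.Agent.Lib.P121

open MeasureTheory Set
open scoped ENNReal

/-- On Euclidean three-space, Lebesgue measure and the three-dimensional Hausdorff measure
have the same null sets. -/
theorem nm_volume_ac_hausdorff : (volume : Measure E3) ≪ (μH[((3 : ℕ) : ℝ)] : Measure E3) :=
  Measure.absolutelyContinuous_isAddHaarMeasure _ _

theorem nm_hausdorff_ac_volume : (μH[((3 : ℕ) : ℝ)] : Measure E3) ≪ (volume : Measure E3) :=
  Measure.absolutelyContinuous_isAddHaarMeasure _ _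

/-- A map which expands distances on `A` maps no Lebesgue non-null subset of `A` into a
Lebesgue null set. -/
theorem nm_null_of_expanding {A : Set E3} {f : E3 → E3} {κ : ℝ} (hκ : 0 < κ)
    (hexp : ∀ x ∈ A, ∀ y ∈ A, κ * ‖x - y‖ ≤ ‖f x - f y‖) {N : Set E3}
    (hN : (volume : Measure E3) N = 0) : (volume : Measure E3) (A ∩ f ⁻¹' N) = 0 := by
  set T : Set E3 := A ∩ f ⁻¹' N with hT
  set g : E3 → E3 := Function.invFunOn f A with hg
  have hgmem : ∀ y ∈ f '' A, g y ∈ A := fun y hy => Function.invFunOn_mem hy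
  have hgeq : ∀ y ∈ f '' A, f (g y) = y := fun y hy => Function.invFunOn_eq hy
  have hinj : ∀ x ∈ A, ∀ y ∈ A, f x = f y → x = y := by
    intro x hx y hy hxy
    have h1 := hexp x hx y hy
    rw [hxy, sub_self, norm_zero] at h1
    have h2 : ‖x - y‖ ≤ 0 := by
      by_contra hcon
      rw [not_le] at hcon
      have := mul_pos hκ hcon
      linarith
    have h3 : ‖x - y‖ = 0 := le_antisymm h2 (norm_nonneg _)
    exact sub_eq_zero.1 (norm_eq_zero.1 h3)
  have hgf : ∀ x ∈ A, g (f x) = x := by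
    intro x hx
    have hy : f x ∈ f '' A := mem_image_of_mem f hx
    exact hinj _ (hgmem _ hy) x hx (hgeq _ hy)
  have hLip : LipschitzOnWith (Real.toNNReal κ⁻¹) g (f '' A) := by
    apply LipschitzOnWith.of_dist_le_mul
    rintro _ ⟨x, hx, rfl⟩ _ ⟨y, hy, rfl⟩
    rw [hgf x hx, hgf y hy, dist_eq_norm, dist_eq_norm,
      Real.coe_toNNReal _ (inv_nonneg.2 hκ.le)]
    have h1 := hexp x hx y hy
    rw [inv_mul_eq_div, le_div_iff₀ hκ]
    linarith
  have hsub1 : T ⊆ g '' (f '' T) := by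
    intro x hx
    exact ⟨f x, mem_image_of_mem f hx, hgf x hx.1⟩
  have hsub2 : f '' T ⊆ N := by
    rintro _ ⟨x, hx, rfl⟩
    exact hx.2
  have hsub3 : f '' T ⊆ f '' A := image_mono inter_subset_left
  have h1 : (volume : Measure E3) (f '' T) = 0 := measure_mono_null hsub2 hN
  have h2 : (μH[((3 : ℕ) : ℝ)] : Measure E3) (f '' T) = 0 := nm_hausdorff_ac_volume h1
  have h3 : (μH[((3 : ℕ) : ℝ)] : Measure E3) (g '' (f '' T)) = 0 := by
    have h4 := (hLip.mono hsub3).hausdorffMeasure_image_le (d := ((3 : ℕ) : ℝ)) (by positivity)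
    rw [h2, mul_zero] at h4
    exact nonpos_iff_eq_zero.1 h4
  have h5 : (μH[((3 : ℕ) : ℝ)] : Measure E3) T = 0 := measure_mono_null hsub1 h3
  exact nm_volume_ac_hausdorff h5

/-- a measurable map which expands distances on `A` pushes an absolutely continuous measure
concentrated on `A` to an absolutely continuous measure. -/
theorem map_absolutelyContinuous_of_expanding {A : Set E3} (hA : MeasurableSet A)
    {f : E3 → E3} (hf : Measurable f) {κ : ℝ} (hκ : 0 < κ)
    (hexp : ∀ x ∈ A, ∀ y ∈ A, κ * ‖x - y‖ ≤ ‖f x - f y‖)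
    {α : Measure E3} (hα : α ≪ volume) (hαA : α Aᶜ = 0) : α.map f ≪ volume := by
  have _hA := hA
  refine Measure.AbsolutelyContinuous.mk fun N hN hN0 => ?_
  rw [Measure.map_apply hf hN]
  have hT : (volume : Measure E3) (A ∩ f ⁻¹' N) = 0 := nm_null_of_expanding hκ hexp hN0
  have hsub : f ⁻¹' N ⊆ Aᶜ ∪ (A ∩ f ⁻¹' N) := by
    intro x hx
    by_cases hxA : x ∈ A
    · exact Or.inr ⟨hxA, hx⟩
    · exact Or.inl hxA
  exact measure_mono_null hsub (measure_union_null hαA (hα hT))

end Vale.Agent.Lib.P121
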