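import Vale.Agent.Lib.P121.NMDefs

/-!
# P121: the five-block case table

From the distance bounds between the block centres, the bounds on the potential and the two
sheet inequalities we derive the potential inequality on the union of the five blocks, and the
rigidity statement: a contact triple that meets `B₁ ∪ C₁` lies on the first sheet.
-/

namespace Vale.Agent.Lib.P121

open MeasureTheory Set
open scoped ENNReal

theorem nm_coulomb_swap12 (x y z : E3) : coulomb y x z = coulomb x y z := by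
  simp only [coulomb, dist_comm y x]
  ring

theorem nm_coulomb_swap23 (x y z : E3) : coulomb x z y = coulomb x y z := by
  simp only [coulomb, dist_comm z y]
  ring

theorem nm_coulomb_rot (x y z : E3) : coulomb y z x = coulomb x y z := by
  simp only [coulomb, dist_comm y x, dist_comm z x]
  ring

theorem nm_le_swap12 (U : E3 → ℝ≥0∞) {x y z : E3}
    (h : U y + U x + U z ≤ coulomb y x z) : U x + U y + U z ≤ coulomb x y z := by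
  rw [nm_coulomb_swap12, add_comm (U y)] at h
  exact h

theorem nm_le_swap23 (U : E3 → ℝ≥0∞) {x y z : E3}
    (h : U x + U z + U y ≤ coulomb x z y) : U x + U y + U z ≤ coulomb x y z := by
  rw [nm_coulomb_swap23, add_right_comm] at h
  exact h

theorem nm_ge_swap12 (U : E3 → ℝ≥0∞) {x y z : E3}
    (h : coulomb x y z ≤ U x + U y + U z) : coulomb y x z ≤ U y + U x + U z := by
  rw [nm_coulomb_swap12, add_comm (U y)]
  exact h

theorem nm_ge_swap23 (U : E3 → ℝ≥0∞) {x y z : E3}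
    (h : coulomb x y z ≤ U x + U y + U z) : coulomb x z y ≤ U x + U z + U y := by
  rw [nm_coulomb_swap23, add_right_comm]
  exact h

theorem nm_onSheet_swap12 {A : Set E3} {b c : E3 → E3} {x y z : E3}
    (h : OnSheet A b c y x z) : OnSheet A b c x y z := by
  obtain ⟨a, ha, h⟩ := h
  refine ⟨a, ha, ?_⟩
  tauto

theorem nm_onSheet_swap23 {A : Set E3} {b c : E3 → E3} {x y z : E3}
    (h : OnSheet A b c x z y) : OnSheet A b c x y z := by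
  obtain ⟨a, ha, h⟩ := h
  refine ⟨a, ha, ?_⟩
  tauto

theorem nm_inv_ge {x y : E3} {d : ℝ} (hd : 0 < d) (h : dist x y ≤ d) :
    ENNReal.ofReal (1 / d) ≤ (ENNReal.ofReal (dist x y))⁻¹ := by
  rw [one_div, ENNReal.ofReal_inv_of_pos hd]
  exact ENNReal.inv_le_inv.mpr (ENNReal.ofReal_le_ofReal h)

/-- the generic strict inequality: the potential bounds add up to less than the lower bound
on the cost coming from the upper bounds on the three distances. -/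
theorem nm_strict (U : E3 → ℝ≥0∞) (x y z : E3) {d₁ d₂ d₃ u₁ u₂ u₃ : ℝ}
    (hd₁ : 0 < d₁) (hd₂ : 0 < d₂) (hd₃ : 0 < d₃)
    (h₁ : dist x y ≤ d₁) (h₂ : dist x z ≤ d₂) (h₃ : dist y z ≤ d₃)
    (hu₁ : U x ≤ ENNReal.ofReal u₁) (hu₂ : U y ≤ ENNReal.ofReal u₂)
    (hu₃ : U z ≤ ENNReal.ofReal u₃)
    (h0₁ : 0 ≤ u₁) (h0₂ : 0 ≤ u₂) (h0₃ : 0 ≤ u₃)
    (h : u₁ + u₂ + u₃ < 1 / d₁ + 1 / d₂ + 1 / d₃) :
    U x + U y + U z < coulomb x y z := by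
  have hp₁ : (0 : ℝ) ≤ 1 / d₁ := by positivity
  have hp₂ : (0 : ℝ) ≤ 1 / d₂ := by positivity
  have hp₃ : (0 : ℝ) ≤ 1 / d₃ := by positivity
  calc U x + U y + U z
      ≤ ENNReal.ofReal u₁ + ENNReal.ofReal u₂ + ENNReal.ofReal u₃ :=
        add_le_add (add_le_add hu₁ hu₂) hu₃
    _ = ENNReal.ofReal (u₁ + u₂ + u₃) := by
        rw [ENNReal.ofReal_add (add_nonneg h0₁ h0₂) h0₃, ENNReal.ofReal_add h0₁ h0₂]
    _ < ENNReal.ofReal (1 / d₁ + 1 / d₂ + 1 / d₃) :=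
        (ENNReal.ofReal_lt_ofReal_iff (by positivity)).mpr h
    _ = ENNReal.ofReal (1 / d₁) + ENNReal.ofReal (1 / d₂) + ENNReal.ofReal (1 / d₃) := by
        rw [ENNReal.ofReal_add (add_nonneg hp₁ hp₂) hp₃, ENNReal.ofReal_add hp₁ hp₂]
    _ ≤ coulomb x y z :=
        add_le_add (add_le_add (nm_inv_ge hd₁ h₁) (nm_inv_ge hd₂ h₂)) (nm_inv_ge hd₃ h₃)

/-- two points in blocks whose centres are at distance at most `D` (in either order). -/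
theorem nm_tri {x y p q : E3} {D : ℝ} (hx : dist x p ≤ 1 / 300) (hy : dist y q ≤ 1 / 300)
    (hpq : dist p q ≤ D ∨ dist q p ≤ D) : dist x y ≤ D + 2 / 300 := by
  have h1 := dist_triangle x p y
  have h2 := dist_triangle p q y
  have h3 : dist p q ≤ D := by
    rcases hpq with h | h
    · exact h
    · rwa [dist_comm] at h
  rw [dist_comm q y] at h2
  linarith

/-- two points of the same block are very close, so the cost is huge. -/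
theorem nm_same12 (U : E3 → ℝ≥0∞) (x y z p : E3)
    (hx : dist x p ≤ 1 / 300) (hy : dist y p ≤ 1 / 300)
    (ux : U x ≤ ENNReal.ofReal (326 / 1000)) (uy : U y ≤ ENNReal.ofReal (326 / 1000))
    (uz : U z ≤ ENNReal.ofReal (326 / 1000)) :
    U x + U y + U z < coulomb x y z := by
  have hxy : dist x y ≤ 1 / 150 := by
    have h := nm_tri hx hy (Or.inl (le_of_eq (dist_self p)))
    linarith
  calc U x + U y + U z
      ≤ ENNReal.ofReal (326 / 1000) + ENNReal.ofReal (326 / 1000)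
          + ENNReal.ofReal (326 / 1000) := add_le_add (add_le_add ux uy) uz
    _ = ENNReal.ofReal (326 / 1000 + 326 / 1000 + 326 / 1000) := by
        rw [ENNReal.ofReal_add (by norm_num) (by norm_num),
          ENNReal.ofReal_add (by norm_num) (by norm_num)]
    _ < ENNReal.ofReal (1 / (1 / 150)) :=
        (ENNReal.ofReal_lt_ofReal_iff (by norm_num)).mpr (by norm_num)
    _ ≤ (ENNReal.ofReal (dist x y))⁻¹ := nm_inv_ge (by norm_num) hxy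
    _ ≤ coulomb x y z := by
        unfold coulomb
        exact le_add_right (le_add_right le_rfl)

theorem nm_same13 (U : E3 → ℝ≥0∞) (x y z p : E3)
    (hx : dist x p ≤ 1 / 300) (hz : dist z p ≤ 1 / 300)
    (ux : U x ≤ ENNReal.ofReal (326 / 1000)) (uy : U y ≤ ENNReal.ofReal (326 / 1000))
    (uz : U z ≤ ENNReal.ofReal (326 / 1000)) :
    U x + U y + U z < coulomb x y z := by
  have h := nm_same12 U x z y p hx hz ux uz uy
  rw [nm_coulomb_swap23, add_right_comm] at h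
  exact h

theorem nm_same23 (U : E3 → ℝ≥0∞) (x y z p : E3)
    (hy : dist y p ≤ 1 / 300) (hz : dist z p ≤ 1 / 300)
    (ux : U x ≤ ENNReal.ofReal (326 / 1000)) (uy : U y ≤ ENNReal.ofReal (326 / 1000))
    (uz : U z ≤ ENNReal.ofReal (326 / 1000)) :
    U x + U y + U z < coulomb x y z := by
  have h := nm_same12 U y z x p hy hz uy uz ux
  rw [nm_coulomb_rot, add_comm, ← add_assoc] at h
  exact h

/-- three corner points: all distances are at most `8 + 2/300`. -/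
theorem nm_c3 (U : E3 → ℝ≥0∞) (x y z : E3)
    (hxy : dist x y ≤ 8 + 2 / 300) (hxz : dist x z ≤ 8 + 2 / 300)
    (hyz : dist y z ≤ 8 + 2 / 300)
    (ux : U x ≤ ENNReal.ofReal (101 / 1000)) (uy : U y ≤ ENNReal.ofReal (101 / 1000))
    (uz : U z ≤ ENNReal.ofReal (101 / 1000)) :
    U x + U y + U z < coulomb x y z :=
  nm_strict U x y z (by norm_num) (by norm_num) (by norm_num) hxy hxz hyz ux uy uz
    (by norm_num) (by norm_num) (by norm_num) (by norm_num)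

/-- a point of the block `A` and two points of adjacent corner blocks. -/
theorem nm_adj (U : E3 → ℝ≥0∞) (a y z pA q r : E3)
    (ha : dist a pA ≤ 1 / 300) (hy : dist y q ≤ 1 / 300) (hz : dist z r ≤ 1 / 300)
    (hq : dist pA q ≤ 5) (hr : dist pA r ≤ 5)
    (hqr : dist q r ≤ 566 / 100 ∨ dist r q ≤ 566 / 100)
    (ua : U a ≤ ENNReal.ofReal (326 / 1000)) (uy : U y ≤ ENNReal.ofReal (101 / 1000))
    (uz : U z ≤ ENNReal.ofReal (101 / 1000)) :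
    U a + U y + U z < coulomb a y z :=
  nm_strict U a y z (by norm_num) (by norm_num) (by norm_num)
    (nm_tri ha hy (Or.inl hq)) (nm_tri ha hz (Or.inl hr)) (nm_tri hy hz hqr) ua uy uz
    (by norm_num) (by norm_num) (by norm_num) (by norm_num)

theorem cases_of_tables
    (A B₁ C₁ B₂ C₂ : Set E3) (pA pB₁ pC₁ pB₂ pC₂ : E3)
    (rA : ∀ x ∈ A, dist x pA ≤ 1 / 300) (rB₁ : ∀ x ∈ B₁, dist x pB₁ ≤ 1 / 300)
    (rC₁ : ∀ x ∈ C₁, dist x pC₁ ≤ 1 / 300) (rB₂ : ∀ x ∈ B₂, dist x pB₂ ≤ 1 / 300)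
    (rC₂ : ∀ x ∈ C₂, dist x pC₂ ≤ 1 / 300)
    (dAB₁ : dist pA pB₁ ≤ 5) (dAC₁ : dist pA pC₁ ≤ 5) (dAB₂ : dist pA pB₂ ≤ 5)
    (dAC₂ : dist pA pC₂ ≤ 5) (dB₁C₁ : dist pB₁ pC₁ ≤ 8) (dB₂C₂ : dist pB₂ pC₂ ≤ 8)
    (dB₁B₂ : dist pB₁ pB₂ ≤ 566 / 100) (dB₁C₂ : dist pB₁ pC₂ ≤ 566 / 100)
    (dC₁B₂ : dist pC₁ pB₂ ≤ 566 / 100) (dC₁C₂ : dist pC₁ pC₂ ≤ 566 / 100)
    (U : E3 → ℝ≥0∞)
    (uA : ∀ x ∈ A, U x ≤ ENNReal.ofReal (326 / 1000))
    (uB₁ : ∀ x ∈ B₁, U x ≤ ENNReal.ofReal (101 / 1000))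
    (uC₁ : ∀ x ∈ C₁, U x ≤ ENNReal.ofReal (101 / 1000))
    (uB₂ : ∀ x ∈ B₂, U x ≤ ENNReal.ofReal (101 / 1000))
    (uC₂ : ∀ x ∈ C₂, U x ≤ ENNReal.ofReal (101 / 1000))
    (b₁ c₁ : E3 → E3)
    (h1 : ∀ a ∈ A, ∀ b ∈ B₁, ∀ c ∈ C₁, U a + U b + U c ≤ coulomb a b c ∧
      (coulomb a b c ≤ U a + U b + U c → b = b₁ a ∧ c = c₁ a))
    (h2 : ∀ a ∈ A, ∀ b ∈ B₂, ∀ c ∈ C₂, U a + U b + U c ≤ coulomb a b c) :
    (∀ x ∈ A ∪ B₁ ∪ C₁ ∪ B₂ ∪ C₂, ∀ y ∈ A ∪ B₁ ∪ C₁ ∪ B₂ ∪ C₂,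
      ∀ z ∈ A ∪ B₁ ∪ C₁ ∪ B₂ ∪ C₂, U x + U y + U z ≤ coulomb x y z) ∧
    (∀ x ∈ A ∪ B₁ ∪ C₁ ∪ B₂ ∪ C₂, ∀ y ∈ A ∪ B₁ ∪ C₁ ∪ B₂ ∪ C₂,
      ∀ z ∈ A ∪ B₁ ∪ C₁ ∪ B₂ ∪ C₂, coulomb x y z ≤ U x + U y + U z →
      (x ∈ B₁ ∪ C₁ ∨ y ∈ B₁ ∪ C₁ ∨ z ∈ B₁ ∪ C₁) → OnSheet A b₁ c₁ x y z) := by
  -- the two kinds of points: points of `A` and corner points
  have key : ∀ x ∈ A ∪ B₁ ∪ C₁ ∪ B₂ ∪ C₂, x ∈ A ∨ (x ∈ B₁ ∨ x ∈ C₁ ∨ x ∈ B₂ ∨ x ∈ C₂) := by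
    rintro x ((((h | h) | h) | h) | h)
    · exact Or.inl h
    · exact Or.inr (Or.inl h)
    · exact Or.inr (Or.inr (Or.inl h))
    · exact Or.inr (Or.inr (Or.inr (Or.inl h)))
    · exact Or.inr (Or.inr (Or.inr (Or.inr h)))
  have hw : ENNReal.ofReal (101 / 1000) ≤ ENNReal.ofReal (326 / 1000) :=
    ENNReal.ofReal_le_ofReal (by norm_num)
  have h566 : (566 / 100 : ℝ) ≤ 8 := by norm_num
  have h0 : ∀ p : E3, dist p p ≤ 8 := fun p => by rw [dist_self]; norm_num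
  -- bounds on the potential at the corner points
  have uK : ∀ y, (y ∈ B₁ ∨ y ∈ C₁ ∨ y ∈ B₂ ∨ y ∈ C₂) → U y ≤ ENNReal.ofReal (101 / 1000) := by
    rintro y (h | h | h | h)
    · exact uB₁ y h
    · exact uC₁ y h
    · exact uB₂ y h
    · exact uC₂ y h
  have wK : ∀ y, (y ∈ B₁ ∨ y ∈ C₁ ∨ y ∈ B₂ ∨ y ∈ C₂) → U y ≤ ENNReal.ofReal (326 / 1000) :=
    fun y hy => (uK y hy).trans hw
  have wAll : ∀ y, (y ∈ A ∨ (y ∈ B₁ ∨ y ∈ C₁ ∨ y ∈ B₂ ∨ y ∈ C₂)) →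
      U y ≤ ENNReal.ofReal (326 / 1000) := by
    rintro y (h | h)
    · exact uA y h
    · exact wK y h
  -- two corner points are at distance at most `8 + 2/300`
  have dKK : ∀ y z, (y ∈ B₁ ∨ y ∈ C₁ ∨ y ∈ B₂ ∨ y ∈ C₂) → (z ∈ B₁ ∨ z ∈ C₁ ∨ z ∈ B₂ ∨ z ∈ C₂) →
      dist y z ≤ 8 + 2 / 300 := by
    rintro y z (hy | hy | hy | hy) (hz | hz | hz | hz)
    · exact nm_tri (rB₁ y hy) (rB₁ z hz) (Or.inl (h0 _))
    · exact nm_tri (rB₁ y hy) (rC₁ z hz) (Or.inl dB₁C₁)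
    · exact nm_tri (rB₁ y hy) (rB₂ z hz) (Or.inl (dB₁B₂.trans h566))
    · exact nm_tri (rB₁ y hy) (rC₂ z hz) (Or.inl (dB₁C₂.trans h566))
    · exact nm_tri (rC₁ y hy) (rB₁ z hz) (Or.inr dB₁C₁)
    · exact nm_tri (rC₁ y hy) (rC₁ z hz) (Or.inl (h0 _))
    · exact nm_tri (rC₁ y hy) (rB₂ z hz) (Or.inl (dC₁B₂.trans h566))
    · exact nm_tri (rC₁ y hy) (rC₂ z hz) (Or.inl (dC₁C₂.trans h566))
    · exact nm_tri (rB₂ y hy) (rB₁ z hz) (Or.inr (dB₁B₂.trans h566))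
    · exact nm_tri (rB₂ y hy) (rC₁ z hz) (Or.inr (dC₁B₂.trans h566))
    · exact nm_tri (rB₂ y hy) (rB₂ z hz) (Or.inl (h0 _))
    · exact nm_tri (rB₂ y hy) (rC₂ z hz) (Or.inl dB₂C₂)
    · exact nm_tri (rC₂ y hy) (rB₁ z hz) (Or.inr (dB₁C₂.trans h566))
    · exact nm_tri (rC₂ y hy) (rC₁ z hz) (Or.inr (dC₁C₂.trans h566))
    · exact nm_tri (rC₂ y hy) (rB₂ z hz) (Or.inr dB₂C₂)
    · exact nm_tri (rC₂ y hy) (rC₂ z hz) (Or.inl (h0 _))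
  -- three corner points: strict inequality
  have hKKK : ∀ x y z, (x ∈ B₁ ∨ x ∈ C₁ ∨ x ∈ B₂ ∨ x ∈ C₂) →
      (y ∈ B₁ ∨ y ∈ C₁ ∨ y ∈ B₂ ∨ y ∈ C₂) → (z ∈ B₁ ∨ z ∈ C₁ ∨ z ∈ B₂ ∨ z ∈ C₂) →
      U x + U y + U z < coulomb x y z := fun x y z hx hy hz =>
    nm_c3 U x y z (dKK x y hx hy) (dKK x z hx hz) (dKK y z hy hz) (uK x hx) (uK y hy) (uK z hz)
  -- a point of `A` and two corner points: the inequality
  have hAcc : ∀ a ∈ A, ∀ y z, (y ∈ B₁ ∨ y ∈ C₁ ∨ y ∈ B₂ ∨ y ∈ C₂) →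
      (z ∈ B₁ ∨ z ∈ C₁ ∨ z ∈ B₂ ∨ z ∈ C₂) → U a + U y + U z ≤ coulomb a y z := by
    rintro a ha y z (hy | hy | hy | hy) (hz | hz | hz | hz)
    · exact (nm_same23 U a y z pB₁ (rB₁ y hy) (rB₁ z hz) (uA a ha) ((uB₁ y hy).trans hw)
        ((uB₁ z hz).trans hw)).le
    · exact (h1 a ha y hy z hz).1
    · exact (nm_adj U a y z pA pB₁ pB₂ (rA a ha) (rB₁ y hy) (rB₂ z hz) dAB₁ dAB₂
        (Or.inl dB₁B₂) (uA a ha) (uB₁ y hy) (uB₂ z hz)).le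
    · exact (nm_adj U a y z pA pB₁ pC₂ (rA a ha) (rB₁ y hy) (rC₂ z hz) dAB₁ dAC₂
        (Or.inl dB₁C₂) (uA a ha) (uB₁ y hy) (uC₂ z hz)).le
    · exact nm_le_swap23 U (h1 a ha z hz y hy).1
    · exact (nm_same23 U a y z pC₁ (rC₁ y hy) (rC₁ z hz) (uA a ha) ((uC₁ y hy).trans hw)
        ((uC₁ z hz).trans hw)).le
    · exact (nm_adj U a y z pA pC₁ pB₂ (rA a ha) (rC₁ y hy) (rB₂ z hz) dAC₁ dAB₂
        (Or.inl dC₁B₂) (uA a ha) (uC₁ y hy) (uB₂ z hz)).le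
    · exact (nm_adj U a y z pA pC₁ pC₂ (rA a ha) (rC₁ y hy) (rC₂ z hz) dAC₁ dAC₂
        (Or.inl dC₁C₂) (uA a ha) (uC₁ y hy) (uC₂ z hz)).le
    · exact (nm_adj U a y z pA pB₂ pB₁ (rA a ha) (rB₂ y hy) (rB₁ z hz) dAB₂ dAB₁
        (Or.inr dB₁B₂) (uA a ha) (uB₂ y hy) (uB₁ z hz)).le
    · exact (nm_adj U a y z pA pB₂ pC₁ (rA a ha) (rB₂ y hy) (rC₁ z hz) dAB₂ dAC₁
        (Or.inr dC₁B₂) (uA a ha) (uB₂ y hy) (uC₁ z hz)).le
    · exact (nm_same23 U a y z pB₂ (rB₂ y hy) (rB₂ z hz) (uA a ha) ((uB₂ y hy).trans hw)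
        ((uB₂ z hz).trans hw)).le
    · exact h2 a ha y hy z hz
    · exact (nm_adj U a y z pA pC₂ pB₁ (rA a ha) (rC₂ y hy) (rB₁ z hz) dAC₂ dAB₁
        (Or.inr dB₁C₂) (uA a ha) (uC₂ y hy) (uB₁ z hz)).le
    · exact (nm_adj U a y z pA pC₂ pC₁ (rA a ha) (rC₂ y hy) (rC₁ z hz) dAC₂ dAC₁
        (Or.inr dC₁C₂) (uA a ha) (uC₂ y hy) (uC₁ z hz)).le
    · exact nm_le_swap23 U (h2 a ha z hz y hy)
    · exact (nm_same23 U a y z pC₂ (rC₂ y hy) (rC₂ z hz) (uA a ha) ((uC₂ y hy).trans hw)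
        ((uC₂ z hz).trans hw)).le
  -- a point of `A`, a point of `B₁ ∪ C₁` and a corner point: rigidity
  have hAccRig : ∀ a ∈ A, ∀ y z, (y ∈ B₁ ∨ y ∈ C₁) → (z ∈ B₁ ∨ z ∈ C₁ ∨ z ∈ B₂ ∨ z ∈ C₂) →
      coulomb a y z ≤ U a + U y + U z → OnSheet A b₁ c₁ a y z := by
    rintro a ha y z (hy | hy) (hz | hz | hz | hz) hle
    · exact absurd hle (not_le.mpr (nm_same23 U a y z pB₁ (rB₁ y hy) (rB₁ z hz) (uA a ha)
        ((uB₁ y hy).trans hw) ((uB₁ z hz).trans hw)))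
    · obtain ⟨e1, e2⟩ := (h1 a ha y hy z hz).2 hle
      exact ⟨a, ha, Or.inl ⟨rfl, e1, e2⟩⟩
    · exact absurd hle (not_le.mpr (nm_adj U a y z pA pB₁ pB₂ (rA a ha) (rB₁ y hy) (rB₂ z hz)
        dAB₁ dAB₂ (Or.inl dB₁B₂) (uA a ha) (uB₁ y hy) (uB₂ z hz)))
    · exact absurd hle (not_le.mpr (nm_adj U a y z pA pB₁ pC₂ (rA a ha) (rB₁ y hy) (rC₂ z hz)
        dAB₁ dAC₂ (Or.inl dB₁C₂) (uA a ha) (uB₁ y hy) (uC₂ z hz)))
    · obtain ⟨e1, e2⟩ := (h1 a ha z hz y hy).2 (nm_ge_swap23 U hle)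
      exact ⟨a, ha, Or.inr (Or.inl ⟨rfl, e2, e1⟩)⟩
    · exact absurd hle (not_le.mpr (nm_same23 U a y z pC₁ (rC₁ y hy) (rC₁ z hz) (uA a ha)
        ((uC₁ y hy).trans hw) ((uC₁ z hz).trans hw)))
    · exact absurd hle (not_le.mpr (nm_adj U a y z pA pC₁ pB₂ (rA a ha) (rC₁ y hy) (rB₂ z hz)
        dAC₁ dAB₂ (Or.inl dC₁B₂) (uA a ha) (uC₁ y hy) (uB₂ z hz)))
    · exact absurd hle (not_le.mpr (nm_adj U a y z pA pC₁ pC₂ (rA a ha) (rC₁ y hy) (rC₂ z hz)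
        dAC₁ dAC₂ (Or.inl dC₁C₂) (uA a ha) (uC₁ y hy) (uC₂ z hz)))
  -- the inequality for all kinds
  have hineq : ∀ x y z, (x ∈ A ∨ (x ∈ B₁ ∨ x ∈ C₁ ∨ x ∈ B₂ ∨ x ∈ C₂)) →
      (y ∈ A ∨ (y ∈ B₁ ∨ y ∈ C₁ ∨ y ∈ B₂ ∨ y ∈ C₂)) →
      (z ∈ A ∨ (z ∈ B₁ ∨ z ∈ C₁ ∨ z ∈ B₂ ∨ z ∈ C₂)) → U x + U y + U z ≤ coulomb x y z := by
    intro x y z hx hy hz
    rcases hx with kx | kx
    · rcases hy with ky | ky
      · exact (nm_same12 U x y z pA (rA x kx) (rA y ky) (uA x kx) (uA y ky) (wAll z hz)).le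
      · rcases hz with kz | kz
        · exact (nm_same13 U x y z pA (rA x kx) (rA z kz) (uA x kx) (wK y ky) (uA z kz)).le
        · exact hAcc x kx y z ky kz
    · rcases hy with ky | ky
      · rcases hz with kz | kz
        · exact (nm_same23 U x y z pA (rA y ky) (rA z kz) (wK x kx) (uA y ky) (uA z kz)).le
        · exact nm_le_swap12 U (hAcc y ky x z kx kz)
      · rcases hz with kz | kz
        · exact nm_le_swap23 U (nm_le_swap12 U (hAcc z kz x y kx ky))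
        · exact (hKKK x y z kx ky kz).le
  -- rigidity when the first point lies in `B₁ ∪ C₁`
  have hrigx : ∀ x y z, (x ∈ B₁ ∨ x ∈ C₁) → (y ∈ A ∨ (y ∈ B₁ ∨ y ∈ C₁ ∨ y ∈ B₂ ∨ y ∈ C₂)) →
      (z ∈ A ∨ (z ∈ B₁ ∨ z ∈ C₁ ∨ z ∈ B₂ ∨ z ∈ C₂)) → coulomb x y z ≤ U x + U y + U z →
      OnSheet A b₁ c₁ x y z := by
    intro x y z hx hy hz hle
    have kx : x ∈ B₁ ∨ x ∈ C₁ ∨ x ∈ B₂ ∨ x ∈ C₂ := by
      rcases hx with h | h
      · exact Or.inl h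
      · exact Or.inr (Or.inl h)
    rcases hy with ky | ky
    · rcases hz with kz | kz
      · exact absurd hle (not_le.mpr
          (nm_same23 U x y z pA (rA y ky) (rA z kz) (wK x kx) (uA y ky) (uA z kz)))
      · exact nm_onSheet_swap12 (hAccRig y ky x z hx kz (nm_ge_swap12 U hle))
    · rcases hz with kz | kz
      · exact nm_onSheet_swap23 (nm_onSheet_swap12
          (hAccRig z kz x y hx ky (nm_ge_swap12 U (nm_ge_swap23 U hle))))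
      · exact absurd hle (not_le.mpr (hKKK x y z kx ky kz))
  refine ⟨fun x hx y hy z hz => hineq x y z (key x hx) (key y hy) (key z hz), ?_⟩
  intro x hx y hy z hz hle h
  rcases h with h | h | h
  · exact hrigx x y z h (key y hy) (key z hz) hle
  · exact nm_onSheet_swap12 (hrigx y x z h (key x hx) (key z hz) (nm_ge_swap12 U hle))
  · exact nm_onSheet_swap23 (nm_onSheet_swap12
      (hrigx z x y h (key x hx) (key y hy) (nm_ge_swap12 U (nm_ge_swap23 U hle))))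

end Vale.Agent.Lib.P121
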