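import Vale.Agent.Lib.P121.NMDefs

namespace Vale.Agent.Lib.P121

open MeasureTheory Set
open scoped ENNReal

/-! ### arithmetic in `ℝ≥0∞` -/

theorem nm_inv_three : (3 : ℝ≥0∞)⁻¹ = 6⁻¹ + 6⁻¹ := by
  rw [← two_mul, show (6 : ℝ≥0∞) = 2 * 3 by norm_num,
    ENNReal.mul_inv (Or.inl two_ne_zero) (Or.inl ENNReal.ofNat_ne_top), ← mul_assoc,
    ENNReal.mul_inv_cancel two_ne_zero ENNReal.ofNat_ne_top, one_mul]

theorem nm_six_mul_inv_six : (6 : ℝ≥0∞) * 6⁻¹ = 1 :=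
  ENNReal.mul_inv_cancel (by norm_num) ENNReal.ofNat_ne_top

theorem nm_six_mul (x y : ℝ≥0∞) : 6 * (3⁻¹ * x + 6⁻¹ * y) = 2 * x + y := by
  rw [nm_inv_three]
  calc (6 : ℝ≥0∞) * ((6⁻¹ + 6⁻¹) * x + 6⁻¹ * y) = (6 * 6⁻¹) * (2 * x + y) := by ring
    _ = 2 * x + y := by rw [nm_six_mul_inv_six, one_mul]

/-! ### the five-block measure -/

theorem nm_fiveBlock_apply (α : Measure E3) {b₁ c₁ b₂ c₂ : E3 → E3}
    (hb₁ : Measurable b₁) (hc₁ : Measurable c₁) (hb₂ : Measurable b₂) (hc₂ : Measurable c₂)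
    {E : Set E3} (hE : MeasurableSet E) :
    fiveBlock α b₁ c₁ b₂ c₂ E = 3⁻¹ * α E +
      6⁻¹ * (α (b₁ ⁻¹' E) + α (c₁ ⁻¹' E) + α (b₂ ⁻¹' E) + α (c₂ ⁻¹' E)) := by
  unfold fiveBlock
  simp only [Measure.add_apply, Measure.smul_apply, smul_eq_mul, Measure.map_apply hb₁ hE,
    Measure.map_apply hc₁ hE, Measure.map_apply hb₂ hE, Measure.map_apply hc₂ hE]

theorem nm_six_fiveBlock_apply (α : Measure E3) {b₁ c₁ b₂ c₂ : E3 → E3}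
    (hb₁ : Measurable b₁) (hc₁ : Measurable c₁) (hb₂ : Measurable b₂) (hc₂ : Measurable c₂)
    {E : Set E3} (hE : MeasurableSet E) :
    6 * fiveBlock α b₁ c₁ b₂ c₂ E = 2 * α E +
      (α (b₁ ⁻¹' E) + α (c₁ ⁻¹' E) + α (b₂ ⁻¹' E) + α (c₂ ⁻¹' E)) := by
  rw [nm_fiveBlock_apply α hb₁ hc₁ hb₂ hc₂ hE, nm_six_mul]

theorem nm_isProbabilityMeasure_fiveBlock (α : Measure E3) [IsProbabilityMeasure α]
    {b₁ c₁ b₂ c₂ : E3 → E3}
    (hb₁ : Measurable b₁) (hc₁ : Measurable c₁) (hb₂ : Measurable b₂) (hc₂ : Measurable c₂) :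
    IsProbabilityMeasure (fiveBlock α b₁ c₁ b₂ c₂) := by
  constructor
  have h := nm_six_fiveBlock_apply α hb₁ hc₁ hb₂ hc₂ MeasurableSet.univ
  simp only [preimage_univ, measure_univ] at h
  have h6 : (6 : ℝ≥0∞) * fiveBlock α b₁ c₁ b₂ c₂ univ = 6 * 1 := by
    rw [h]; norm_num
  exact (ENNReal.mul_right_inj (by norm_num) ENNReal.ofNat_ne_top).mp h6

theorem nm_lintegral_fiveBlock (α : Measure E3) {b₁ c₁ b₂ c₂ : E3 → E3}
    (hb₁ : Measurable b₁) (hc₁ : Measurable c₁) (hb₂ : Measurable b₂) (hc₂ : Measurable c₂)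
    {U : E3 → ℝ≥0∞} (hU : Measurable U) :
    ∫⁻ x, U x ∂(fiveBlock α b₁ c₁ b₂ c₂) = 3⁻¹ * ∫⁻ a, U a ∂α +
      6⁻¹ * (∫⁻ a, U (b₁ a) ∂α + ∫⁻ a, U (c₁ a) ∂α + ∫⁻ a, U (b₂ a) ∂α + ∫⁻ a, U (c₂ a) ∂α) := by
  unfold fiveBlock
  rw [lintegral_add_measure, lintegral_smul_measure, lintegral_smul_measure,
    lintegral_add_measure, lintegral_add_measure, lintegral_add_measure,
    lintegral_map hU hb₁, lintegral_map hU hc₁, lintegral_map hU hb₂, lintegral_map hU hc₂]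
  simp only [smul_eq_mul]

/-! ### the symmetrised two-sheet plan and the upper bound for the Kantorovich value -/

theorem nm_coulomb_rot (x y z : E3) : coulomb y z x = coulomb x y z := by
  unfold coulomb
  rw [dist_comm y x, dist_comm z x]
  ring

theorem nm_measurable_coulomb :
    Measurable (fun p : E3 × E3 × E3 => coulomb p.1 p.2.1 p.2.2) := by
  unfold coulomb
  fun_prop

theorem nm_measurable_coulomb_comp {T₂ T₃ : E3 → E3} (hT₂ : Measurable T₂)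
    (hT₃ : Measurable T₃) : Measurable (fun x => coulomb x (T₂ x) (T₃ x)) := by
  unfold coulomb
  fun_prop

/-- the symmetrised plan carried by the two sheets. -/
noncomputable def nm_plan (α : Measure E3) (b₁ c₁ b₂ c₂ : E3 → E3) : Measure (E3 × E3 × E3) :=
  (6 : ℝ≥0∞)⁻¹ • (α.map (fun a => (a, b₁ a, c₁ a)) + α.map (fun a => (b₁ a, c₁ a, a)) +
    α.map (fun a => (c₁ a, a, b₁ a)) + α.map (fun a => (a, b₂ a, c₂ a)) +
    α.map (fun a => (b₂ a, c₂ a, a)) + α.map (fun a => (c₂ a, a, b₂ a)))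

theorem nm_plan_apply (α : Measure E3) {b₁ c₁ b₂ c₂ : E3 → E3}
    (hb₁ : Measurable b₁) (hc₁ : Measurable c₁) (hb₂ : Measurable b₂) (hc₂ : Measurable c₂)
    {F : Set (E3 × E3 × E3)} (hF : MeasurableSet F) :
    nm_plan α b₁ c₁ b₂ c₂ F = 6⁻¹ * (α ((fun a => (a, b₁ a, c₁ a)) ⁻¹' F) +
      α ((fun a => (b₁ a, c₁ a, a)) ⁻¹' F) + α ((fun a => (c₁ a, a, b₁ a)) ⁻¹' F) +
      α ((fun a => (a, b₂ a, c₂ a)) ⁻¹' F) + α ((fun a => (b₂ a, c₂ a, a)) ⁻¹' F) +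
      α ((fun a => (c₂ a, a, b₂ a)) ⁻¹' F)) := by
  unfold nm_plan
  simp only [Measure.add_apply, Measure.smul_apply, smul_eq_mul]
  rw [Measure.map_apply (by fun_prop) hF, Measure.map_apply (by fun_prop) hF,
    Measure.map_apply (by fun_prop) hF, Measure.map_apply (by fun_prop) hF,
    Measure.map_apply (by fun_prop) hF, Measure.map_apply (by fun_prop) hF]

theorem nm_isCoupling_plan (α : Measure E3) {b₁ c₁ b₂ c₂ : E3 → E3}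
    (hb₁ : Measurable b₁) (hc₁ : Measurable c₁) (hb₂ : Measurable b₂) (hc₂ : Measurable c₂) :
    IsCoupling (fiveBlock α b₁ c₁ b₂ c₂) (nm_plan α b₁ c₁ b₂ c₂) := by
  refine ⟨?_, ?_, ?_⟩
  · refine Measure.ext fun E hE => ?_
    rw [Measure.map_apply (by fun_prop) hE,
      nm_plan_apply α hb₁ hc₁ hb₂ hc₂ (measurable_fst hE),
      nm_fiveBlock_apply α hb₁ hc₁ hb₂ hc₂ hE]
    change 6⁻¹ * (α E + α (b₁ ⁻¹' E) + α (c₁ ⁻¹' E) + α E + α (b₂ ⁻¹' E) + α (c₂ ⁻¹' E)) = _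
    rw [nm_inv_three]
    ring
  · refine Measure.ext fun E hE => ?_
    have hm : Measurable (fun p : E3 × E3 × E3 => p.2.1) := by fun_prop
    rw [Measure.map_apply hm hE,
      nm_plan_apply α hb₁ hc₁ hb₂ hc₂ (hm hE),
      nm_fiveBlock_apply α hb₁ hc₁ hb₂ hc₂ hE]
    change 6⁻¹ * (α (b₁ ⁻¹' E) + α (c₁ ⁻¹' E) + α E + α (b₂ ⁻¹' E) + α (c₂ ⁻¹' E) + α E) = _
    rw [nm_inv_three]
    ring
  · refine Measure.ext fun E hE => ?_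
    have hm : Measurable (fun p : E3 × E3 × E3 => p.2.2) := by fun_prop
    rw [Measure.map_apply hm hE,
      nm_plan_apply α hb₁ hc₁ hb₂ hc₂ (hm hE),
      nm_fiveBlock_apply α hb₁ hc₁ hb₂ hc₂ hE]
    change 6⁻¹ * (α (c₁ ⁻¹' E) + α E + α (b₁ ⁻¹' E) + α (c₂ ⁻¹' E) + α E + α (b₂ ⁻¹' E)) = _
    rw [nm_inv_three]
    ring

theorem nm_lintegral_plan (α : Measure E3) {b₁ c₁ b₂ c₂ : E3 → E3}
    (hb₁ : Measurable b₁) (hc₁ : Measurable c₁) (hb₂ : Measurable b₂) (hc₂ : Measurable c₂) :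
    ∫⁻ p, coulomb p.1 p.2.1 p.2.2 ∂(nm_plan α b₁ c₁ b₂ c₂) =
      6⁻¹ * (3 * ∫⁻ a, coulomb a (b₁ a) (c₁ a) ∂α + 3 * ∫⁻ a, coulomb a (b₂ a) (c₂ a) ∂α) := by
  have i1 : ∫⁻ p, coulomb p.1 p.2.1 p.2.2 ∂(α.map (fun a => (a, b₁ a, c₁ a))) =
      ∫⁻ a, coulomb a (b₁ a) (c₁ a) ∂α :=
    lintegral_map nm_measurable_coulomb (by fun_prop)
  have i2 : ∫⁻ p, coulomb p.1 p.2.1 p.2.2 ∂(α.map (fun a => (b₁ a, c₁ a, a))) =
      ∫⁻ a, coulomb a (b₁ a) (c₁ a) ∂α := by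
    rw [lintegral_map nm_measurable_coulomb (by fun_prop)]
    exact lintegral_congr fun a => nm_coulomb_rot a (b₁ a) (c₁ a)
  have i3 : ∫⁻ p, coulomb p.1 p.2.1 p.2.2 ∂(α.map (fun a => (c₁ a, a, b₁ a))) =
      ∫⁻ a, coulomb a (b₁ a) (c₁ a) ∂α := by
    rw [lintegral_map nm_measurable_coulomb (by fun_prop)]
    exact lintegral_congr fun a =>
      (nm_coulomb_rot (b₁ a) (c₁ a) a).trans (nm_coulomb_rot a (b₁ a) (c₁ a))
  have i4 : ∫⁻ p, coulomb p.1 p.2.1 p.2.2 ∂(α.map (fun a => (a, b₂ a, c₂ a))) =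
      ∫⁻ a, coulomb a (b₂ a) (c₂ a) ∂α :=
    lintegral_map nm_measurable_coulomb (by fun_prop)
  have i5 : ∫⁻ p, coulomb p.1 p.2.1 p.2.2 ∂(α.map (fun a => (b₂ a, c₂ a, a))) =
      ∫⁻ a, coulomb a (b₂ a) (c₂ a) ∂α := by
    rw [lintegral_map nm_measurable_coulomb (by fun_prop)]
    exact lintegral_congr fun a => nm_coulomb_rot a (b₂ a) (c₂ a)
  have i6 : ∫⁻ p, coulomb p.1 p.2.1 p.2.2 ∂(α.map (fun a => (c₂ a, a, b₂ a))) =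
      ∫⁻ a, coulomb a (b₂ a) (c₂ a) ∂α := by
    rw [lintegral_map nm_measurable_coulomb (by fun_prop)]
    exact lintegral_congr fun a =>
      (nm_coulomb_rot (b₂ a) (c₂ a) a).trans (nm_coulomb_rot a (b₂ a) (c₂ a))
  unfold nm_plan
  rw [lintegral_smul_measure, lintegral_add_measure, lintegral_add_measure,
    lintegral_add_measure, lintegral_add_measure, lintegral_add_measure,
    i1, i2, i3, i4, i5, i6, smul_eq_mul]
  ring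

theorem nm_kantorovich_le (α : Measure E3) {A : Set E3} (hαA : α Aᶜ = 0)
    {b₁ c₁ b₂ c₂ : E3 → E3}
    (hb₁ : Measurable b₁) (hc₁ : Measurable c₁) (hb₂ : Measurable b₂) (hc₂ : Measurable c₂)
    {U : E3 → ℝ≥0∞} (hU : Measurable U)
    (heq₁ : ∀ a ∈ A, coulomb a (b₁ a) (c₁ a) = U a + U (b₁ a) + U (c₁ a))
    (heq₂ : ∀ a ∈ A, coulomb a (b₂ a) (c₂ a) = U a + U (b₂ a) + U (c₂ a)) :
    kantorovich (fiveBlock α b₁ c₁ b₂ c₂) ≤ 3 * ∫⁻ x, U x ∂(fiveBlock α b₁ c₁ b₂ c₂) := by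
  have hae : ∀ᵐ a ∂α, a ∈ A := by
    rw [ae_iff]
    exact hαA
  have h1 : ∫⁻ a, coulomb a (b₁ a) (c₁ a) ∂α =
      ∫⁻ a, U a ∂α + ∫⁻ a, U (b₁ a) ∂α + ∫⁻ a, U (c₁ a) ∂α := by
    rw [← lintegral_add_left hU, ← lintegral_add_left
      (show Measurable (fun a => U a + U (b₁ a)) from hU.add (hU.comp hb₁))]
    refine lintegral_congr_ae ?_
    filter_upwards [hae] with a ha
    exact heq₁ a ha
  have h2 : ∫⁻ a, coulomb a (b₂ a) (c₂ a) ∂α =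
      ∫⁻ a, U a ∂α + ∫⁻ a, U (b₂ a) ∂α + ∫⁻ a, U (c₂ a) ∂α := by
    rw [← lintegral_add_left hU, ← lintegral_add_left
      (show Measurable (fun a => U a + U (b₂ a)) from hU.add (hU.comp hb₂))]
    refine lintegral_congr_ae ?_
    filter_upwards [hae] with a ha
    exact heq₂ a ha
  have hle : kantorovich (fiveBlock α b₁ c₁ b₂ c₂) ≤
      ∫⁻ p, coulomb p.1 p.2.1 p.2.2 ∂(nm_plan α b₁ c₁ b₂ c₂) := by
    unfold kantorovich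
    exact iInf₂_le (nm_plan α b₁ c₁ b₂ c₂) (nm_isCoupling_plan α hb₁ hc₁ hb₂ hc₂)
  refine hle.trans (le_of_eq ?_)
  rw [nm_lintegral_plan α hb₁ hc₁ hb₂ hc₂, h1, h2, nm_lintegral_fiveBlock α hb₁ hc₁ hb₂ hc₂ hU,
    nm_inv_three]
  ring

/-! ### the combinatorics of sheet triples -/

theorem nm_sheet_A {A B C : Set E3} {b c : E3 → E3} (dAB : Disjoint A B) (dAC : Disjoint A C)
    (mb : MapsTo b A B) (mc : MapsTo c A C) {x y z : E3} (h : OnSheet A b c x y z)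
    (hx : x ∈ A) : (y = b x ∧ z = c x) ∨ (y = c x ∧ z = b x) := by
  obtain ⟨a, ha, h | h | h | h | h | h⟩ := h
  · obtain ⟨rfl, hy, hz⟩ := h
    exact Or.inl ⟨hy, hz⟩
  · obtain ⟨rfl, hy, hz⟩ := h
    exact Or.inr ⟨hy, hz⟩
  · exact absurd (h.1 ▸ mb ha) (disjoint_left.mp dAB hx)
  · exact absurd (h.1 ▸ mb ha) (disjoint_left.mp dAB hx)
  · exact absurd (h.1 ▸ mc ha) (disjoint_left.mp dAC hx)
  · exact absurd (h.1 ▸ mc ha) (disjoint_left.mp dAC hx)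

theorem nm_sheet_C {A B C : Set E3} {b c : E3 → E3} (dAC : Disjoint A C) (dBC : Disjoint B C)
    (mb : MapsTo b A B) {x y z : E3} (h : OnSheet A b c x y z)
    (hx : x ∈ C) : ∃ a ∈ A, x = c a ∧ ((y = a ∧ z = b a) ∨ (y = b a ∧ z = a)) := by
  obtain ⟨a, ha, h | h | h | h | h | h⟩ := h
  · exact absurd hx (h.1 ▸ disjoint_left.mp dAC ha)
  · exact absurd hx (h.1 ▸ disjoint_left.mp dAC ha)
  · exact absurd hx (h.1 ▸ disjoint_left.mp dBC (mb ha))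
  · exact absurd hx (h.1 ▸ disjoint_left.mp dBC (mb ha))
  · exact ⟨a, ha, h.1, Or.inl h.2⟩
  · exact ⟨a, ha, h.1, Or.inr h.2⟩

theorem nm_sheet_not_both {A B C : Set E3} {b c : E3 → E3} (dAB : Disjoint A B)
    (dBC : Disjoint B C) (mc : MapsTo c A C) {x y z : E3} (h : OnSheet A b c x y z)
    (hy : y ∈ B) (hz : z ∈ B) : False := by
  have hA : ∀ a ∈ A, a ∉ B := fun a ha => disjoint_left.mp dAB ha
  have hC : ∀ a ∈ A, c a ∉ B := fun a ha hB => disjoint_left.mp dBC hB (mc ha)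
  obtain ⟨a, ha, h | h | h | h | h | h⟩ := h
  · exact hC a ha (h.2.2 ▸ hz)
  · exact hC a ha (h.2.1 ▸ hy)
  · exact hA a ha (h.2.1 ▸ hy)
  · exact hC a ha (h.2.1 ▸ hy)
  · exact hA a ha (h.2.1 ▸ hy)
  · exact hA a ha (h.2.2 ▸ hz)

theorem nm_sheet_AC {A B C : Set E3} {b c : E3 → E3} (dAB : Disjoint A B)
    (dBC : Disjoint B C) (mc : MapsTo c A C) {x y z : E3} (h : OnSheet A b c x y z)
    (hyz : y ∈ B ∨ z ∈ B) : x ∈ A ∨ x ∈ C := by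
  have hA : ∀ a ∈ A, a ∉ B := fun a ha => disjoint_left.mp dAB ha
  have hC : ∀ a ∈ A, c a ∉ B := fun a ha hB => disjoint_left.mp dBC hB (mc ha)
  obtain ⟨a, ha, h | h | h | h | h | h⟩ := h
  · exact Or.inl (h.1 ▸ ha)
  · exact Or.inl (h.1 ▸ ha)
  · rcases hyz with hy | hz
    · exact absurd (h.2.1 ▸ hy) (hA a ha)
    · exact absurd (h.2.2 ▸ hz) (hC a ha)
  · rcases hyz with hy | hz
    · exact absurd (h.2.1 ▸ hy) (hC a ha)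
    · exact absurd (h.2.2 ▸ hz) (hA a ha)
  · exact Or.inr (h.1 ▸ mc ha)
  · exact Or.inr (h.1 ▸ mc ha)

/-! ### measure-theoretic helpers -/

theorem nm_measure_congr_on {ν : Measure E3} {G s t : Set E3} (hG : ν Gᶜ = 0)
    (h : ∀ x ∈ G, (x ∈ s ↔ x ∈ t)) : ν s = ν t := by
  rw [← measure_inter_conull hG (s := s), ← measure_inter_conull hG (s := t)]
  congr 1
  ext x
  constructor
  · rintro ⟨h1, h2⟩
    exact ⟨(h x h2).mp h1, h2⟩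
  · rintro ⟨h1, h2⟩
    exact ⟨(h x h2).mpr h1, h2⟩

theorem nm_null_preimage {α : Measure E3} {A E : Set E3} (hαA : α Aᶜ = 0) {f : E3 → E3}
    (h : ∀ a ∈ A, f a ∉ E) : α (f ⁻¹' E) = 0 :=
  measure_mono_null (fun a ha hA => h a hA ha) hαA

theorem nm_null_of_subset_compl {α : Measure E3} {A E : Set E3} (hαA : α Aᶜ = 0)
    (h : ∀ a ∈ A, a ∉ E) : α E = 0 :=
  measure_mono_null (fun a ha hA => h a hA ha) hαA

/-! ### the counting argument -/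

theorem nm_counting
    (A B₁ C₁ B₂ C₂ : Set E3)
    (hA : MeasurableSet A) (hB₁ : MeasurableSet B₁) (hC₁ : MeasurableSet C₁)
    (dAB₁ : Disjoint A B₁) (dAC₁ : Disjoint A C₁) (dAB₂ : Disjoint A B₂) (dAC₂ : Disjoint A C₂)
    (dB₁C₁ : Disjoint B₁ C₁) (dB₁B₂ : Disjoint B₁ B₂) (dB₁C₂ : Disjoint B₁ C₂)
    (dC₁B₂ : Disjoint C₁ B₂) (dC₁C₂ : Disjoint C₁ C₂)
    (α : Measure E3) [IsProbabilityMeasure α] (hαA : α Aᶜ = 0)
    (b₁ c₁ b₂ c₂ : E3 → E3)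
    (hb₁ : Measurable b₁) (hc₁ : Measurable c₁) (hb₂ : Measurable b₂) (hc₂ : Measurable c₂)
    (mb₁ : MapsTo b₁ A B₁) (mc₁ : MapsTo c₁ A C₁) (mb₂ : MapsTo b₂ A B₂) (mc₂ : MapsTo c₂ A C₂)
    (ib₁ : InjOn b₁ A) (ic₁ : InjOn c₁ A)
    (T₂ T₃ : E3 → E3) (hT₂ : Measurable T₂) (hT₃ : Measurable T₃)
    (hm₂ : (fiveBlock α b₁ c₁ b₂ c₂).map T₂ = fiveBlock α b₁ c₁ b₂ c₂)
    (hm₃ : (fiveBlock α b₁ c₁ b₂ c₂).map T₃ = fiveBlock α b₁ c₁ b₂ c₂)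
    (G : Set E3) (hG : MeasurableSet G) (hGn : fiveBlock α b₁ c₁ b₂ c₂ Gᶜ = 0)
    (hsheet : ∀ x ∈ G, (x ∈ B₁ ∪ C₁ ∨ T₂ x ∈ B₁ ∪ C₁ ∨ T₃ x ∈ B₁ ∪ C₁) →
      OnSheet A b₁ c₁ x (T₂ x) (T₃ x)) : False := by
  classical
  set μ := fiveBlock α b₁ c₁ b₂ c₂ with hμ
  -- formulas for `6 μ` on the blocks
  have f6 : ∀ E : Set E3, MeasurableSet E → 6 * μ E = 2 * α E +
      (α (b₁ ⁻¹' E) + α (c₁ ⁻¹' E) + α (b₂ ⁻¹' E) + α (c₂ ⁻¹' E)) :=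
    fun E hE => nm_six_fiveBlock_apply α hb₁ hc₁ hb₂ hc₂ hE
  have fB : ∀ E : Set E3, MeasurableSet E → E ⊆ B₁ → 6 * μ E = α (b₁ ⁻¹' E) := by
    intro E hE hEB
    rw [f6 E hE,
      nm_null_of_subset_compl hαA (fun a ha hE' => disjoint_left.mp dAB₁ ha (hEB hE')),
      nm_null_preimage hαA (f := c₁) (fun a ha hE' => disjoint_left.mp dB₁C₁ (hEB hE') (mc₁ ha)),
      nm_null_preimage hαA (f := b₂) (fun a ha hE' => disjoint_left.mp dB₁B₂ (hEB hE') (mb₂ ha)),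
      nm_null_preimage hαA (f := c₂) (fun a ha hE' => disjoint_left.mp dB₁C₂ (hEB hE') (mc₂ ha))]
    simp
  have fC : ∀ E : Set E3, MeasurableSet E → E ⊆ C₁ → 6 * μ E = α (c₁ ⁻¹' E) := by
    intro E hE hEC
    rw [f6 E hE,
      nm_null_of_subset_compl hαA (fun a ha hE' => disjoint_left.mp dAC₁ ha (hEC hE')),
      nm_null_preimage hαA (f := b₁) (fun a ha hE' => disjoint_left.mp dB₁C₁ (mb₁ ha) (hEC hE')),
      nm_null_preimage hαA (f := b₂) (fun a ha hE' => disjoint_left.mp dC₁B₂ (hEC hE') (mb₂ ha)),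
      nm_null_preimage hαA (f := c₂) (fun a ha hE' => disjoint_left.mp dC₁C₂ (hEC hE') (mc₂ ha))]
    simp
  have fA : ∀ E : Set E3, MeasurableSet E → E ⊆ A → 6 * μ E = 2 * α E := by
    intro E hE hEA
    rw [f6 E hE,
      nm_null_preimage hαA (f := b₁) (fun a ha hE' => disjoint_left.mp dAB₁ (hEA hE') (mb₁ ha)),
      nm_null_preimage hαA (f := c₁) (fun a ha hE' => disjoint_left.mp dAC₁ (hEA hE') (mc₁ ha)),
      nm_null_preimage hαA (f := b₂) (fun a ha hE' => disjoint_left.mp dAB₂ (hEA hE') (mb₂ ha)),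
      nm_null_preimage hαA (f := c₂) (fun a ha hE' => disjoint_left.mp dAC₂ (hEA hE') (mc₂ ha))]
    simp
  -- null sets for `α`
  have h6G : 2 * α Gᶜ + (α (b₁ ⁻¹' Gᶜ) + α (c₁ ⁻¹' Gᶜ) + α (b₂ ⁻¹' Gᶜ) + α (c₂ ⁻¹' Gᶜ)) = 0 := by
    rw [← f6 Gᶜ hG.compl, hGn, mul_zero]
  simp only [add_eq_zero, mul_eq_zero, OfNat.ofNat_ne_zero, false_or] at h6G
  obtain ⟨hGα, ⟨⟨-, hGc⟩, -⟩, -⟩ := h6G
  -- the set of points of `A` whose triple lies on the first sheet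
  set W : Set E3 := A ∩ G ∩ (T₂ ⁻¹' B₁ ∪ T₃ ⁻¹' B₁) with hW
  have hWm : MeasurableSet W := (hA.inter hG).inter ((hT₂ hB₁).union (hT₃ hB₁))
  have hWA : W ⊆ A := fun x hx => hx.1.1
  have hWsheet : ∀ x ∈ A, x ∈ G → (T₂ x ∈ B₁ ∨ T₃ x ∈ B₁) →
      (T₂ x = b₁ x ∧ T₃ x = c₁ x) ∨ (T₂ x = c₁ x ∧ T₃ x = b₁ x) := by
    intro x hxA hxG h
    have hs : OnSheet A b₁ c₁ x (T₂ x) (T₃ x) := by
      refine hsheet x hxG ?_
      rcases h with h | h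
      · exact Or.inr (Or.inl (Or.inl h))
      · exact Or.inr (Or.inr (Or.inl h))
    exact nm_sheet_A dAB₁ dAC₁ mb₁ mc₁ hs hxA
  have hCsheet : ∀ a ∈ A, c₁ a ∈ G →
      (T₂ (c₁ a) = a ∧ T₃ (c₁ a) = b₁ a) ∨ (T₂ (c₁ a) = b₁ a ∧ T₃ (c₁ a) = a) := by
    intro a ha hG'
    have hs : OnSheet A b₁ c₁ (c₁ a) (T₂ (c₁ a)) (T₃ (c₁ a)) :=
      hsheet _ hG' (Or.inl (Or.inr (mc₁ ha)))
    obtain ⟨a', ha', hcc, h⟩ := nm_sheet_C dAC₁ dB₁C₁ mb₁ hs (mc₁ ha)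
    have haa : a = a' := ic₁ ha ha' hcc
    subst haa
    exact h
  have key : ∀ E : Set E3, MeasurableSet E → E ⊆ B₁ →
      α (b₁ ⁻¹' E) = 2 * α (W ∩ b₁ ⁻¹' E) := by
    intro E hE hEB
    have hN₂m : MeasurableSet (T₂ ⁻¹' E) := hT₂ hE
    have hN₃m : MeasurableSet (T₃ ⁻¹' E) := hT₃ hE
    have e2 : μ (T₂ ⁻¹' E) = μ E := by
      have := Measure.map_apply (μ := μ) hT₂ hE
      rw [hm₂] at this
      exact this.symm
    have e3 : μ (T₃ ⁻¹' E) = μ E := by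
      have := Measure.map_apply (μ := μ) hT₃ hE
      rw [hm₃] at this
      exact this.symm
    have hinter : μ (T₂ ⁻¹' E ∩ T₃ ⁻¹' E) = 0 := by
      refine measure_mono_null ?_ hGn
      intro x hx hxG
      have hx2 : T₂ x ∈ B₁ := hEB hx.1
      have hx3 : T₃ x ∈ B₁ := hEB hx.2
      have hs := hsheet x hxG (Or.inr (Or.inl (Or.inl hx2)))
      exact nm_sheet_not_both dAB₁ dB₁C₁ mc₁ hs hx2 hx3
    have hN : μ (T₂ ⁻¹' E ∪ T₃ ⁻¹' E) = μ E + μ E := by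
      have := measure_union_add_inter (μ := μ) (T₂ ⁻¹' E) hN₃m
      rw [hinter, add_zero, e2, e3] at this
      exact this
    have hdec : μ (T₂ ⁻¹' E ∪ T₃ ⁻¹' E) =
        μ ((T₂ ⁻¹' E ∪ T₃ ⁻¹' E) ∩ A) + μ ((T₂ ⁻¹' E ∪ T₃ ⁻¹' E) ∩ C₁) := by
      have h1 : μ (T₂ ⁻¹' E ∪ T₃ ⁻¹' E) =
          μ (((T₂ ⁻¹' E ∪ T₃ ⁻¹' E) ∩ A) ∪ ((T₂ ⁻¹' E ∪ T₃ ⁻¹' E) ∩ C₁)) := by
        refine nm_measure_congr_on hGn fun x hxG => ?_
        constructor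
        · intro hx
          have hB : T₂ x ∈ B₁ ∨ T₃ x ∈ B₁ := hx.imp (fun h => hEB h) (fun h => hEB h)
          have hs : OnSheet A b₁ c₁ x (T₂ x) (T₃ x) := by
            refine hsheet x hxG ?_
            rcases hB with h | h
            · exact Or.inr (Or.inl (Or.inl h))
            · exact Or.inr (Or.inr (Or.inl h))
          rcases nm_sheet_AC dAB₁ dB₁C₁ mc₁ hs hB with h | h
          · exact Or.inl ⟨hx, h⟩
          · exact Or.inr ⟨hx, h⟩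
        · rintro (h | h)
          · exact h.1
          · exact h.1
      rw [h1]
      refine measure_union ?_ ((hN₂m.union hN₃m).inter hC₁)
      exact disjoint_left.mpr fun x hx hx' => disjoint_left.mp dAC₁ hx.2 hx'.2
    have hC6 : 6 * μ ((T₂ ⁻¹' E ∪ T₃ ⁻¹' E) ∩ C₁) = α (b₁ ⁻¹' E) := by
      rw [fC _ ((hN₂m.union hN₃m).inter hC₁) inter_subset_right]
      have hnull : α (A ∩ c₁ ⁻¹' G)ᶜ = 0 := by
        rw [compl_inter]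
        exact measure_union_null hαA hGc
      refine nm_measure_congr_on hnull fun a ha => ?_
      obtain ⟨haA, haG⟩ := ha
      have hEa : a ∉ E := fun h => disjoint_left.mp dAB₁ haA (hEB h)
      rcases hCsheet a haA haG with h | h
      · constructor
        · rintro ⟨hN | hN, -⟩
          · have hN' : T₂ (c₁ a) ∈ E := hN
            rw [h.1] at hN'
            exact absurd hN' hEa
          · have hN' : T₃ (c₁ a) ∈ E := hN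
            rw [h.2] at hN'
            exact hN'
        · intro hb
          have hb' : b₁ a ∈ E := hb
          refine ⟨Or.inr ?_, mc₁ haA⟩
          show T₃ (c₁ a) ∈ E
          rw [h.2]
          exact hb'
      · constructor
        · rintro ⟨hN | hN, -⟩
          · have hN' : T₂ (c₁ a) ∈ E := hN
            rw [h.1] at hN'
            exact hN'
          · have hN' : T₃ (c₁ a) ∈ E := hN
            rw [h.2] at hN'
            exact absurd hN' hEa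
        · intro hb
          have hb' : b₁ a ∈ E := hb
          refine ⟨Or.inl ?_, mc₁ haA⟩
          show T₂ (c₁ a) ∈ E
          rw [h.1]
          exact hb'
    have hA6 : 6 * μ ((T₂ ⁻¹' E ∪ T₃ ⁻¹' E) ∩ A) = 2 * α (W ∩ b₁ ⁻¹' E) := by
      rw [fA _ ((hN₂m.union hN₃m).inter hA) inter_subset_right]
      congr 1
      refine nm_measure_congr_on hGα fun x hxG => ?_
      constructor
      · rintro ⟨hN, hxA⟩
        have hB : T₂ x ∈ B₁ ∨ T₃ x ∈ B₁ := hN.imp (fun h => hEB h) (fun h => hEB h)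
        refine ⟨⟨⟨hxA, hxG⟩, hB⟩, ?_⟩
        have hcE : c₁ x ∉ E := fun h => disjoint_left.mp dB₁C₁ (hEB h) (mc₁ hxA)
        show b₁ x ∈ E
        rcases hWsheet x hxA hxG hB with h | h
        · rcases hN with hN | hN
          · have hN' : T₂ x ∈ E := hN
            rw [h.1] at hN'
            exact hN'
          · have hN' : T₃ x ∈ E := hN
            rw [h.2] at hN'
            exact absurd hN' hcE
        · rcases hN with hN | hN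
          · have hN' : T₂ x ∈ E := hN
            rw [h.1] at hN'
            exact absurd hN' hcE
          · have hN' : T₃ x ∈ E := hN
            rw [h.2] at hN'
            exact hN'
      · rintro ⟨⟨⟨hxA, -⟩, hB⟩, hb⟩
        have hb' : b₁ x ∈ E := hb
        refine ⟨?_, hxA⟩
        rcases hWsheet x hxA hxG hB with h | h
        · refine Or.inl ?_
          show T₂ x ∈ E
          rw [h.1]
          exact hb'
        · refine Or.inr ?_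
          show T₃ x ∈ E
          rw [h.2]
          exact hb'
    have hE6 := fB E hE hEB
    have hfin : α (b₁ ⁻¹' E) ≠ ⊤ := measure_ne_top α _
    have hsum : α (b₁ ⁻¹' E) + α (b₁ ⁻¹' E) = 2 * α (W ∩ b₁ ⁻¹' E) + α (b₁ ⁻¹' E) := by
      calc α (b₁ ⁻¹' E) + α (b₁ ⁻¹' E) = 6 * μ E + 6 * μ E := by rw [hE6]
        _ = 6 * μ (T₂ ⁻¹' E ∪ T₃ ⁻¹' E) := by rw [hN, mul_add]
        _ = 6 * μ ((T₂ ⁻¹' E ∪ T₃ ⁻¹' E) ∩ A) + 6 * μ ((T₂ ⁻¹' E ∪ T₃ ⁻¹' E) ∩ C₁) := by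
            rw [hdec, mul_add]
        _ = 2 * α (W ∩ b₁ ⁻¹' E) + α (b₁ ⁻¹' E) := by rw [hA6, hC6]
    exact (ENNReal.add_left_inj hfin).mp hsum
  -- the two choices of `E`
  have hαA1 : α A = 1 := (prob_compl_eq_zero_iff hA).mp hαA
  have h1 : (1 : ℝ≥0∞) = 2 * α W := by
    have hk := key B₁ hB₁ subset_rfl
    have hpre : α (b₁ ⁻¹' B₁) = 1 := by
      refine le_antisymm prob_le_one ?_
      rw [← hαA1]
      exact measure_mono fun a ha => mb₁ ha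
    have hWeq : W ∩ b₁ ⁻¹' B₁ = W := by
      ext x
      constructor
      · exact fun h => h.1
      · exact fun h => ⟨h, mb₁ (hWA h)⟩
    rw [hpre, hWeq] at hk
    exact hk
  have h2 : α W = 2 * α W := by
    have hEm : MeasurableSet (b₁ '' W) :=
      hWm.image_of_measurable_injOn hb₁ (ib₁.mono hWA)
    have hEB : b₁ '' W ⊆ B₁ := by
      rintro _ ⟨w, hw, rfl⟩
      exact mb₁ (hWA hw)
    have hk := key (b₁ '' W) hEm hEB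
    have hpre : α (b₁ ⁻¹' (b₁ '' W)) = α W := by
      refine nm_measure_congr_on hαA fun a ha => ?_
      constructor
      · rintro ⟨w, hw, hwa⟩
        have hwa' : w = a := ib₁ (hWA hw) ha hwa
        exact hwa' ▸ hw
      · exact fun h => ⟨a, h, rfl⟩
    have hWeq : W ∩ b₁ ⁻¹' (b₁ '' W) = W := by
      ext x
      constructor
      · exact fun h => h.1
      · exact fun h => ⟨h, ⟨x, h, rfl⟩⟩
    rw [hpre, hWeq] at hk
    exact hk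
  rw [← h1] at h2
  rw [h2] at h1
  norm_num at h1

/-! ### the main theorem -/

theorem no_monge_of_two_sheets
    (A B₁ C₁ B₂ C₂ : Set E3)
    (hA : MeasurableSet A) (hB₁ : MeasurableSet B₁) (hC₁ : MeasurableSet C₁)
    (hB₂ : MeasurableSet B₂) (hC₂ : MeasurableSet C₂)
    (dAB₁ : Disjoint A B₁) (dAC₁ : Disjoint A C₁) (dAB₂ : Disjoint A B₂) (dAC₂ : Disjoint A C₂)
    (dB₁C₁ : Disjoint B₁ C₁) (dB₁B₂ : Disjoint B₁ B₂) (dB₁C₂ : Disjoint B₁ C₂)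
    (dC₁B₂ : Disjoint C₁ B₂) (dC₁C₂ : Disjoint C₁ C₂) (dB₂C₂ : Disjoint B₂ C₂)
    (α : Measure E3) [IsProbabilityMeasure α] (hαA : α Aᶜ = 0)
    (b₁ c₁ b₂ c₂ : E3 → E3)
    (hb₁ : Measurable b₁) (hc₁ : Measurable c₁) (hb₂ : Measurable b₂) (hc₂ : Measurable c₂)
    (mb₁ : MapsTo b₁ A B₁) (mc₁ : MapsTo c₁ A C₁) (mb₂ : MapsTo b₂ A B₂) (mc₂ : MapsTo c₂ A C₂)
    (ib₁ : InjOn b₁ A) (ic₁ : InjOn c₁ A)
    (U : E3 → ℝ≥0∞) (hU : Measurable U) (M : ℝ≥0∞) (hM : M ≠ ⊤)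
    (hUM : ∀ x ∈ A ∪ B₁ ∪ C₁ ∪ B₂ ∪ C₂, U x ≤ M)
    (heq₁ : ∀ a ∈ A, coulomb a (b₁ a) (c₁ a) = U a + U (b₁ a) + U (c₁ a))
    (heq₂ : ∀ a ∈ A, coulomb a (b₂ a) (c₂ a) = U a + U (b₂ a) + U (c₂ a))
    (hineq : ∀ x ∈ A ∪ B₁ ∪ C₁ ∪ B₂ ∪ C₂, ∀ y ∈ A ∪ B₁ ∪ C₁ ∪ B₂ ∪ C₂,
      ∀ z ∈ A ∪ B₁ ∪ C₁ ∪ B₂ ∪ C₂, U x + U y + U z ≤ coulomb x y z)
    (hrig : ∀ x ∈ A ∪ B₁ ∪ C₁ ∪ B₂ ∪ C₂, ∀ y ∈ A ∪ B₁ ∪ C₁ ∪ B₂ ∪ C₂,
      ∀ z ∈ A ∪ B₁ ∪ C₁ ∪ B₂ ∪ C₂, coulomb x y z ≤ U x + U y + U z →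
      (x ∈ B₁ ∪ C₁ ∨ y ∈ B₁ ∪ C₁ ∨ z ∈ B₁ ∪ C₁) → OnSheet A b₁ c₁ x y z) :
    IsProbabilityMeasure (fiveBlock α b₁ c₁ b₂ c₂) ∧
      kantorovich (fiveBlock α b₁ c₁ b₂ c₂) < ⊤ ∧
      ¬ ∃ T₂ T₃ : E3 → E3, IsOptimalMonge (fiveBlock α b₁ c₁ b₂ c₂) T₂ T₃ := by
  classical
  have _ := dB₂C₂
  have hprob := nm_isProbabilityMeasure_fiveBlock α hb₁ hc₁ hb₂ hc₂
  have hSm : MeasurableSet (A ∪ B₁ ∪ C₁ ∪ B₂ ∪ C₂) :=
    (((hA.union hB₁).union hC₁).union hB₂).union hC₂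
  -- the complement of the five blocks is a null set
  have hSn : fiveBlock α b₁ c₁ b₂ c₂ (A ∪ B₁ ∪ C₁ ∪ B₂ ∪ C₂)ᶜ = 0 := by
    have h6 := nm_six_fiveBlock_apply α hb₁ hc₁ hb₂ hc₂ hSm.compl
    rw [nm_null_of_subset_compl hαA (E := (A ∪ B₁ ∪ C₁ ∪ B₂ ∪ C₂)ᶜ)
        (fun a ha h => h (Or.inl (Or.inl (Or.inl (Or.inl ha))))),
      nm_null_preimage hαA (f := b₁) (E := (A ∪ B₁ ∪ C₁ ∪ B₂ ∪ C₂)ᶜ)
        (fun a ha h => h (Or.inl (Or.inl (Or.inl (Or.inr (mb₁ ha)))))),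
      nm_null_preimage hαA (f := c₁) (E := (A ∪ B₁ ∪ C₁ ∪ B₂ ∪ C₂)ᶜ)
        (fun a ha h => h (Or.inl (Or.inl (Or.inr (mc₁ ha))))),
      nm_null_preimage hαA (f := b₂) (E := (A ∪ B₁ ∪ C₁ ∪ B₂ ∪ C₂)ᶜ)
        (fun a ha h => h (Or.inl (Or.inr (mb₂ ha)))),
      nm_null_preimage hαA (f := c₂) (E := (A ∪ B₁ ∪ C₁ ∪ B₂ ∪ C₂)ᶜ)
        (fun a ha h => h (Or.inr (mc₂ ha)))] at h6
    simpa using h6
  have haeS : ∀ᵐ x ∂(fiveBlock α b₁ c₁ b₂ c₂), x ∈ A ∪ B₁ ∪ C₁ ∪ B₂ ∪ C₂ := by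
    rw [ae_iff]
    exact hSn
  -- the integral of the potential is finite
  have hI : ∫⁻ x, U x ∂(fiveBlock α b₁ c₁ b₂ c₂) ≤ M := by
    calc ∫⁻ x, U x ∂(fiveBlock α b₁ c₁ b₂ c₂)
        ≤ ∫⁻ _x, M ∂(fiveBlock α b₁ c₁ b₂ c₂) :=
          lintegral_mono_ae (by filter_upwards [haeS] with x hx using hUM x hx)
      _ = M := by rw [lintegral_const, measure_univ, mul_one]
  have hkant : kantorovich (fiveBlock α b₁ c₁ b₂ c₂) ≤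
      3 * ∫⁻ x, U x ∂(fiveBlock α b₁ c₁ b₂ c₂) :=
    nm_kantorovich_le α hαA hb₁ hc₁ hb₂ hc₂ hU heq₁ heq₂
  have hfin : 3 * ∫⁻ x, U x ∂(fiveBlock α b₁ c₁ b₂ c₂) ≠ ⊤ :=
    ENNReal.mul_ne_top ENNReal.ofNat_ne_top (ne_top_of_le_ne_top hM hI)
  refine ⟨hprob, lt_of_le_of_lt hkant hfin.lt_top, ?_⟩
  rintro ⟨T₂, T₃, hT₂, hT₃, hm₂, hm₃, hcost⟩
  -- almost every triple of the plan lies in the five blocks
  have haeS₂ : ∀ᵐ x ∂(fiveBlock α b₁ c₁ b₂ c₂), T₂ x ∈ A ∪ B₁ ∪ C₁ ∪ B₂ ∪ C₂ := by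
    have h := Measure.map_apply (μ := fiveBlock α b₁ c₁ b₂ c₂) hT₂ hSm.compl
    rw [hm₂, hSn] at h
    rw [ae_iff]
    exact h.symm
  have haeS₃ : ∀ᵐ x ∂(fiveBlock α b₁ c₁ b₂ c₂), T₃ x ∈ A ∪ B₁ ∪ C₁ ∪ B₂ ∪ C₂ := by
    have h := Measure.map_apply (μ := fiveBlock α b₁ c₁ b₂ c₂) hT₃ hSm.compl
    rw [hm₃, hSn] at h
    rw [ae_iff]
    exact h.symm
  have hfm : Measurable (fun x => coulomb x (T₂ x) (T₃ x)) :=
    nm_measurable_coulomb_comp hT₂ hT₃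
  have hgm : Measurable (fun x => U x + U (T₂ x) + U (T₃ x)) :=
    (hU.add (hU.comp hT₂)).add (hU.comp hT₃)
  have hsum : ∫⁻ x, (U x + U (T₂ x) + U (T₃ x)) ∂(fiveBlock α b₁ c₁ b₂ c₂) =
      3 * ∫⁻ x, U x ∂(fiveBlock α b₁ c₁ b₂ c₂) := by
    have e2 : ∫⁻ x, U (T₂ x) ∂(fiveBlock α b₁ c₁ b₂ c₂) =
        ∫⁻ x, U x ∂(fiveBlock α b₁ c₁ b₂ c₂) := by
      have h := lintegral_map (μ := fiveBlock α b₁ c₁ b₂ c₂) hU hT₂
      rw [hm₂] at h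
      exact h.symm
    have e3 : ∫⁻ x, U (T₃ x) ∂(fiveBlock α b₁ c₁ b₂ c₂) =
        ∫⁻ x, U x ∂(fiveBlock α b₁ c₁ b₂ c₂) := by
      have h := lintegral_map (μ := fiveBlock α b₁ c₁ b₂ c₂) hU hT₃
      rw [hm₃] at h
      exact h.symm
    rw [lintegral_add_left (show Measurable (fun x => U x + U (T₂ x)) from hU.add (hU.comp hT₂)),
      lintegral_add_left hU, e2, e3]
    ring
  have hle : (fun x => U x + U (T₂ x) + U (T₃ x)) ≤ᵐ[fiveBlock α b₁ c₁ b₂ c₂]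
      (fun x => coulomb x (T₂ x) (T₃ x)) := by
    filter_upwards [haeS, haeS₂, haeS₃] with x h1 h2 h3 using hineq x h1 _ h2 _ h3
  have hEq := ae_eq_of_ae_le_of_lintegral_le hle (by rw [hsum]; exact hfin) hfm.aemeasurable
    (by rw [hcost, hsum]; exact hkant)
  -- the good set
  have hGm : MeasurableSet ((A ∪ B₁ ∪ C₁ ∪ B₂ ∪ C₂) ∩ (T₂ ⁻¹' (A ∪ B₁ ∪ C₁ ∪ B₂ ∪ C₂) ∩
      (T₃ ⁻¹' (A ∪ B₁ ∪ C₁ ∪ B₂ ∪ C₂) ∩
        {x | coulomb x (T₂ x) (T₃ x) ≤ U x + U (T₂ x) + U (T₃ x)}))) :=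
    hSm.inter ((hT₂ hSm).inter ((hT₃ hSm).inter (measurableSet_le hfm hgm)))
  have hGn : fiveBlock α b₁ c₁ b₂ c₂ ((A ∪ B₁ ∪ C₁ ∪ B₂ ∪ C₂) ∩
      (T₂ ⁻¹' (A ∪ B₁ ∪ C₁ ∪ B₂ ∪ C₂) ∩ (T₃ ⁻¹' (A ∪ B₁ ∪ C₁ ∪ B₂ ∪ C₂) ∩
        {x | coulomb x (T₂ x) (T₃ x) ≤ U x + U (T₂ x) + U (T₃ x)})))ᶜ = 0 := by
    rw [← mem_ae_iff]
    filter_upwards [haeS, haeS₂, haeS₃, hEq] with x h1 h2 h3 h4
    exact ⟨h1, h2, h3, h4.ge⟩
  exact nm_counting A B₁ C₁ B₂ C₂ hA hB₁ hC₁ dAB₁ dAC₁ dAB₂ dAC₂ dB₁C₁ dB₁B₂ dB₁C₂ dC₁B₂ dC₁C₂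
    α hαA b₁ c₁ b₂ c₂ hb₁ hc₁ hb₂ hc₂ mb₁ mc₁ mb₂ mc₂ ib₁ ic₁ T₂ T₃ hT₂ hT₃ hm₂ hm₃ _ hGm hGn
    (fun x hx h => hrig x hx.1 _ hx.2.1 _ hx.2.2.1 hx.2.2.2 h)

end Vale.Agent.Lib.P121
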