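import Vale.Agent.Lib.P121.Defs

/-!
# P121: the two-sheet structure (auxiliary definitions)
-/

namespace Vale.Agent.Lib.P121

open MeasureTheory Set
open scoped ENNReal

/-- the triple `x, y, z` is, up to the order of its entries, the triple `a, b a, c a` for some
`a ∈ A`. -/
def OnSheet (A : Set E3) (b c : E3 → E3) (x y z : E3) : Prop :=
  ∃ a ∈ A, (x = a ∧ y = b a ∧ z = c a) ∨ (x = a ∧ y = c a ∧ z = b a) ∨
    (x = b a ∧ y = a ∧ z = c a) ∨ (x = b a ∧ y = c a ∧ z = a) ∨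
    (x = c a ∧ y = a ∧ z = b a) ∨ (x = c a ∧ y = b a ∧ z = a)

/-- the five-block measure built from a measure `α` on the block `A` and four maps. -/
noncomputable def fiveBlock (α : Measure E3) (b₁ c₁ b₂ c₂ : E3 → E3) : Measure E3 :=
  (3 : ℝ≥0∞)⁻¹ • α + (6 : ℝ≥0∞)⁻¹ • (α.map b₁ + α.map c₁ + α.map b₂ + α.map c₂)

end Vale.Agent.Lib.P121
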