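import Mathlib

namespace Vale.Agent.Lib.P121

open scoped RealInnerProductSpace

variable {V : Type*} [NormedAddCommGroup V] [InnerProductSpace ℝ V]

/-- the Coulomb field `d / |d|^3` (minus the gradient of `1/|d|`). -/
noncomputable def efield (d : V) : V := (‖d‖ ^ 3)⁻¹ • d

/-- the inverse map of the Coulomb field: `v / |v|^(3/2)`. -/
noncomputable def efieldInv (v : V) : V := (Real.sqrt ‖v‖ * ‖v‖)⁻¹ • v

theorem efield_neg (d : V) : efield (-d) = -efield d := by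
  unfold efield
  rw [norm_neg, smul_neg]

theorem norm_efield (d : V) : ‖efield d‖ = (‖d‖ ^ 2)⁻¹ := by
  unfold efield
  rw [norm_smul, norm_inv, norm_pow, norm_norm]
  by_cases hd : ‖d‖ = 0
  · rw [hd]
    simp
  · field_simp

theorem norm_efieldInv (v : V) : ‖efieldInv v‖ = (Real.sqrt ‖v‖)⁻¹ := by
  unfold efieldInv
  rw [norm_smul, norm_inv, norm_mul, norm_norm, Real.norm_of_nonneg (Real.sqrt_nonneg _)]
  by_cases hv : ‖v‖ = 0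
  · rw [hv]
    simp
  · have hs : Real.sqrt ‖v‖ ≠ 0 := by
      have : 0 < Real.sqrt ‖v‖ :=
        Real.sqrt_pos.2 (lt_of_le_of_ne (norm_nonneg _) (Ne.symm hv))
      exact this.ne'
    field_simp

theorem efield_efieldInv {v : V} (hv : v ≠ 0) : efield (efieldInv v) = v := by
  have hx : 0 < ‖v‖ := norm_pos_iff.2 hv
  have hs : 0 < Real.sqrt ‖v‖ := Real.sqrt_pos.2 hx
  have hsq : Real.sqrt ‖v‖ ^ 2 = ‖v‖ := Real.sq_sqrt hx.le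
  have hn := norm_efieldInv v
  unfold efield
  rw [hn]
  unfold efieldInv
  rw [smul_smul]
  have h0 : ∀ s x : ℝ, 0 < s → s ^ 2 = x → (s⁻¹ ^ 3)⁻¹ * (s * x)⁻¹ = 1 := by
    intro s x hs0 hsx
    subst hsx
    field_simp
  rw [h0 _ _ hs hsq, one_smul]

theorem efieldInv_efield {d : V} (hd : d ≠ 0) : efieldInv (efield d) = d := by
  have hx : 0 < ‖d‖ := norm_pos_iff.2 hd
  have hn := norm_efield d
  have hs : Real.sqrt ((‖d‖ ^ 2)⁻¹) = ‖d‖⁻¹ := by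
    rw [Real.sqrt_inv, Real.sqrt_sq hx.le]
  unfold efieldInv
  rw [hn, hs]
  unfold efield
  rw [smul_smul]
  have h1 : (‖d‖⁻¹ * (‖d‖ ^ 2)⁻¹)⁻¹ * (‖d‖ ^ 3)⁻¹ = 1 := by
    field_simp
  rw [h1, one_smul]

/-- auxiliary scalar estimate for the Lipschitz bound. -/
theorem nm_scalar_lipschitz {m x y : ℝ} (hm : 0 < m) (hx : m ≤ x) (hy : m ≤ y) :
    |(x ^ 3)⁻¹ - (y ^ 3)⁻¹| * y ≤ 3 / m ^ 3 * |x - y| := by
  have hx0 : 0 < x := lt_of_lt_of_le hm hx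
  have hy0 : 0 < y := lt_of_lt_of_le hm hy
  have e : (x ^ 3)⁻¹ - (y ^ 3)⁻¹ = (y - x) * ((x ^ 2 + x * y + y ^ 2) / (x ^ 3 * y ^ 3)) := by
    field_simp
    ring
  have hq : 0 ≤ (x ^ 2 + x * y + y ^ 2) / (x ^ 3 * y ^ 3) := by positivity
  rw [e, abs_mul, abs_of_nonneg hq, abs_sub_comm y x]
  have h2 : (x ^ 2 + x * y + y ^ 2) / (x ^ 3 * y ^ 3) * y ≤ 3 / m ^ 3 := by
    have e2 : (x ^ 2 + x * y + y ^ 2) / (x ^ 3 * y ^ 3) * y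
        = (x ^ 2 + x * y + y ^ 2) / (x ^ 3 * y ^ 2) := by
      field_simp
    rw [e2, div_le_div_iff₀ (by positivity) (by positivity)]
    have hm3x : m ^ 3 ≤ x ^ 3 := pow_le_pow_left₀ hm.le hx 3
    have hm2y : m ^ 2 ≤ y ^ 2 := pow_le_pow_left₀ hm.le hy 2
    have hm2x : m ^ 2 ≤ x ^ 2 := pow_le_pow_left₀ hm.le hx 2
    have hm2 : 0 < m ^ 2 := by positivity
    have hm3 : 0 < m ^ 3 := by positivity
    have a1 : m ^ 3 * x ^ 2 ≤ x ^ 3 * y ^ 2 := by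
      have : m ^ 3 ≤ x * y ^ 2 := by
        calc m ^ 3 = m * m ^ 2 := by ring
          _ ≤ x * y ^ 2 := mul_le_mul hx hm2y hm2.le hx0.le
      calc m ^ 3 * x ^ 2 ≤ (x * y ^ 2) * x ^ 2 :=
            mul_le_mul_of_nonneg_right this (by positivity)
        _ = x ^ 3 * y ^ 2 := by ring
    have a2 : m ^ 3 * (x * y) ≤ x ^ 3 * y ^ 2 := by
      have : m ^ 3 ≤ x ^ 2 * y := by
        calc m ^ 3 = m ^ 2 * m := by ring
          _ ≤ x ^ 2 * y := mul_le_mul hm2x hy hm.le (by positivity)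
      calc m ^ 3 * (x * y) ≤ (x ^ 2 * y) * (x * y) :=
            mul_le_mul_of_nonneg_right this (by positivity)
        _ = x ^ 3 * y ^ 2 := by ring
    have a3 : m ^ 3 * y ^ 2 ≤ x ^ 3 * y ^ 2 :=
      mul_le_mul_of_nonneg_right hm3x (by positivity)
    nlinarith [a1, a2, a3]
  calc |x - y| * ((x ^ 2 + x * y + y ^ 2) / (x ^ 3 * y ^ 3)) * y
      = |x - y| * ((x ^ 2 + x * y + y ^ 2) / (x ^ 3 * y ^ 3) * y) := by ring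
    _ ≤ |x - y| * (3 / m ^ 3) := mul_le_mul_of_nonneg_left h2 (abs_nonneg _)
    _ = 3 / m ^ 3 * |x - y| := by ring

/-- the Coulomb field is Lipschitz away from the origin. -/
theorem efield_lipschitz {m : ℝ} (hm : 0 < m) {d d' : V} (hd : m ≤ ‖d‖) (hd' : m ≤ ‖d'‖) :
    ‖efield d - efield d'‖ ≤ 4 / m ^ 3 * ‖d - d'‖ := by
  have hx0 : 0 < ‖d‖ := lt_of_lt_of_le hm hd
  have hy0 : 0 < ‖d'‖ := lt_of_lt_of_le hm hd'
  have hm3 : 0 < m ^ 3 := by positivity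
  have e : efield d - efield d'
      = (‖d‖ ^ 3)⁻¹ • (d - d') + ((‖d‖ ^ 3)⁻¹ - (‖d'‖ ^ 3)⁻¹) • d' := by
    unfold efield
    rw [smul_sub, sub_smul]
    abel
  have h1 : ‖(‖d‖ ^ 3)⁻¹ • (d - d')‖ ≤ 1 / m ^ 3 * ‖d - d'‖ := by
    rw [norm_smul, norm_inv, norm_pow, norm_norm]
    apply mul_le_mul_of_nonneg_right _ (norm_nonneg _)
    rw [one_div]
    exact inv_anti₀ hm3 (pow_le_pow_left₀ hm.le hd 3)
  have h2 : ‖((‖d‖ ^ 3)⁻¹ - (‖d'‖ ^ 3)⁻¹) • d'‖ ≤ 3 / m ^ 3 * ‖d - d'‖ := by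
    rw [norm_smul, Real.norm_eq_abs]
    have h3 := nm_scalar_lipschitz hm hd hd'
    have h4 : |‖d‖ - ‖d'‖| ≤ ‖d - d'‖ := abs_norm_sub_norm_le d d'
    calc |(‖d‖ ^ 3)⁻¹ - (‖d'‖ ^ 3)⁻¹| * ‖d'‖ ≤ 3 / m ^ 3 * |‖d‖ - ‖d'‖| := h3
      _ ≤ 3 / m ^ 3 * ‖d - d'‖ := mul_le_mul_of_nonneg_left h4 (by positivity)
  rw [e]
  calc ‖(‖d‖ ^ 3)⁻¹ • (d - d') + ((‖d‖ ^ 3)⁻¹ - (‖d'‖ ^ 3)⁻¹) • d'‖
      ≤ ‖(‖d‖ ^ 3)⁻¹ • (d - d')‖ + ‖((‖d‖ ^ 3)⁻¹ - (‖d'‖ ^ 3)⁻¹) • d'‖ := norm_add_le _ _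
    _ ≤ 1 / m ^ 3 * ‖d - d'‖ + 3 / m ^ 3 * ‖d - d'‖ := add_le_add h1 h2
    _ = 4 / m ^ 3 * ‖d - d'‖ := by ring

/-- the squared norm of a difference of Coulomb fields. -/
theorem nm_norm_efield_sub_sq {d d' : V} (hd : d ≠ 0) (hd' : d' ≠ 0) :
    ‖efield d - efield d'‖ ^ 2 = ((‖d‖ ^ 2)⁻¹ - (‖d'‖ ^ 2)⁻¹) ^ 2
      + 2 * (‖d‖ * ‖d'‖ - ⟪d, d'⟫) / (‖d‖ ^ 3 * ‖d'‖ ^ 3) := by
  have hx : 0 < ‖d‖ := norm_pos_iff.2 hd
  have hy : 0 < ‖d'‖ := norm_pos_iff.2 hd'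
  rw [norm_sub_sq_real, norm_efield, norm_efield]
  unfold efield
  rw [inner_smul_left, inner_smul_right]
  simp only [RCLike.conj_to_real]
  field_simp
  ring

/-- the squared norm of a difference. -/
theorem nm_norm_sub_sq (d d' : V) :
    ‖d - d'‖ ^ 2 = (‖d‖ - ‖d'‖) ^ 2 + 2 * (‖d‖ * ‖d'‖ - ⟪d, d'⟫) := by
  rw [norm_sub_sq_real]
  ring

/-- the Coulomb field expands distances on a shell. -/
theorem efield_antilipschitz {m M : ℝ} (hm : 0 < m) {d d' : V}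
    (hd : m ≤ ‖d‖) (hdM : ‖d‖ ≤ M) (hd' : m ≤ ‖d'‖) (hd'M : ‖d'‖ ≤ M) :
    min (2 * m / M ^ 4) (1 / M ^ 3) * ‖d - d'‖ ≤ ‖efield d - efield d'‖ := by
  have hx : 0 < ‖d‖ := lt_of_lt_of_le hm hd
  have hy : 0 < ‖d'‖ := lt_of_lt_of_le hm hd'
  have hM : 0 < M := lt_of_lt_of_le hx hdM
  have hd0 : d ≠ 0 := norm_pos_iff.1 hx
  have hd'0 : d' ≠ 0 := norm_pos_iff.1 hy
  set κ : ℝ := min (2 * m / M ^ 4) (1 / M ^ 3) with hκ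
  have hκ0 : 0 ≤ κ := le_min (by positivity) (by positivity)
  have hκ1 : κ ≤ 2 * m / M ^ 4 := min_le_left _ _
  have hκ2 : κ ≤ 1 / M ^ 3 := min_le_right _ _
  set x : ℝ := ‖d‖ with hxdef
  set y : ℝ := ‖d'‖ with hydef
  set p : ℝ := ⟪d, d'⟫ with hpdef
  have hp : p ≤ x * y := real_inner_le_norm d d'
  have e1 : ‖efield d - efield d'‖ ^ 2 = ((x ^ 2)⁻¹ - (y ^ 2)⁻¹) ^ 2
      + 2 * (x * y - p) / (x ^ 3 * y ^ 3) := nm_norm_efield_sub_sq hd0 hd'0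
  have e2 : ‖d - d'‖ ^ 2 = (x - y) ^ 2 + 2 * (x * y - p) := nm_norm_sub_sq d d'
  -- first term
  have t1 : κ ^ 2 * (x - y) ^ 2 ≤ ((x ^ 2)⁻¹ - (y ^ 2)⁻¹) ^ 2 := by
    have e3 : (x ^ 2)⁻¹ - (y ^ 2)⁻¹ = (y - x) * ((x + y) / (x ^ 2 * y ^ 2)) := by
      field_simp
      ring
    have h1 : κ ≤ (x + y) / (x ^ 2 * y ^ 2) := by
      refine le_trans hκ1 ?_
      rw [div_le_div_iff₀ (by positivity) (by positivity)]
      have hx4 : x ^ 2 * y ^ 2 ≤ M ^ 4 := by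
        have h2 : x ^ 2 ≤ M ^ 2 := pow_le_pow_left₀ hx.le hdM 2
        have h3 : y ^ 2 ≤ M ^ 2 := pow_le_pow_left₀ hy.le hd'M 2
        calc x ^ 2 * y ^ 2 ≤ M ^ 2 * M ^ 2 := mul_le_mul h2 h3 (by positivity) (by positivity)
          _ = M ^ 4 := by ring
      calc 2 * m * (x ^ 2 * y ^ 2) ≤ (x + y) * (x ^ 2 * y ^ 2) :=
            mul_le_mul_of_nonneg_right (by linarith) (by positivity)
        _ ≤ (x + y) * M ^ 4 := mul_le_mul_of_nonneg_left hx4 (by positivity)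
    have h4 : κ ^ 2 ≤ ((x + y) / (x ^ 2 * y ^ 2)) ^ 2 := pow_le_pow_left₀ hκ0 h1 2
    rw [e3, mul_pow]
    calc κ ^ 2 * (x - y) ^ 2 ≤ ((x + y) / (x ^ 2 * y ^ 2)) ^ 2 * (x - y) ^ 2 :=
          mul_le_mul_of_nonneg_right h4 (sq_nonneg _)
      _ = (y - x) ^ 2 * ((x + y) / (x ^ 2 * y ^ 2)) ^ 2 := by ring
  -- second term
  have t2 : κ ^ 2 * (2 * (x * y - p)) ≤ 2 * (x * y - p) / (x ^ 3 * y ^ 3) := by
    have h1 : κ ^ 2 ≤ 1 / (x ^ 3 * y ^ 3) := by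
      have h2 : κ ^ 2 ≤ (1 / M ^ 3) ^ 2 := pow_le_pow_left₀ hκ0 hκ2 2
      refine le_trans h2 ?_
      rw [div_pow, one_pow]
      apply one_div_le_one_div_of_le (by positivity)
      have h3 : x ^ 3 ≤ M ^ 3 := pow_le_pow_left₀ hx.le hdM 3
      have h4 : y ^ 3 ≤ M ^ 3 := pow_le_pow_left₀ hy.le hd'M 3
      calc x ^ 3 * y ^ 3 ≤ M ^ 3 * M ^ 3 := mul_le_mul h3 h4 (by positivity) (by positivity)
        _ = (M ^ 3) ^ 2 := by ring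
    calc κ ^ 2 * (2 * (x * y - p)) ≤ 1 / (x ^ 3 * y ^ 3) * (2 * (x * y - p)) :=
          mul_le_mul_of_nonneg_right h1 (by linarith)
      _ = 2 * (x * y - p) / (x ^ 3 * y ^ 3) := by ring
  have hsq : (κ * ‖d - d'‖) ^ 2 ≤ ‖efield d - efield d'‖ ^ 2 := by
    rw [mul_pow, e1, e2, mul_add]
    exact add_le_add t1 t2
  exact le_of_sq_le_sq hsq (norm_nonneg _)

/-- semiconvexity of the Coulomb potential: a quadratic lower bound for `1/|d'|` at `d`. -/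
theorem inv_norm_ge {d d' : V} {C : ℝ} (hd : d ≠ 0) (hd' : d' ≠ 0) (hC : (‖d‖ ^ 3)⁻¹ ≤ C) :
    ‖d‖⁻¹ - ⟪efield d, d' - d⟫ - C / 2 * ‖d' - d‖ ^ 2 ≤ ‖d'‖⁻¹ := by
  have hx : 0 < ‖d‖ := norm_pos_iff.2 hd
  have hy : 0 < ‖d'‖ := norm_pos_iff.2 hd'
  have e1 : ⟪efield d, d' - d⟫ = (‖d‖ ^ 3)⁻¹ * (⟪d, d'⟫ - ‖d‖ ^ 2) := by
    unfold efield
    rw [inner_smul_left, inner_sub_right, real_inner_self_eq_norm_sq]
    simp only [RCLike.conj_to_real]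
  have e2 : ‖d' - d‖ ^ 2 = ‖d‖ ^ 2 + ‖d'‖ ^ 2 - 2 * ⟪d, d'⟫ := by
    rw [norm_sub_sq_real, real_inner_comm]
    ring
  rw [e1, e2]
  set x : ℝ := ‖d‖ with hxdef
  set y : ℝ := ‖d'‖ with hydef
  set p : ℝ := ⟪d, d'⟫ with hpdef
  have hp : p ≤ x * y := real_inner_le_norm d d'
  have hC0 : 0 ≤ C - (x ^ 3)⁻¹ := by linarith
  have hCpos : 0 ≤ C := le_trans (by positivity) hC
  have h1 : p * (C - (x ^ 3)⁻¹) ≤ x * y * (C - (x ^ 3)⁻¹) :=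
    mul_le_mul_of_nonneg_right hp hC0
  have h2 : x⁻¹ - (x ^ 3)⁻¹ * (p - x ^ 2) - C / 2 * (x ^ 2 + y ^ 2 - 2 * p)
      = 2 * x⁻¹ - C / 2 * (x ^ 2 + y ^ 2) + p * (C - (x ^ 3)⁻¹) := by
    field_simp
    ring
  have h3 : 2 * x⁻¹ - C / 2 * (x ^ 2 + y ^ 2) + x * y * (C - (x ^ 3)⁻¹)
      = 2 * x⁻¹ - y * (x ^ 2)⁻¹ - C / 2 * (x - y) ^ 2 := by
    field_simp
    ring
  have h4 : 2 * x⁻¹ - y * (x ^ 2)⁻¹ ≤ y⁻¹ := by
    have h5 : y⁻¹ - (2 * x⁻¹ - y * (x ^ 2)⁻¹) = (x - y) ^ 2 / (x ^ 2 * y) := by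
      field_simp
      ring
    have h6 : 0 ≤ (x - y) ^ 2 / (x ^ 2 * y) := by positivity
    linarith
  have h7 : 0 ≤ C / 2 * (x - y) ^ 2 := by positivity
  rw [h2]
  linarith

end Vale.Agent.Lib.P121
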