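import Vale.Agent.Lib.P121.Defs
import Vale.Agent.Lib.P121.NMField

namespace Vale.Agent.Lib.P121

open scoped RealInnerProductSpace

/-- base point of the second block. -/
noncomputable def nmB : E3 := !₂[3, 4, 0]

/-- base point of the third block. -/
noncomputable def nmC : E3 := !₂[3, -4, 0]

/-- the mirror swapping the last two coordinates. -/
noncomputable def nmS (x : E3) : E3 := !₂[x 0, x 2, x 1]

theorem nmS_nmS (x : E3) : nmS (nmS x) = x := by
  ext i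
  fin_cases i <;> simp [nmS]

theorem norm_sq_E3 (x : E3) : ‖x‖ ^ 2 = x 0 ^ 2 + x 1 ^ 2 + x 2 ^ 2 := by
  rw [EuclideanSpace.norm_eq, Real.sq_sqrt (by positivity), Fin.sum_univ_three]
  simp

theorem norm_E3_eq {x : E3} {r : ℝ} (hr : 0 ≤ r) (h : x 0 ^ 2 + x 1 ^ 2 + x 2 ^ 2 = r ^ 2) :
    ‖x‖ = r := by
  have := norm_sq_E3 x
  rw [h] at this
  exact (sq_eq_sq₀ (norm_nonneg _) hr).1 this

theorem dist_nmS (x y : E3) : dist (nmS x) (nmS y) = dist x y := by
  have h : ∀ u v : E3, dist u v ^ 2 = (u 0 - v 0) ^ 2 + (u 1 - v 1) ^ 2 + (u 2 - v 2) ^ 2 := by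
    intro u v
    rw [dist_eq_norm, norm_sq_E3]
    simp
  have e : dist (nmS x) (nmS y) ^ 2 = dist x y ^ 2 := by
    rw [h, h]
    simp [nmS]
    ring
  exact (sq_eq_sq₀ dist_nonneg dist_nonneg).1 e

theorem nmS_zero : nmS 0 = 0 := by
  ext i
  fin_cases i <;> simp [nmS]

theorem norm_nmS (x : E3) : ‖nmS x‖ = ‖x‖ := by
  have := dist_nmS x 0
  rw [nmS_zero, dist_zero_right, dist_zero_right] at this
  exact this

theorem isometry_nmS : Isometry nmS := Isometry.of_dist_eq dist_nmS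

theorem norm_nmB : ‖nmB‖ = 5 := by
  apply norm_E3_eq (by norm_num)
  simp [nmB]
  norm_num

theorem norm_nmC : ‖nmC‖ = 5 := by
  apply norm_E3_eq (by norm_num)
  simp [nmC]
  norm_num

theorem norm_nmB_sub_nmC : ‖nmB - nmC‖ = 8 := by
  apply norm_E3_eq (by norm_num)
  simp [nmB, nmC]
  norm_num

theorem dist_sq_E3 (u v : E3) :
    dist u v ^ 2 = (u 0 - v 0) ^ 2 + (u 1 - v 1) ^ 2 + (u 2 - v 2) ^ 2 := by
  rw [dist_eq_norm, norm_sq_E3]
  simp

theorem inner_E3 (x y : E3) : ⟪x, y⟫ = x 0 * y 0 + x 1 * y 1 + x 2 * y 2 := by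
  rw [PiLp.inner_apply, Fin.sum_univ_three]
  simp
  ring

theorem dist_zero_nmB : dist (0 : E3) nmB = 5 := by
  rw [dist_zero_left, norm_nmB]

theorem dist_zero_nmC : dist (0 : E3) nmC = 5 := by
  rw [dist_zero_left, norm_nmC]

theorem dist_zero_nmS_nmB : dist (0 : E3) (nmS nmB) = 5 := by
  rw [dist_zero_left, norm_nmS, norm_nmB]

theorem dist_zero_nmS_nmC : dist (0 : E3) (nmS nmC) = 5 := by
  rw [dist_zero_left, norm_nmS, norm_nmC]

theorem dist_nmB_nmC : dist nmB nmC = 8 := by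
  rw [dist_eq_norm, norm_nmB_sub_nmC]

theorem dist_nmS_nmB_nmS_nmC : dist (nmS nmB) (nmS nmC) = 8 := by
  rw [dist_nmS, dist_nmB_nmC]

theorem bounds_of_sq_eq {d : ℝ} (h0 : 0 ≤ d) (h : d ^ 2 = 32) : 1 ≤ d ∧ d ≤ 566 / 100 := by
  constructor
  · nlinarith
  · by_contra hc
    rw [not_le] at hc
    nlinarith

theorem dist_nmB_nmS_nmB : 1 ≤ dist nmB (nmS nmB) ∧ dist nmB (nmS nmB) ≤ 566 / 100 := by
  apply bounds_of_sq_eq dist_nonneg
  rw [dist_sq_E3]
  simp [nmB, nmS]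
  norm_num

theorem dist_nmB_nmS_nmC : 1 ≤ dist nmB (nmS nmC) ∧ dist nmB (nmS nmC) ≤ 566 / 100 := by
  apply bounds_of_sq_eq dist_nonneg
  rw [dist_sq_E3]
  simp [nmB, nmC, nmS]
  norm_num

theorem dist_nmC_nmS_nmB : 1 ≤ dist nmC (nmS nmB) ∧ dist nmC (nmS nmB) ≤ 566 / 100 := by
  apply bounds_of_sq_eq dist_nonneg
  rw [dist_sq_E3]
  simp [nmB, nmC, nmS]
  norm_num

theorem dist_nmC_nmS_nmC : 1 ≤ dist nmC (nmS nmC) ∧ dist nmC (nmS nmC) ≤ 566 / 100 := by
  apply bounds_of_sq_eq dist_nonneg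
  rw [dist_sq_E3]
  simp [nmC, nmS]
  norm_num

/-- the force at the apex. -/
noncomputable def nmFa : E3 := efield nmB + efield nmC

/-- the force at the second base point. -/
noncomputable def nmFb : E3 := -efield nmB - efield (nmB - nmC)

theorem inner_nmFa_nmS (x : E3) : ⟪nmFa, nmS x⟫ = ⟪nmFa, x⟫ := by
  unfold nmFa efield
  rw [norm_nmB, norm_nmC, inner_add_left, inner_add_left, inner_smul_left, inner_smul_left,
    inner_smul_left, inner_smul_left, inner_E3, inner_E3, inner_E3, inner_E3]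
  simp [nmB, nmC, nmS]
  ring

theorem norm_nmFa_le : ‖nmFa‖ ≤ 2 / 25 := by
  unfold nmFa
  refine le_trans (norm_add_le _ _) ?_
  rw [norm_efield, norm_efield, norm_nmB, norm_nmC]
  norm_num

theorem norm_nmFb_le : ‖nmFb‖ ≤ 6 / 100 := by
  unfold nmFb
  refine le_trans (norm_sub_le _ _) ?_
  rw [norm_neg, norm_efield, norm_efield, norm_nmB, norm_nmB_sub_nmC]
  norm_num

end Vale.Agent.Lib.P121
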