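import Vale.Agent.Lib.P121.NMField

/-!
# P121: the quadratic potentials and the growth inequality along a sheet
-/

namespace Vale.Agent.Lib.P121

open scoped RealInnerProductSpace

section

variable {V : Type*} [NormedAddCommGroup V] [InnerProductSpace ℝ V]

/-- the real three-point Coulomb cost. -/
noncomputable def cost3 (x y z : V) : ℝ := ‖x - y‖⁻¹ + ‖x - z‖⁻¹ + ‖y - z‖⁻¹

/-- a strongly concave quadratic potential centred at `p`. -/
noncomputable def quadPot (w : ℝ) (F p x : V) : ℝ := w + ⟪F, x - p⟫ - 5 * ‖x - p‖ ^ 2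

theorem quadPot_sub (w : ℝ) (F p x x0 : V) :
    quadPot w F p x - quadPot w F p x0
      = ⟪F, x - x0⟫ - 10 * ⟪x0 - p, x - x0⟫ - 5 * ‖x - x0‖ ^ 2 := by
  have e1 : x - p = (x0 - p) + (x - x0) := by abel
  have e2 : ‖x - p‖ ^ 2 = ‖x0 - p‖ ^ 2 + 2 * ⟪x0 - p, x - x0⟫ + ‖x - x0‖ ^ 2 := by
    rw [e1, norm_add_sq_real]
  unfold quadPot
  rw [e2]
  have e3 : ⟪F, x - p⟫ = ⟪F, x0 - p⟫ + ⟪F, x - x0⟫ := by
    rw [e1, inner_add_right]
  rw [e3]
  ring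

theorem quadPot_bounds {w : ℝ} {F p x : V} {f r : ℝ} (hF : ‖F‖ ≤ f) (hx : ‖x - p‖ ≤ r) :
    w - f * r - 5 * r ^ 2 ≤ quadPot w F p x ∧ quadPot w F p x ≤ w + f * r := by
  have h0 : 0 ≤ ‖x - p‖ := norm_nonneg _
  have hF0 : 0 ≤ ‖F‖ := norm_nonneg _
  have h1 : |⟪F, x - p⟫| ≤ ‖F‖ * ‖x - p‖ := abs_real_inner_le_norm _ _
  have h2 : ‖F‖ * ‖x - p‖ ≤ f * r := mul_le_mul hF hx h0 (le_trans hF0 hF)
  have h3 : ‖x - p‖ ^ 2 ≤ r ^ 2 := pow_le_pow_left₀ h0 hx 2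
  have h4 := abs_le.1 (le_trans h1 h2)
  have h5 : 0 ≤ ‖x - p‖ ^ 2 := by positivity
  unfold quadPot
  constructor <;> linarith [h4.1, h4.2]

theorem cost3_bounds {x y z : V} (h1 : 4995 / 1000 ≤ ‖x - y‖) (h1' : ‖x - y‖ ≤ 5005 / 1000)
    (h2 : 4995 / 1000 ≤ ‖x - z‖) (h2' : ‖x - z‖ ≤ 5005 / 1000)
    (h3 : 7995 / 1000 ≤ ‖y - z‖) (h3' : ‖y - z‖ ≤ 8005 / 1000) :
    5243 / 10000 ≤ cost3 x y z ∧ cost3 x y z ≤ 5257 / 10000 := by
  have a1 : ‖x - y‖⁻¹ ≤ 2003 / 10000 := by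
    rw [inv_le_comm₀ (by linarith) (by norm_num)]
    norm_num
    linarith
  have a2 : ‖x - z‖⁻¹ ≤ 2003 / 10000 := by
    rw [inv_le_comm₀ (by linarith) (by norm_num)]
    norm_num
    linarith
  have a3 : ‖y - z‖⁻¹ ≤ 1251 / 10000 := by
    rw [inv_le_comm₀ (by linarith) (by norm_num)]
    norm_num
    linarith
  have b1 : 1997 / 10000 ≤ ‖x - y‖⁻¹ := by
    rw [le_inv_comm₀ (by norm_num) (by linarith)]
    norm_num
    linarith
  have b2 : 1997 / 10000 ≤ ‖x - z‖⁻¹ := by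
    rw [le_inv_comm₀ (by norm_num) (by linarith)]
    norm_num
    linarith
  have b3 : 1249 / 10000 ≤ ‖y - z‖⁻¹ := by
    rw [le_inv_comm₀ (by norm_num) (by linarith)]
    norm_num
    linarith
  unfold cost3
  constructor <;> linarith

/-- the growth inequality: moving the first two points of a contact triple raises the reduced
cost at least quadratically. -/
theorem sheet_growth {Fa Fb b0 a0 b1 c a b : V} (w v : ℝ)
    (hab0 : 4 ≤ ‖a0 - b1‖) (hac0 : 4 ≤ ‖a0 - c‖) (hbc0 : 4 ≤ ‖b1 - c‖)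
    (hab : a ≠ b) (hac : a ≠ c) (hbc : b ≠ c)
    (e1 : (10 : ℝ) • a0 = Fa + efield (a0 - b1) + efield (a0 - c))
    (e2 : (10 : ℝ) • (b1 - b0) = Fb + efield (b1 - a0) + efield (b1 - c)) :
    cost3 a0 b1 c - quadPot w Fa 0 a0 - quadPot v Fb b0 b1
        + 4 * (‖a - a0‖ ^ 2 + ‖b - b1‖ ^ 2)
      ≤ cost3 a b c - quadPot w Fa 0 a - quadPot v Fb b0 b := by
  have inv64 : ∀ d : V, 4 ≤ ‖d‖ → (‖d‖ ^ 3)⁻¹ ≤ 1 / 64 := by
    intro d hd
    rw [inv_le_comm₀ (by positivity) (by norm_num)]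
    have : (4 : ℝ) ^ 3 ≤ ‖d‖ ^ 3 := pow_le_pow_left₀ (by norm_num) hd 3
    norm_num at this ⊢
    linarith
  have nz : ∀ d : V, 4 ≤ ‖d‖ → d ≠ 0 := by
    intro d hd h
    rw [h, norm_zero] at hd
    norm_num at hd
  have g1 := inv_norm_ge (d := a0 - b1) (d' := a - b) (C := 1 / 64) (nz _ hab0)
    (sub_ne_zero.2 hab) (inv64 _ hab0)
  have g2 := inv_norm_ge (d := a0 - c) (d' := a - c) (C := 1 / 64) (nz _ hac0)
    (sub_ne_zero.2 hac) (inv64 _ hac0)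
  have g3 := inv_norm_ge (d := b1 - c) (d' := b - c) (C := 1 / 64) (nz _ hbc0)
    (sub_ne_zero.2 hbc) (inv64 _ hbc0)
  have r1 : a - b - (a0 - b1) = (a - a0) - (b - b1) := by abel
  have r2 : a - c - (a0 - c) = a - a0 := by abel
  have r3 : b - c - (b1 - c) = b - b1 := by abel
  rw [r1] at g1
  rw [r2] at g2
  rw [r3] at g3
  have par : ‖(a - a0) - (b - b1)‖ ^ 2 ≤ 2 * ‖a - a0‖ ^ 2 + 2 * ‖b - b1‖ ^ 2 := by
    have h1 := norm_sub_sq_real (a - a0) (b - b1)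
    have h2 := norm_add_sq_real (a - a0) (b - b1)
    have h3 : 0 ≤ ‖(a - a0) + (b - b1)‖ ^ 2 := by positivity
    linarith
  have q1 := quadPot_sub w Fa 0 a a0
  have q2 := quadPot_sub v Fb b0 b b1
  rw [sub_zero] at q1
  have i1 : (10 : ℝ) * ⟪a0, a - a0⟫ = ⟪Fa, a - a0⟫ + ⟪efield (a0 - b1), a - a0⟫
      + ⟪efield (a0 - c), a - a0⟫ := by
    have := congrArg (fun u : V => ⟪u, a - a0⟫) e1
    simp only [inner_add_left, inner_smul_left, RCLike.conj_to_real] at this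
    exact this
  have i2 : (10 : ℝ) * ⟪b1 - b0, b - b1⟫ = ⟪Fb, b - b1⟫ - ⟪efield (a0 - b1), b - b1⟫
      + ⟪efield (b1 - c), b - b1⟫ := by
    have := congrArg (fun u : V => ⟪u, b - b1⟫) e2
    have hn : efield (b1 - a0) = -efield (a0 - b1) := by
      rw [← efield_neg, neg_sub]
    rw [hn] at this
    simp only [inner_add_left, inner_smul_left, inner_neg_left, RCLike.conj_to_real] at this
    linarith
  have i3 : ⟪efield (a0 - b1), (a - a0) - (b - b1)⟫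
      = ⟪efield (a0 - b1), a - a0⟫ - ⟪efield (a0 - b1), b - b1⟫ := inner_sub_right _ _ _
  rw [i3] at g1
  have p1 : 0 ≤ ‖a - a0‖ ^ 2 := by positivity
  have p2 : 0 ≤ ‖b - b1‖ ^ 2 := by positivity
  unfold cost3
  linarith

end

end Vale.Agent.Lib.P121
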