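import Vale.Agent.Lib.P121.Defs
import Vale.Agent.Lib.P121.Geometry

namespace Vale.Agent.Lib.P121

open MeasureTheory
open scoped ENNReal

/-- first block: norms in `[1,2]`, direction within `1/100` of `e`. -/
def blob1 (e x : E3) : Prop := 1 ≤ ‖x‖ ∧ ‖x‖ ≤ 2 ∧ ‖x - ‖x‖ • e‖ ≤ ‖x‖ / 100

/-- second block: norms in `[18,19]`, direction within `1/100` of `-e`. -/
def blob2 (e x : E3) : Prop := 18 ≤ ‖x‖ ∧ ‖x‖ ≤ 19 ∧ ‖x + ‖x‖ • e‖ ≤ ‖x‖ / 100

/-- third block: norms in `[61,62]`, direction within `1/100` of `e`. -/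
def blob3 (e x : E3) : Prop := 61 ≤ ‖x‖ ∧ ‖x‖ ≤ 62 ∧ ‖x - ‖x‖ • e‖ ≤ ‖x‖ / 100

/-- union of the three blocks. -/
def blobs (e x : E3) : Prop := blob1 e x ∨ blob2 e x ∨ blob3 e x

/-- the Kantorovich potential. -/
noncomputable def pot (x : E3) : ℝ :=
  if ‖x‖ ≤ 2 then 1 / 100 - ‖x‖ / 450
  else if ‖x‖ ≤ 19 then 59 / 600 - 17 / 6400 * ‖x‖ else 1 / 20 - ‖x‖ / 2304

/-- the cyclic map. -/
noncomputable def cyc (x : E3) : E3 :=
  if ‖x‖ ≤ 2 then radialShift (-20) x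
  else if ‖x‖ ≤ 19 then radialShift (-80) x else radialShift (-60) x

lemma pot_blob1 {e x : E3} (h : blob1 e x) : pot x = 1 / 100 - ‖x‖ / 450 := by
  simp [pot, h.2.1]

lemma pot_blob2 {e x : E3} (h : blob2 e x) : pot x = 59 / 600 - 17 / 6400 * ‖x‖ := by
  have h2 : ¬ ‖x‖ ≤ 2 := by have := h.1; intro h'; linarith
  simp [pot, h2, h.2.1]

lemma pot_blob3 {e x : E3} (h : blob3 e x) : pot x = 1 / 20 - ‖x‖ / 2304 := by
  have h2 : ¬ ‖x‖ ≤ 2 := by have := h.1; intro h'; linarith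
  have h3 : ¬ ‖x‖ ≤ 19 := by have := h.1; intro h'; linarith
  simp [pot, h2, h3]

lemma pot_bounds {e x : E3} (h : blobs e x) : 0 ≤ pot x ∧ pot x ≤ 3 / 50 := by
  rcases h with h | h | h
  · rw [pot_blob1 h]; obtain ⟨a, b, -⟩ := h; constructor <;> linarith
  · rw [pot_blob2 h]; obtain ⟨a, b, -⟩ := h; constructor <;> linarith
  · rw [pot_blob3 h]; obtain ⟨a, b, -⟩ := h; constructor <;> linarith

lemma dist_le_of_cone {e x y : E3} (he : ‖e‖ = 1) {ρ : ℝ} (hρ : ρ ≤ 61)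
    (hx : ρ ≤ ‖x‖) (hx' : ‖x‖ ≤ ρ + 1) (hy : ρ ≤ ‖y‖) (hy' : ‖y‖ ≤ ρ + 1)
    (cx : ‖x - ‖x‖ • e‖ ≤ ‖x‖ / 100) (cy : ‖y - ‖y‖ • e‖ ≤ ‖y‖ / 100) : dist x y ≤ 9 / 4 := by
  have e1 : x - y = (x - ‖x‖ • e) + (‖x‖ - ‖y‖) • e - (y - ‖y‖ • e) := by
    rw [sub_smul]; abel
  have h1 : ‖(‖x‖ - ‖y‖) • e‖ ≤ 1 := by
    rw [norm_smul, he, mul_one, Real.norm_eq_abs, abs_le]; constructor <;> linarith
  calc dist x y = ‖x - y‖ := dist_eq_norm x y
    _ = ‖(x - ‖x‖ • e) + (‖x‖ - ‖y‖) • e - (y - ‖y‖ • e)‖ := by rw [← e1]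
    _ ≤ ‖(x - ‖x‖ • e) + (‖x‖ - ‖y‖) • e‖ + ‖y - ‖y‖ • e‖ := norm_sub_le _ _
    _ ≤ ‖x - ‖x‖ • e‖ + ‖(‖x‖ - ‖y‖) • e‖ + ‖y - ‖y‖ • e‖ := by
        gcongr; exact norm_add_le _ _
    _ ≤ 9 / 4 := by linarith

lemma close1 {e x y : E3} (he : ‖e‖ = 1) (hx : blob1 e x) (hy : blob1 e y) : dist x y ≤ 9 / 4 :=
  dist_le_of_cone he (ρ := 1) (by norm_num) hx.1 (by linarith [hx.2.1]) hy.1 (by linarith [hy.2.1])
    hx.2.2 hy.2.2

lemma close2 {e x y : E3} (he : ‖e‖ = 1) (hx : blob2 e x) (hy : blob2 e y) : dist x y ≤ 9 / 4 := by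
  have he' : ‖-e‖ = 1 := by rw [norm_neg, he]
  refine dist_le_of_cone he' (ρ := 18) (by norm_num) hx.1 (by linarith [hx.2.1]) hy.1
    (by linarith [hy.2.1]) ?_ ?_
  · rw [smul_neg, sub_neg_eq_add]; exact hx.2.2
  · rw [smul_neg, sub_neg_eq_add]; exact hy.2.2

lemma close3 {e x y : E3} (he : ‖e‖ = 1) (hx : blob3 e x) (hy : blob3 e y) : dist x y ≤ 9 / 4 :=
  dist_le_of_cone he (ρ := 61) (by norm_num) hx.1 (by linarith [hx.2.1]) hy.1 (by linarith [hy.2.1])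
    hx.2.2 hy.2.2

lemma close {e x y : E3} (he : ‖e‖ = 1)
    (h : (blob1 e x ∧ blob1 e y) ∨ (blob2 e x ∧ blob2 e y) ∨ (blob3 e x ∧ blob3 e y)) :
    dist x y ≤ 9 / 4 := by
  rcases h with h | h | h
  · exact close1 he h.1 h.2
  · exact close2 he h.1 h.2
  · exact close3 he h.1 h.2

lemma inv_ge_of_close {x y : E3} (h : dist x y ≤ 9 / 4) :
    ENNReal.ofReal (4 / 9) ≤ (ENNReal.ofReal (dist x y))⁻¹ := by
  have h1 : (ENNReal.ofReal (9 / 4))⁻¹ ≤ (ENNReal.ofReal (dist x y))⁻¹ :=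
    ENNReal.inv_le_inv.2 (ENNReal.ofReal_le_ofReal h)
  have h2 : (ENNReal.ofReal (9 / 4))⁻¹ = ENNReal.ofReal (4 / 9) := by
    rw [← ENNReal.ofReal_inv_of_pos (by norm_num)]; norm_num
  rw [← h2]; exact h1

lemma coulomb_ge_xy {x y z : E3} (h : dist x y ≤ 9 / 4) : ENNReal.ofReal (4 / 9) ≤ coulomb x y z :=
  (inv_ge_of_close h).trans (le_add_right (le_add_right le_rfl))

lemma coulomb_ge_xz {x y z : E3} (h : dist x z ≤ 9 / 4) : ENNReal.ofReal (4 / 9) ≤ coulomb x y z :=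
  (inv_ge_of_close h).trans (le_add_right (le_add_left le_rfl))

lemma coulomb_ge_yz {x y z : E3} (h : dist y z ≤ 9 / 4) : ENNReal.ofReal (4 / 9) ≤ coulomb x y z :=
  (inv_ge_of_close h).trans (le_add_left le_rfl)

lemma coulomb_swap12 (x y z : E3) : coulomb x y z = coulomb y x z := by
  simp only [coulomb, dist_comm y x]; ring

lemma coulomb_swap23 (x y z : E3) : coulomb x y z = coulomb x z y := by
  simp only [coulomb, dist_comm z y]; ring

lemma coulomb_rot (x y z : E3) : coulomb x y z = coulomb y z x := by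
  rw [coulomb_swap12 x y z, coulomb_swap23 y x z]

lemma coulomb_eq_ofReal {x y z : E3} (hxy : x ≠ y) (hxz : x ≠ z) (hyz : y ≠ z) :
    coulomb x y z = ENNReal.ofReal ((dist x y)⁻¹ + (dist x z)⁻¹ + (dist y z)⁻¹) := by
  have p1 := dist_pos.2 hxy
  have p2 := dist_pos.2 hxz
  have p3 := dist_pos.2 hyz
  rw [coulomb, ENNReal.ofReal_add (by positivity) (by positivity),
    ENNReal.ofReal_add (by positivity) (by positivity),
    ENNReal.ofReal_inv_of_pos p1, ENNReal.ofReal_inv_of_pos p2, ENNReal.ofReal_inv_of_pos p3]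

lemma pot_le_123 {e x1 x2 x3 : E3} (h1 : blob1 e x1) (h2 : blob2 e x2) (h3 : blob3 e x3) :
    ENNReal.ofReal (pot x1 + pot x2 + pot x3) ≤ coulomb x1 x2 x3 := by
  have n12 : x1 ≠ x2 := fun h => by have := h1.2.1; have := h2.1; rw [h] at *; linarith
  have n13 : x1 ≠ x3 := fun h => by have := h1.2.1; have := h3.1; rw [h] at *; linarith
  have n23 : x2 ≠ x3 := fun h => by have := h2.2.1; have := h3.1; rw [h] at *; linarith
  rw [coulomb_eq_ofReal n12 n13 n23, pot_blob1 h1, pot_blob2 h2, pot_blob3 h3]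
  apply ENNReal.ofReal_le_ofReal
  have := main_ineq x1 x2 x3 h1.1 h1.2.1 h2.1 h2.2.1 h3.1 h3.2.1
  linarith

/-- the potential inequality on the union of the three blocks. -/
lemma pot_le_coulomb {e x y z : E3} (he : ‖e‖ = 1) (hx : blobs e x) (hy : blobs e y)
    (hz : blobs e z) : ENNReal.ofReal (pot x + pot y + pot z) ≤ coulomb x y z := by
  have bx := pot_bounds hx
  have by' := pot_bounds hy
  have bz := pot_bounds hz
  have small : ENNReal.ofReal (pot x + pot y + pot z) ≤ ENNReal.ofReal (4 / 9) :=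
    ENNReal.ofReal_le_ofReal (by linarith)
  rcases hx with hx | hx | hx <;> rcases hy with hy | hy | hy <;> rcases hz with hz | hz | hz
  all_goals first
    | exact small.trans (coulomb_ge_xy (close he (Or.inl ⟨hx, hy⟩)))
    | exact small.trans (coulomb_ge_xy (close he (Or.inr (Or.inl ⟨hx, hy⟩))))
    | exact small.trans (coulomb_ge_xy (close he (Or.inr (Or.inr ⟨hx, hy⟩))))
    | exact small.trans (coulomb_ge_xz (close he (Or.inl ⟨hx, hz⟩)))
    | exact small.trans (coulomb_ge_xz (close he (Or.inr (Or.inl ⟨hx, hz⟩))))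
    | exact small.trans (coulomb_ge_xz (close he (Or.inr (Or.inr ⟨hx, hz⟩))))
    | exact small.trans (coulomb_ge_yz (close he (Or.inl ⟨hy, hz⟩)))
    | exact small.trans (coulomb_ge_yz (close he (Or.inr (Or.inl ⟨hy, hz⟩))))
    | exact small.trans (coulomb_ge_yz (close he (Or.inr (Or.inr ⟨hy, hz⟩))))
    | exact pot_le_123 hx hy hz
    | (rw [coulomb_swap23 x y z]; convert pot_le_123 hx hz hy using 2; ring)
    | (rw [coulomb_swap12 x y z]; convert pot_le_123 hy hx hz using 2; ring)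
    | (rw [coulomb_rot x y z]; convert pot_le_123 hy hz hx using 2; ring)
    | (rw [coulomb_rot x y z, coulomb_rot y z x]; convert pot_le_123 hz hx hy using 2; ring)
    | (rw [coulomb_swap23 x y z, coulomb_rot x z y]; convert pot_le_123 hz hy hx using 2; ring)

end Vale.Agent.Lib.P121
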