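import Vale.Agent.Lib.P121.NMSheet
import Vale.Agent.Lib.P121.NMGrowth
import Vale.Agent.Lib.P121.NMGeom
import Vale.Agent.Lib.P121.NMDefs
import Vale.Agent.Lib.P121.Potential
import Vale.Agent.Lib.P121.NMAc
import Vale.Agent.Lib.P121.NMCount
import Vale.Agent.Lib.P121.NMCases

/-!
# P121: assembling the two-sheet example

Five small blocks around the apex `0` and the four base corners of a square pyramid, the explicit
strongly concave potentials on the first two blocks, the sheet maps from `exists_sheet`, their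
mirror images, and the resulting measure without an optimal plan of Monge type.
-/

namespace Vale.Agent.Lib.P121

open MeasureTheory Set
open scoped ENNReal RealInnerProductSpace

/-- the first block: a small closed ball around the origin. -/
def nmA : Set E3 := Metric.closedBall 0 rhoA

/-- the second block. -/
def nmB1 : Set E3 := Metric.closedBall nmB (16 * rhoA)

/-- the third block: the image of the first block under the third sheet map. -/
def nmC1 (c : E3 → E3) : Set E3 := c '' nmA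

/-- the mirror image of the second block. -/
def nmB2 : Set E3 := nmS ⁻¹' nmB1

/-- the mirror image of the third block. -/
def nmC2 (c : E3 → E3) : Set E3 := nmS ⁻¹' nmC1 c

/-- the properties of the sheet maps. -/
def NMSheetProp (b c : E3 → E3) : Prop :=
  (∀ a : E3, ‖a‖ ≤ rhoA → ‖b a - nmB‖ ≤ 16 * rhoA ∧ ‖c a - nmC‖ ≤ 2400 * rhoA ∧
      4 ≤ ‖a - b a‖ ∧ 4 ≤ ‖a - c a‖ ∧ 4 ≤ ‖b a - c a‖ ∧
      (10 : ℝ) • a = (efield nmB + efield nmC) + efield (a - b a) + efield (a - c a) ∧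
      (10 : ℝ) • (b a - nmB) = (-efield nmB - efield (nmB - nmC)) + efield (b a - a)
        + efield (b a - c a)) ∧
    (∀ a a' : E3, ‖a‖ ≤ rhoA → ‖a'‖ ≤ rhoA →
      ‖b a - b a'‖ ≤ 16 * ‖a - a'‖ ∧ ‖c a - c a'‖ ≤ 3000 * ‖a - a'‖ ∧
      1 / 100 * ‖a - a'‖ ≤ ‖b a - b a'‖ ∧ 100 * ‖a - a'‖ ≤ ‖c a - c a'‖)

theorem mem_nmA {x : E3} : x ∈ nmA ↔ ‖x‖ ≤ rhoA := by
  unfold nmA
  rw [Metric.mem_closedBall, dist_zero_right]

theorem measurableSet_nmA : MeasurableSet nmA := Metric.isClosed_closedBall.measurableSet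

theorem measurableSet_nmB1 : MeasurableSet nmB1 := Metric.isClosed_closedBall.measurableSet

theorem exists_nm_sheet : ∃ b c : E3 → E3, Measurable b ∧ Measurable c ∧ NMSheetProp b c := by
  classical
  obtain ⟨b, c, hpt, hlip⟩ := exists_sheet (V := E3) norm_nmB norm_nmC norm_nmB_sub_nmC
  have hbc : ContinuousOn b nmA := by
    have : LipschitzOnWith 16 b nmA := by
      apply LipschitzOnWith.of_dist_le_mul
      intro x hx y hy
      rw [dist_eq_norm, dist_eq_norm]
      have := (hlip x y (mem_nmA.1 hx) (mem_nmA.1 hy)).1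
      simpa using this
    exact this.continuousOn
  have hcc : ContinuousOn c nmA := by
    have : LipschitzOnWith 3000 c nmA := by
      apply LipschitzOnWith.of_dist_le_mul
      intro x hx y hy
      rw [dist_eq_norm, dist_eq_norm]
      have := (hlip x y (mem_nmA.1 hx) (mem_nmA.1 hy)).2.1
      simpa using this
    exact this.continuousOn
  refine ⟨nmA.piecewise b (fun _ => nmB), nmA.piecewise c (fun _ => nmC),
    hbc.measurable_piecewise continuousOn_const measurableSet_nmA,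
    hcc.measurable_piecewise continuousOn_const measurableSet_nmA, ?_, ?_⟩
  · intro a ha
    have ha' : a ∈ nmA := mem_nmA.2 ha
    simp only [Set.piecewise_eq_of_mem _ _ _ ha']
    exact hpt a ha
  · intro a a' ha ha'
    have h1 : a ∈ nmA := mem_nmA.2 ha
    have h2 : a' ∈ nmA := mem_nmA.2 ha'
    simp only [Set.piecewise_eq_of_mem _ _ _ h1, Set.piecewise_eq_of_mem _ _ _ h2]
    exact hlip a a' ha ha'

/-- the potential on the first block. -/
noncomputable def nmPhi (x : E3) : ℝ := quadPot (325 / 1000) nmFa 0 x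

/-- the potential on the second block. -/
noncomputable def nmUB (x : E3) : ℝ := quadPot (1 / 10) nmFb nmB x

/-- the value of the potential at the third point of the contact triple through `a`. -/
noncomputable def nmG (b c : E3 → E3) (a : E3) : ℝ :=
  cost3 a (b a) (c a) - nmPhi a - nmUB (b a)

/-- the potential on the third block (zero elsewhere). -/
noncomputable def nmUC (b c : E3 → E3) : E3 → ℝ :=
  Function.extend (fun a : nmA => c (a : E3)) (fun a : nmA => nmG b c (a : E3)) 0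

/-- the Kantorovich potential on the five blocks. -/
noncomputable def nmU (b c : E3 → E3) (x : E3) : ℝ≥0∞ := by
  classical
  exact if x ∈ nmA then ENNReal.ofReal (nmPhi x)
    else if x ∈ nmB1 then ENNReal.ofReal (nmUB x)
    else if x ∈ nmC1 c then ENNReal.ofReal (nmUC b c x)
    else if x ∈ nmB2 then ENNReal.ofReal (nmUB (nmS x))
    else ENNReal.ofReal (nmUC b c (nmS x))

theorem continuous_quadPot (w : ℝ) (F p : E3) : Continuous (quadPot w F p) := by
  unfold quadPot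
  fun_prop

theorem measurable_nmPhi : Measurable nmPhi := (continuous_quadPot _ _ _).measurable

theorem measurable_nmUB : Measurable nmUB := (continuous_quadPot _ _ _).measurable

theorem measurable_nmS : Measurable nmS := isometry_nmS.continuous.measurable

theorem measurableSet_nmB2 : MeasurableSet nmB2 := measurable_nmS measurableSet_nmB1

theorem measurable_nmG {b c : E3 → E3} (hb : Measurable b) (hc : Measurable c) :
    Measurable (nmG b c) := by
  unfold nmG cost3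
  exact ((((measurable_id.sub hb).norm.inv.add (measurable_id.sub hc).norm.inv).add
    (hb.sub hc).norm.inv).sub measurable_nmPhi).sub (measurable_nmUB.comp hb)

theorem injOn_of_expand {f : E3 → E3} {κ : ℝ} (hκ : 0 < κ)
    (h : ∀ a a' : E3, ‖a‖ ≤ rhoA → ‖a'‖ ≤ rhoA → κ * ‖a - a'‖ ≤ ‖f a - f a'‖) :
    InjOn f nmA := by
  intro x hx y hy hxy
  have h1 := h x y (mem_nmA.1 hx) (mem_nmA.1 hy)
  rw [hxy, sub_self, norm_zero] at h1
  have h2 : ‖x - y‖ ≤ 0 := by
    by_contra hc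
    rw [not_le] at hc
    nlinarith
  exact sub_eq_zero.1 (norm_le_zero_iff.1 h2)

theorem injOn_b {b c : E3 → E3} (h : NMSheetProp b c) : InjOn b nmA :=
  injOn_of_expand (κ := 1 / 100) (by norm_num) fun a a' ha ha' => (h.2 a a' ha ha').2.2.1

theorem injOn_c {b c : E3 → E3} (h : NMSheetProp b c) : InjOn c nmA :=
  injOn_of_expand (κ := 100) (by norm_num) fun a a' ha ha' => (h.2 a a' ha ha').2.2.2

theorem injective_c_sub {b c : E3 → E3} (h : NMSheetProp b c) :
    Function.Injective (fun a : nmA => c (a : E3)) := by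
  intro x y hxy
  exact Subtype.ext (injOn_c h x.2 y.2 hxy)

theorem measurableEmbedding_c {b c : E3 → E3} (hc : Measurable c) (h : NMSheetProp b c) :
    MeasurableEmbedding (fun a : nmA => c (a : E3)) := by
  have : StandardBorelSpace nmA := measurableSet_nmA.standardBorel
  exact (hc.comp measurable_subtype_coe).measurableEmbedding (injective_c_sub h)

theorem measurableSet_nmC1 {b c : E3 → E3} (hc : Measurable c) (h : NMSheetProp b c) :
    MeasurableSet (nmC1 c) := by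
  have := (measurableEmbedding_c hc h).measurableSet_range
  have e : Set.range (fun a : nmA => c (a : E3)) = nmC1 c := by
    ext x
    constructor
    · rintro ⟨a, rfl⟩
      exact ⟨a, a.2, rfl⟩
    · rintro ⟨a, ha, rfl⟩
      exact ⟨⟨a, ha⟩, rfl⟩
  rwa [e] at this

theorem measurableSet_nmC2 {b c : E3 → E3} (hc : Measurable c) (h : NMSheetProp b c) :
    MeasurableSet (nmC2 c) := measurable_nmS (measurableSet_nmC1 hc h)

theorem measurable_nmUC {b c : E3 → E3} (hb : Measurable b) (hc : Measurable c)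
    (h : NMSheetProp b c) : Measurable (nmUC b c) :=
  (measurableEmbedding_c hc h).measurable_extend
    ((measurable_nmG hb hc).comp measurable_subtype_coe) measurable_const

theorem nmUC_apply {b c : E3 → E3} (h : NMSheetProp b c) {a : E3} (ha : a ∈ nmA) :
    nmUC b c (c a) = nmG b c a :=
  (injective_c_sub h).extend_apply (fun a : nmA => nmG b c (a : E3)) 0 ⟨a, ha⟩

theorem measurable_nmU {b c : E3 → E3} (hb : Measurable b) (hc : Measurable c)
    (h : NMSheetProp b c) : Measurable (nmU b c) := by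
  unfold nmU
  refine Measurable.ite measurableSet_nmA measurable_nmPhi.ennreal_ofReal ?_
  refine Measurable.ite measurableSet_nmB1 measurable_nmUB.ennreal_ofReal ?_
  refine Measurable.ite (measurableSet_nmC1 hc h) (measurable_nmUC hb hc h).ennreal_ofReal ?_
  refine Measurable.ite measurableSet_nmB2 (measurable_nmUB.comp measurable_nmS).ennreal_ofReal ?_
  exact ((measurable_nmUC hb hc h).comp measurable_nmS).ennreal_ofReal

theorem disjoint_of_far {X Y : Set E3} {p q : E3} (hX : ∀ x ∈ X, dist x p ≤ 1 / 300)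
    (hY : ∀ y ∈ Y, dist y q ≤ 1 / 300) (hpq : 1 ≤ dist p q) : Disjoint X Y := by
  rw [Set.disjoint_left]
  intro x hx hy
  have h1 := hX x hx
  have h2 := hY x hy
  have h3 : dist p q ≤ dist p x + dist x q := dist_triangle p x q
  rw [dist_comm p x] at h3
  linarith

theorem rad_nmA : ∀ x ∈ nmA, dist x (0 : E3) ≤ 1 / 300 := by
  intro x hx
  have := mem_nmA.1 hx
  rw [dist_zero_right]
  unfold rhoA at this
  linarith

theorem rad_nmB1 : ∀ x ∈ nmB1, dist x nmB ≤ 1 / 300 := by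
  intro x hx
  have : dist x nmB ≤ 16 * rhoA := Metric.mem_closedBall.1 hx
  unfold rhoA at this
  linarith

theorem rad_nmC1 {b c : E3 → E3} (h : NMSheetProp b c) : ∀ x ∈ nmC1 c, dist x nmC ≤ 1 / 300 := by
  rintro x ⟨a, ha, rfl⟩
  have := (h.1 a (mem_nmA.1 ha)).2.1
  rw [dist_eq_norm]
  unfold rhoA at this
  linarith

theorem rad_nmB2 : ∀ x ∈ nmB2, dist x (nmS nmB) ≤ 1 / 300 := by
  intro x hx
  have := rad_nmB1 (nmS x) hx
  rwa [← dist_nmS, nmS_nmS]

theorem rad_nmC2 {b c : E3 → E3} (h : NMSheetProp b c) :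
    ∀ x ∈ nmC2 c, dist x (nmS nmC) ≤ 1 / 300 := by
  intro x hx
  have := rad_nmC1 h (nmS x) hx
  rwa [← dist_nmS, nmS_nmS]

theorem disj_A_B1 : Disjoint nmA nmB1 :=
  disjoint_of_far rad_nmA rad_nmB1 (by rw [dist_zero_nmB]; norm_num)

theorem disj_A_C1 {b c : E3 → E3} (h : NMSheetProp b c) : Disjoint nmA (nmC1 c) :=
  disjoint_of_far rad_nmA (rad_nmC1 h) (by rw [dist_zero_nmC]; norm_num)

theorem disj_A_B2 : Disjoint nmA nmB2 :=
  disjoint_of_far rad_nmA rad_nmB2 (by rw [dist_zero_nmS_nmB]; norm_num)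

theorem disj_A_C2 {b c : E3 → E3} (h : NMSheetProp b c) : Disjoint nmA (nmC2 c) :=
  disjoint_of_far rad_nmA (rad_nmC2 h) (by rw [dist_zero_nmS_nmC]; norm_num)

theorem disj_B1_C1 {b c : E3 → E3} (h : NMSheetProp b c) : Disjoint nmB1 (nmC1 c) :=
  disjoint_of_far rad_nmB1 (rad_nmC1 h) (by rw [dist_nmB_nmC]; norm_num)

theorem disj_B1_B2 : Disjoint nmB1 nmB2 :=
  disjoint_of_far rad_nmB1 rad_nmB2 dist_nmB_nmS_nmB.1

theorem disj_B1_C2 {b c : E3 → E3} (h : NMSheetProp b c) : Disjoint nmB1 (nmC2 c) :=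
  disjoint_of_far rad_nmB1 (rad_nmC2 h) dist_nmB_nmS_nmC.1

theorem disj_C1_B2 {b c : E3 → E3} (h : NMSheetProp b c) : Disjoint (nmC1 c) nmB2 :=
  disjoint_of_far (rad_nmC1 h) rad_nmB2 dist_nmC_nmS_nmB.1

theorem disj_C1_C2 {b c : E3 → E3} (h : NMSheetProp b c) : Disjoint (nmC1 c) (nmC2 c) :=
  disjoint_of_far (rad_nmC1 h) (rad_nmC2 h) dist_nmC_nmS_nmC.1

theorem disj_B2_C2 {b c : E3 → E3} (h : NMSheetProp b c) : Disjoint nmB2 (nmC2 c) :=
  disjoint_of_far rad_nmB2 (rad_nmC2 h) (by rw [dist_nmS_nmB_nmS_nmC]; norm_num)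

theorem nmU_A {b c : E3 → E3} {x : E3} (hx : x ∈ nmA) :
    nmU b c x = ENNReal.ofReal (nmPhi x) := by
  unfold nmU
  rw [if_pos hx]

theorem nmU_B1 {b c : E3 → E3} {x : E3} (hx : x ∈ nmB1) :
    nmU b c x = ENNReal.ofReal (nmUB x) := by
  unfold nmU
  rw [if_neg (Set.disjoint_right.1 disj_A_B1 hx), if_pos hx]

theorem nmU_C1 {b c : E3 → E3} (h : NMSheetProp b c) {x : E3} (hx : x ∈ nmC1 c) :
    nmU b c x = ENNReal.ofReal (nmUC b c x) := by
  unfold nmU
  rw [if_neg (Set.disjoint_right.1 (disj_A_C1 h) hx),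
    if_neg (Set.disjoint_right.1 (disj_B1_C1 h) hx), if_pos hx]

theorem nmU_B2 {b c : E3 → E3} (h : NMSheetProp b c) {x : E3} (hx : x ∈ nmB2) :
    nmU b c x = ENNReal.ofReal (nmUB (nmS x)) := by
  unfold nmU
  rw [if_neg (Set.disjoint_right.1 disj_A_B2 hx),
    if_neg (Set.disjoint_right.1 disj_B1_B2 hx),
    if_neg (Set.disjoint_right.1 (disj_C1_B2 h) hx), if_pos hx]

theorem nmU_C2 {b c : E3 → E3} (h : NMSheetProp b c) {x : E3} (hx : x ∈ nmC2 c) :
    nmU b c x = ENNReal.ofReal (nmUC b c (nmS x)) := by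
  unfold nmU
  rw [if_neg (Set.disjoint_right.1 (disj_A_C2 h) hx),
    if_neg (Set.disjoint_right.1 (disj_B1_C2 h) hx),
    if_neg (Set.disjoint_right.1 (disj_C1_C2 h) hx),
    if_neg (Set.disjoint_right.1 (disj_B2_C2 h) hx)]

theorem nmPhi_bounds {x : E3} (hx : x ∈ nmA) :
    3249 / 10000 ≤ nmPhi x ∧ nmPhi x ≤ 3251 / 10000 := by
  have hx' : ‖x - 0‖ ≤ rhoA := by rw [sub_zero]; exact mem_nmA.1 hx
  have := quadPot_bounds (w := 325 / 1000) norm_nmFa_le hx'
  unfold nmPhi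
  unfold rhoA at this
  constructor
  · refine le_trans ?_ this.1
    norm_num
  · refine le_trans this.2 ?_
    norm_num

theorem nmUB_bounds {x : E3} (hx : x ∈ nmB1) :
    999 / 10000 ≤ nmUB x ∧ nmUB x ≤ 1001 / 10000 := by
  have hx' : ‖x - nmB‖ ≤ 16 * rhoA := by
    rw [← dist_eq_norm]; exact Metric.mem_closedBall.1 hx
  have := quadPot_bounds (w := 1 / 10) norm_nmFb_le hx'
  unfold nmUB
  unfold rhoA at this
  constructor
  · refine le_trans ?_ this.1
    norm_num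
  · refine le_trans this.2 ?_
    norm_num

theorem norm_sub_near {x y p q : E3} {r s d : ℝ} (hx : ‖x - p‖ ≤ r) (hy : ‖y - q‖ ≤ s)
    (hd : ‖p - q‖ = d) : d - r - s ≤ ‖x - y‖ ∧ ‖x - y‖ ≤ d + r + s := by
  constructor
  · have e : p - q = (x - y) - (x - p) + (y - q) := by abel
    have h1 : ‖p - q‖ ≤ ‖x - y‖ + ‖x - p‖ + ‖y - q‖ := by
      rw [e]
      exact le_trans (norm_add_le _ _) (add_le_add_left (norm_sub_le _ _) _)
    linarith
  · have e : x - y = (x - p) + (p - q) - (y - q) := by abel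
    have h1 : ‖x - y‖ ≤ ‖x - p‖ + ‖p - q‖ + ‖y - q‖ := by
      rw [e]
      exact le_trans (norm_sub_le _ _) (add_le_add_left (norm_add_le _ _) _)
    linarith

theorem mapsTo_b {b c : E3 → E3} (h : NMSheetProp b c) : MapsTo b nmA nmB1 := by
  intro a ha
  have := (h.1 a (mem_nmA.1 ha)).1
  unfold nmB1
  rw [Metric.mem_closedBall, dist_eq_norm]
  exact this

theorem mapsTo_c {c : E3 → E3} : MapsTo c nmA (nmC1 c) := fun a ha => ⟨a, ha, rfl⟩

theorem nmG_bounds {b c : E3 → E3} (h : NMSheetProp b c) {a : E3} (ha : a ∈ nmA) :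
    0 ≤ nmG b c a ∧ nmG b c a ≤ 101 / 1000 := by
  have ha' := mem_nmA.1 ha
  obtain ⟨hb, hc, -⟩ := h.1 a ha'
  have ha0 : ‖a - 0‖ ≤ rhoA := by rw [sub_zero]; exact ha'
  have n0B : ‖(0 : E3) - nmB‖ = 5 := by rw [zero_sub, norm_neg, norm_nmB]
  have n0C : ‖(0 : E3) - nmC‖ = 5 := by rw [zero_sub, norm_neg, norm_nmC]
  have k1 := norm_sub_near ha0 hb n0B
  have k2 := norm_sub_near ha0 hc n0C
  have k3 := norm_sub_near hb hc norm_nmB_sub_nmC
  unfold rhoA at k1 k2 k3
  have cb := cost3_bounds (x := a) (y := b a) (z := c a) (by linarith [k1.1]) (by linarith [k1.2])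
    (by linarith [k2.1]) (by linarith [k2.2]) (by linarith [k3.1]) (by linarith [k3.2])
  have pb := nmPhi_bounds ha
  have ub := nmUB_bounds (mapsTo_b h ha)
  unfold nmG
  constructor <;> linarith [cb.1, cb.2, pb.1, pb.2, ub.1, ub.2]

theorem coulomb_eq_cost3 {x y z : E3} (hxy : x ≠ y) (hxz : x ≠ z) (hyz : y ≠ z) :
    coulomb x y z = ENNReal.ofReal (cost3 x y z) := by
  rw [coulomb_eq_ofReal hxy hxz hyz]
  unfold cost3
  rw [dist_eq_norm, dist_eq_norm, dist_eq_norm]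

theorem coulomb_nmS (x y z : E3) : coulomb (nmS x) (nmS y) (nmS z) = coulomb x y z := by
  unfold coulomb
  rw [dist_nmS, dist_nmS, dist_nmS]

theorem nmS_mem_nmA {a : E3} (ha : a ∈ nmA) : nmS a ∈ nmA := by
  rw [mem_nmA, norm_nmS]
  exact mem_nmA.1 ha

theorem nmPhi_nmS (x : E3) : nmPhi (nmS x) = nmPhi x := by
  unfold nmPhi quadPot
  rw [sub_zero, sub_zero, inner_nmFa_nmS, norm_nmS]

theorem nm_heq1 {b c : E3 → E3} (h : NMSheetProp b c) :
    ∀ a ∈ nmA, coulomb a (b a) (c a) = nmU b c a + nmU b c (b a) + nmU b c (c a) := by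
  intro a ha
  have hb := mapsTo_b h ha
  have hc : c a ∈ nmC1 c := mapsTo_c ha
  have pa := (nmPhi_bounds ha).1
  have pb := (nmUB_bounds hb).1
  have pg := (nmG_bounds h ha).1
  rw [nmU_A ha, nmU_B1 hb, nmU_C1 h hc, nmUC_apply h ha,
    coulomb_eq_cost3 (disj_A_B1.ne_of_mem ha hb) ((disj_A_C1 h).ne_of_mem ha hc)
      ((disj_B1_C1 h).ne_of_mem hb hc),
    ← ENNReal.ofReal_add (by linarith) (by linarith), ← ENNReal.ofReal_add (by linarith) pg]
  congr 1
  unfold nmG
  ring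

theorem nm_h1 {b c : E3 → E3} (h : NMSheetProp b c) :
    ∀ a ∈ nmA, ∀ b' ∈ nmB1, ∀ c' ∈ nmC1 c,
      nmU b c a + nmU b c b' + nmU b c c' ≤ coulomb a b' c' ∧
        (coulomb a b' c' ≤ nmU b c a + nmU b c b' + nmU b c c' → b' = b a ∧ c' = c a) := by
  intro a ha b' hb' c' hc'
  obtain ⟨a0, ha0, rfl⟩ := hc'
  have hc' : c a0 ∈ nmC1 c := mapsTo_c ha0
  obtain ⟨-, -, hab0, hac0, hbc0, e1, e2⟩ := h.1 a0 (mem_nmA.1 ha0)
  have nab := disj_A_B1.ne_of_mem ha hb'
  have nac := (disj_A_C1 h).ne_of_mem ha hc'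
  have nbc := (disj_B1_C1 h).ne_of_mem hb' hc'
  have gr := sheet_growth (Fa := nmFa) (Fb := nmFb) (b0 := nmB) (325 / 1000) (1 / 10)
    hab0 hac0 hbc0 nab nac nbc e1 e2
  have pa := (nmPhi_bounds ha).1
  have pb := (nmUB_bounds hb').1
  have pg := (nmG_bounds h ha0).1
  have sq1 : 0 ≤ ‖a - a0‖ ^ 2 := by positivity
  have sq2 : 0 ≤ ‖b' - b a0‖ ^ 2 := by positivity
  have gr' : nmG b c a0 + 4 * (‖a - a0‖ ^ 2 + ‖b' - b a0‖ ^ 2)
      ≤ cost3 a b' (c a0) - nmPhi a - nmUB b' := gr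
  rw [nmU_A ha, nmU_B1 hb', nmU_C1 h hc', nmUC_apply h ha0, coulomb_eq_cost3 nab nac nbc,
    ← ENNReal.ofReal_add (by linarith) (by linarith), ← ENNReal.ofReal_add (by linarith) pg]
  constructor
  · apply ENNReal.ofReal_le_ofReal
    linarith
  · intro hle
    rw [ENNReal.ofReal_le_ofReal_iff (by linarith)] at hle
    have z1 : ‖a - a0‖ ^ 2 = 0 := by linarith
    have z2 : ‖b' - b a0‖ ^ 2 = 0 := by linarith
    have ea : a = a0 := sub_eq_zero.1 (norm_eq_zero.1 ((pow_eq_zero_iff two_ne_zero).1 z1))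
    have eb : b' = b a0 := sub_eq_zero.1 (norm_eq_zero.1 ((pow_eq_zero_iff two_ne_zero).1 z2))
    rw [ea]
    exact ⟨eb, rfl⟩

theorem nm_h2 {b c : E3 → E3} (h : NMSheetProp b c) :
    ∀ a ∈ nmA, ∀ b' ∈ nmB2, ∀ c' ∈ nmC2 c,
      nmU b c a + nmU b c b' + nmU b c c' ≤ coulomb a b' c' := by
  intro a ha b' hb' c' hc'
  have hSa : nmS a ∈ nmA := nmS_mem_nmA ha
  have hb1 : nmS b' ∈ nmB1 := hb'
  have hc1 : nmS c' ∈ nmC1 c := hc'
  have := (nm_h1 h (nmS a) hSa (nmS b') hb1 (nmS c') hc1).1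
  rw [coulomb_nmS, nmU_A hSa, nmU_B1 hb1, nmU_C1 h hc1, nmPhi_nmS] at this
  rw [nmU_A ha, nmU_B2 h hb', nmU_C2 h hc']
  exact this

/-- the mirror image of a sheet map. -/
noncomputable def nmMir (f : E3 → E3) (x : E3) : E3 := nmS (f (nmS x))

theorem measurable_nmMir {f : E3 → E3} (hf : Measurable f) : Measurable (nmMir f) :=
  measurable_nmS.comp (hf.comp measurable_nmS)

theorem mapsTo_mir_b {b c : E3 → E3} (h : NMSheetProp b c) : MapsTo (nmMir b) nmA nmB2 := by
  intro a ha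
  have : nmS (nmMir b a) ∈ nmB1 := by
    unfold nmMir
    rw [nmS_nmS]
    exact mapsTo_b h (nmS_mem_nmA ha)
  exact this

theorem mapsTo_mir_c {c : E3 → E3} : MapsTo (nmMir c) nmA (nmC2 c) := by
  intro a ha
  have : nmS (nmMir c a) ∈ nmC1 c := by
    unfold nmMir
    rw [nmS_nmS]
    exact mapsTo_c (nmS_mem_nmA ha)
  exact this

theorem nm_heq2 {b c : E3 → E3} (h : NMSheetProp b c) :
    ∀ a ∈ nmA, coulomb a (nmMir b a) (nmMir c a)
      = nmU b c a + nmU b c (nmMir b a) + nmU b c (nmMir c a) := by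
  intro a ha
  have hSa : nmS a ∈ nmA := nmS_mem_nmA ha
  have h1 := nm_heq1 h (nmS a) hSa
  have hb2 : nmMir b a ∈ nmB2 := mapsTo_mir_b h ha
  have hc2 : nmMir c a ∈ nmC2 c := mapsTo_mir_c ha
  have e : coulomb a (nmMir b a) (nmMir c a) = coulomb (nmS a) (b (nmS a)) (c (nmS a)) := by
    rw [← coulomb_nmS a]
    unfold nmMir
    rw [nmS_nmS, nmS_nmS]
  rw [nmU_A ha, nmU_B2 h hb2, nmU_C2 h hc2, e, h1, nmU_A hSa, nmU_B1 (mapsTo_b h hSa),
    nmU_C1 h (mapsTo_c hSa), nmPhi_nmS]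
  unfold nmMir
  rw [nmS_nmS, nmS_nmS]

/-- normalised Lebesgue measure on the first block. -/
noncomputable def nmAlpha : Measure E3 := (volume nmA)⁻¹ • volume.restrict nmA

theorem vol_nmA_ne_zero : (volume : Measure E3) nmA ≠ 0 :=
  (Metric.measure_closedBall_pos volume 0 rhoA_pos).ne'

theorem vol_nmA_ne_top : (volume : Measure E3) nmA ≠ ⊤ := measure_closedBall_lt_top.ne

theorem isProb_nmAlpha : IsProbabilityMeasure nmAlpha := by
  constructor
  unfold nmAlpha
  rw [Measure.smul_apply, Measure.restrict_apply_univ, smul_eq_mul,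
    ENNReal.inv_mul_cancel vol_nmA_ne_zero vol_nmA_ne_top]

theorem nmAlpha_ac : nmAlpha ≪ volume := by
  refine Measure.AbsolutelyContinuous.mk fun s hs h0 => ?_
  unfold nmAlpha
  rw [Measure.smul_apply, Measure.restrict_apply hs]
  have : (volume : Measure E3) (s ∩ nmA) = 0 := measure_mono_null Set.inter_subset_left h0
  rw [this, smul_zero]

theorem nmAlpha_compl : nmAlpha nmAᶜ = 0 := by
  unfold nmAlpha
  rw [Measure.smul_apply, Measure.restrict_apply measurableSet_nmA.compl, Set.compl_inter_self,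
    measure_empty, smul_zero]

theorem fiveBlock_ac {α : Measure E3} {b₁ c₁ b₂ c₂ : E3 → E3} (h0 : α ≪ volume)
    (h1 : α.map b₁ ≪ volume) (h2 : α.map c₁ ≪ volume) (h3 : α.map b₂ ≪ volume)
    (h4 : α.map c₂ ≪ volume) : fiveBlock α b₁ c₁ b₂ c₂ ≪ volume := by
  refine Measure.AbsolutelyContinuous.mk fun s _ hs => ?_
  unfold fiveBlock
  simp [h0 hs, h1 hs, h2 hs, h3 hs, h4 hs]

theorem expand_mir {f : E3 → E3} {κ : ℝ}
    (hf : ∀ x ∈ nmA, ∀ y ∈ nmA, κ * ‖x - y‖ ≤ ‖f x - f y‖) :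
    ∀ x ∈ nmA, ∀ y ∈ nmA, κ * ‖x - y‖ ≤ ‖nmMir f x - nmMir f y‖ := by
  intro x hx y hy
  have := hf (nmS x) (nmS_mem_nmA hx) (nmS y) (nmS_mem_nmA hy)
  unfold nmMir
  rw [← dist_eq_norm, ← dist_eq_norm, dist_nmS] at this
  rw [← dist_eq_norm, ← dist_eq_norm, dist_nmS]
  exact this

/-- the main theorem: an absolutely continuous probability measure on three-space with finite
Coulomb cost and no optimal plan of Monge type. -/
theorem nm_main : ∃ μ : Measure E3, IsProbabilityMeasure μ ∧ μ ≪ volume ∧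
    kantorovich μ < ⊤ ∧ ¬ ∃ T₂ T₃ : E3 → E3, IsOptimalMonge μ T₂ T₃ := by
  obtain ⟨b, c, hb, hc, h⟩ := exists_nm_sheet
  have le1 : ENNReal.ofReal (101 / 1000) ≤ ENNReal.ofReal (326 / 1000) :=
    ENNReal.ofReal_le_ofReal (by norm_num)
  have uA : ∀ x ∈ nmA, nmU b c x ≤ ENNReal.ofReal (326 / 1000) := by
    intro x hx
    rw [nmU_A hx]
    exact ENNReal.ofReal_le_ofReal (by linarith [(nmPhi_bounds hx).2])
  have uB₁ : ∀ x ∈ nmB1, nmU b c x ≤ ENNReal.ofReal (101 / 1000) := by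
    intro x hx
    rw [nmU_B1 hx]
    exact ENNReal.ofReal_le_ofReal (by linarith [(nmUB_bounds hx).2])
  have uC₁ : ∀ x ∈ nmC1 c, nmU b c x ≤ ENNReal.ofReal (101 / 1000) := by
    intro x hx
    rw [nmU_C1 h hx]
    obtain ⟨a, ha, rfl⟩ := hx
    rw [nmUC_apply h ha]
    exact ENNReal.ofReal_le_ofReal (nmG_bounds h ha).2
  have uB₂ : ∀ x ∈ nmB2, nmU b c x ≤ ENNReal.ofReal (101 / 1000) := by
    intro x hx
    rw [nmU_B2 h hx]
    have hx1 : nmS x ∈ nmB1 := hx
    exact ENNReal.ofReal_le_ofReal (by linarith [(nmUB_bounds hx1).2])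
  have uC₂ : ∀ x ∈ nmC2 c, nmU b c x ≤ ENNReal.ofReal (101 / 1000) := by
    intro x hx
    rw [nmU_C2 h hx]
    have hx1 : nmS x ∈ nmC1 c := hx
    obtain ⟨a, ha, hax⟩ := hx1
    rw [← hax, nmUC_apply h ha]
    exact ENNReal.ofReal_le_ofReal (nmG_bounds h ha).2
  have tables := cases_of_tables nmA nmB1 (nmC1 c) nmB2 (nmC2 c) 0 nmB nmC (nmS nmB) (nmS nmC)
    rad_nmA rad_nmB1 (rad_nmC1 h) rad_nmB2 (rad_nmC2 h)
    dist_zero_nmB.le dist_zero_nmC.le dist_zero_nmS_nmB.le dist_zero_nmS_nmC.le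
    dist_nmB_nmC.le dist_nmS_nmB_nmS_nmC.le
    dist_nmB_nmS_nmB.2 dist_nmB_nmS_nmC.2 dist_nmC_nmS_nmB.2 dist_nmC_nmS_nmC.2
    (nmU b c) uA uB₁ uC₁ uB₂ uC₂ b c (nm_h1 h) (nm_h2 h)
  have hUM : ∀ x ∈ nmA ∪ nmB1 ∪ nmC1 c ∪ nmB2 ∪ nmC2 c,
      nmU b c x ≤ ENNReal.ofReal (326 / 1000) := by
    intro x hx
    rcases hx with (((hx | hx) | hx) | hx) | hx
    · exact uA x hx
    · exact (uB₁ x hx).trans le1
    · exact (uC₁ x hx).trans le1
    · exact (uB₂ x hx).trans le1
    · exact (uC₂ x hx).trans le1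
  have _inst := isProb_nmAlpha
  have main := no_monge_of_two_sheets nmA nmB1 (nmC1 c) nmB2 (nmC2 c)
    measurableSet_nmA measurableSet_nmB1 (measurableSet_nmC1 hc h) measurableSet_nmB2
    (measurableSet_nmC2 hc h)
    disj_A_B1 (disj_A_C1 h) disj_A_B2 (disj_A_C2 h) (disj_B1_C1 h) disj_B1_B2 (disj_B1_C2 h)
    (disj_C1_B2 h) (disj_C1_C2 h) (disj_B2_C2 h)
    nmAlpha nmAlpha_compl b c (nmMir b) (nmMir c) hb hc (measurable_nmMir hb)
    (measurable_nmMir hc) (mapsTo_b h) mapsTo_c (mapsTo_mir_b h) mapsTo_mir_c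
    (injOn_b h) (injOn_c h) (nmU b c) (measurable_nmU hb hc h) (ENNReal.ofReal (326 / 1000))
    ENNReal.ofReal_ne_top hUM (nm_heq1 h) (nm_heq2 h) tables.1 tables.2
  have eb : ∀ x ∈ nmA, ∀ y ∈ nmA, 1 / 100 * ‖x - y‖ ≤ ‖b x - b y‖ :=
    fun x hx y hy => (h.2 x y (mem_nmA.1 hx) (mem_nmA.1 hy)).2.2.1
  have ec : ∀ x ∈ nmA, ∀ y ∈ nmA, 100 * ‖x - y‖ ≤ ‖c x - c y‖ :=
    fun x hx y hy => (h.2 x y (mem_nmA.1 hx) (mem_nmA.1 hy)).2.2.2
  have ac : fiveBlock nmAlpha b c (nmMir b) (nmMir c) ≪ volume :=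
    fiveBlock_ac nmAlpha_ac
      (map_absolutelyContinuous_of_expanding measurableSet_nmA hb (by norm_num) eb nmAlpha_ac
        nmAlpha_compl)
      (map_absolutelyContinuous_of_expanding measurableSet_nmA hc (by norm_num) ec nmAlpha_ac
        nmAlpha_compl)
      (map_absolutelyContinuous_of_expanding measurableSet_nmA (measurable_nmMir hb)
        (by norm_num) (expand_mir eb) nmAlpha_ac nmAlpha_compl)
      (map_absolutelyContinuous_of_expanding measurableSet_nmA (measurable_nmMir hc)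
        (by norm_num) (expand_mir ec) nmAlpha_ac nmAlpha_compl)
  exact ⟨fiveBlock nmAlpha b c (nmMir b) (nmMir c), main.1, ac, main.2.1, main.2.2⟩

end Vale.Agent.Lib.P121
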