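import Vale.Agent.Lib.P121.NMField

/-!
# P121: the implicit sheet maps

For base points `b0, c0` with `|b0| = |c0| = 5`, `|b0 - c0| = 8` (the apex is the origin) and the
concavity parameter `10`, every `a` in the small ball of radius `rhoA` has partners `b a`, `c a`
solving the two first-order contact equations.  The partner maps are Lipschitz and expanding.
-/

namespace Vale.Agent.Lib.P121

open scoped RealInnerProductSpace

/-- radius of the first block. -/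
noncomputable def rhoA : ℝ := 1 / 1000000

theorem rhoA_pos : (0 : ℝ) < rhoA := by unfold rhoA; norm_num

section

variable {V : Type*} [NormedAddCommGroup V] [InnerProductSpace ℝ V]

theorem efield_lip4 {d d' : V} (hd : 4 ≤ ‖d‖) (hd' : 4 ≤ ‖d'‖) :
    ‖efield d - efield d'‖ ≤ 1 / 16 * ‖d - d'‖ := by
  have h := efield_lipschitz (m := 4) (by norm_num) hd hd'
  norm_num at h ⊢
  linarith

theorem efield_anti46 {d d' : V} (hd : 4 ≤ ‖d‖) (hdM : ‖d‖ ≤ 6) (hd' : 4 ≤ ‖d'‖)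
    (hd'M : ‖d'‖ ≤ 6) : ‖d - d'‖ ≤ 216 * ‖efield d - efield d'‖ := by
  have h := efield_antilipschitz (m := 4) (M := 6) (by norm_num) hd hdM hd' hd'M
  have e : min (2 * (4 : ℝ) / 6 ^ 4) (1 / 6 ^ 3) = 1 / 216 := by
    rw [min_eq_right (by norm_num)]; norm_num
  rw [e] at h
  linarith

theorem efield_anti79 {d d' : V} (hd : 7 ≤ ‖d‖) (hdM : ‖d‖ ≤ 9) (hd' : 7 ≤ ‖d'‖)
    (hd'M : ‖d'‖ ≤ 9) : ‖d - d'‖ ≤ 729 * ‖efield d - efield d'‖ := by
  have h := efield_antilipschitz (m := 7) (M := 9) (by norm_num) hd hdM hd' hd'M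
  have e : min (2 * (7 : ℝ) / 9 ^ 4) (1 / 9 ^ 3) = 1 / 729 := by
    rw [min_eq_right (by norm_num)]; norm_num
  rw [e] at h
  linarith

variable (b0 c0 : V)

/-- the field value that `c - a` has to produce. -/
noncomputable def sheetV (a b : V) : V := (efield b0 + efield c0) - (10 : ℝ) • a + efield (a - b)

/-- the third point as a function of the first two. -/
noncomputable def sheetC (a b : V) : V := a + efieldInv (sheetV b0 c0 a b)

/-- the fixed-point map for the second point. -/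
noncomputable def sheetPsi (a b : V) : V :=
  b0 + (10 : ℝ)⁻¹ • ((-efield b0 - efield (b0 - c0)) + efield (b - a)
    + efield (b - sheetC b0 c0 a b))

variable {b0 c0}

theorem sheet_region (hb0 : ‖b0‖ = 5) (hc0 : ‖c0‖ = 5) (hbc : ‖b0 - c0‖ = 8) {a b : V}
    (ha : ‖a‖ ≤ rhoA) (hb : ‖b - b0‖ ≤ 16 * rhoA) :
    4 ≤ ‖a - b‖ ∧ ‖a - b‖ ≤ 6 ∧
    ‖sheetV b0 c0 a b - efield c0‖ ≤ 177 / 16 * rhoA ∧
    sheetV b0 c0 a b ≠ 0 ∧
    4 ≤ ‖efieldInv (sheetV b0 c0 a b)‖ ∧ ‖efieldInv (sheetV b0 c0 a b)‖ ≤ 6 ∧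
    ‖sheetC b0 c0 a b - c0‖ ≤ 2400 * rhoA ∧
    7 ≤ ‖b - sheetC b0 c0 a b‖ ∧ ‖b - sheetC b0 c0 a b‖ ≤ 9 := by
  have hρ0 : (0 : ℝ) < rhoA := rhoA_pos
  have hρ1 : rhoA ≤ 1 / 1000000 := le_of_eq rfl
  -- distances between a and b
  have e1 : a - b = a - (b - b0) - b0 := by abel
  have h1 : ‖a - b‖ ≤ ‖a‖ + ‖b - b0‖ + ‖b0‖ := by
    rw [e1]; exact (norm_sub_le _ _).trans (by gcongr; exact norm_sub_le _ _)
  have h2 : ‖b0‖ ≤ ‖a - b‖ + ‖a‖ + ‖b - b0‖ := by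
    have e3 : b0 = -(a - b) + a - (b - b0) := by abel
    calc ‖b0‖ = ‖-(a - b) + a - (b - b0)‖ := by rw [← e3]
      _ ≤ ‖-(a - b) + a‖ + ‖b - b0‖ := norm_sub_le _ _
      _ ≤ ‖-(a - b)‖ + ‖a‖ + ‖b - b0‖ := by gcongr; exact norm_add_le _ _
      _ = ‖a - b‖ + ‖a‖ + ‖b - b0‖ := by rw [norm_neg]
  have hab4 : 4 ≤ ‖a - b‖ := by rw [hb0] at h2; linarith
  have hab6 : ‖a - b‖ ≤ 6 := by rw [hb0] at h1; linarith
  -- the field value
  have e4 : sheetV b0 c0 a b - efield c0 = -((10 : ℝ) • a) + (efield (a - b) - efield (-b0)) := by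
    rw [sheetV, efield_neg]; abel
  have h5 : ‖efield (a - b) - efield (-b0)‖ ≤ 1 / 16 * ‖(a - b) - (-b0)‖ :=
    efield_lip4 hab4 (by rw [norm_neg, hb0]; norm_num)
  have e6 : (a - b) - (-b0) = a - (b - b0) := by abel
  have h6 : ‖(a - b) - (-b0)‖ ≤ ‖a‖ + ‖b - b0‖ := by rw [e6]; exact norm_sub_le _ _
  have h7 : ‖(10 : ℝ) • a‖ = 10 * ‖a‖ := by rw [norm_smul]; norm_num
  have hV : ‖sheetV b0 c0 a b - efield c0‖ ≤ 177 / 16 * rhoA := by
    rw [e4]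
    calc ‖-((10 : ℝ) • a) + (efield (a - b) - efield (-b0))‖
        ≤ ‖-((10 : ℝ) • a)‖ + ‖efield (a - b) - efield (-b0)‖ := norm_add_le _ _
      _ = 10 * ‖a‖ + ‖efield (a - b) - efield (-b0)‖ := by rw [norm_neg, h7]
      _ ≤ 177 / 16 * rhoA := by linarith
  -- size of the field value
  have hE : ‖efield c0‖ = 1 / 25 := by rw [norm_efield, hc0]; norm_num
  have h8 : ‖sheetV b0 c0 a b‖ ≤ ‖efield c0‖ + ‖sheetV b0 c0 a b - efield c0‖ := by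
    have e : sheetV b0 c0 a b = efield c0 + (sheetV b0 c0 a b - efield c0) := by abel
    calc ‖sheetV b0 c0 a b‖ = ‖efield c0 + (sheetV b0 c0 a b - efield c0)‖ := by rw [← e]
      _ ≤ _ := norm_add_le _ _
  have h9 : ‖efield c0‖ ≤ ‖sheetV b0 c0 a b‖ + ‖sheetV b0 c0 a b - efield c0‖ := by
    have e : efield c0 = sheetV b0 c0 a b - (sheetV b0 c0 a b - efield c0) := by abel
    calc ‖efield c0‖ = ‖sheetV b0 c0 a b - (sheetV b0 c0 a b - efield c0)‖ := by rw [← e]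
      _ ≤ _ := norm_sub_le _ _
  have hVlo : 1 / 36 ≤ ‖sheetV b0 c0 a b‖ := by rw [hE] at h9; linarith
  have hVhi : ‖sheetV b0 c0 a b‖ ≤ 1 / 16 := by rw [hE] at h8; linarith
  have hVne : sheetV b0 c0 a b ≠ 0 := by
    intro h; rw [h, norm_zero] at hVlo; norm_num at hVlo
  have hs1 : 1 / 6 ≤ Real.sqrt ‖sheetV b0 c0 a b‖ := by
    apply Real.le_sqrt_of_sq_le; norm_num; linarith
  have hs2 : Real.sqrt ‖sheetV b0 c0 a b‖ ≤ 1 / 4 := by
    rw [Real.sqrt_le_left (by norm_num)]; norm_num; linarith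
  have hs0 : 0 < Real.sqrt ‖sheetV b0 c0 a b‖ := by linarith
  have hI4 : 4 ≤ ‖efieldInv (sheetV b0 c0 a b)‖ := by
    rw [norm_efieldInv, le_inv_comm₀ (by norm_num) hs0]; linarith
  have hI6 : ‖efieldInv (sheetV b0 c0 a b)‖ ≤ 6 := by
    rw [norm_efieldInv, inv_le_comm₀ hs0 (by norm_num)]; linarith
  -- the third point
  have h10 : ‖efieldInv (sheetV b0 c0 a b) - c0‖ ≤ 216 * ‖sheetV b0 c0 a b - efield c0‖ := by
    have := efield_anti46 hI4 hI6 (d' := c0) (by rw [hc0]; norm_num) (by rw [hc0]; norm_num)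
    rwa [efield_efieldInv hVne] at this
  have e11 : sheetC b0 c0 a b - c0 = a + (efieldInv (sheetV b0 c0 a b) - c0) := by
    rw [sheetC]; abel
  have hC : ‖sheetC b0 c0 a b - c0‖ ≤ 2400 * rhoA := by
    rw [e11]
    calc ‖a + (efieldInv (sheetV b0 c0 a b) - c0)‖
        ≤ ‖a‖ + ‖efieldInv (sheetV b0 c0 a b) - c0‖ := norm_add_le _ _
      _ ≤ 2400 * rhoA := by linarith
  have e12 : b - sheetC b0 c0 a b = (b0 - c0) + ((b - b0) - (sheetC b0 c0 a b - c0)) := by abel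
  have h12 : ‖(b - b0) - (sheetC b0 c0 a b - c0)‖ ≤ ‖b - b0‖ + ‖sheetC b0 c0 a b - c0‖ :=
    norm_sub_le _ _
  have hbc9 : ‖b - sheetC b0 c0 a b‖ ≤ 9 := by
    rw [e12]
    calc ‖(b0 - c0) + ((b - b0) - (sheetC b0 c0 a b - c0))‖
        ≤ ‖b0 - c0‖ + ‖(b - b0) - (sheetC b0 c0 a b - c0)‖ := norm_add_le _ _
      _ ≤ 9 := by rw [hbc]; linarith
  have hbc7 : 7 ≤ ‖b - sheetC b0 c0 a b‖ := by
    have e13 : b0 - c0 = (b - sheetC b0 c0 a b) - ((b - b0) - (sheetC b0 c0 a b - c0)) := by abel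
    have : ‖b0 - c0‖ ≤ ‖b - sheetC b0 c0 a b‖ + ‖(b - b0) - (sheetC b0 c0 a b - c0)‖ := by
      calc ‖b0 - c0‖ = ‖(b - sheetC b0 c0 a b) - ((b - b0) - (sheetC b0 c0 a b - c0))‖ := by
            rw [← e13]
        _ ≤ _ := norm_sub_le _ _
    rw [hbc] at this; linarith
  exact ⟨hab4, hab6, hV, hVne, hI4, hI6, hC, hbc7, hbc9⟩

theorem sheetPsi_sub (a b : V) :
    sheetPsi b0 c0 a b - b0 = (10 : ℝ)⁻¹ • ((efield (b - a) - efield b0)
      + (efield (b - sheetC b0 c0 a b) - efield (b0 - c0))) := by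
  rw [sheetPsi, add_sub_cancel_left]
  congr 1
  abel

theorem sheetPsi_mapsTo (hb0 : ‖b0‖ = 5) (hc0 : ‖c0‖ = 5) (hbc : ‖b0 - c0‖ = 8) {a b : V}
    (ha : ‖a‖ ≤ rhoA) (hb : ‖b - b0‖ ≤ 16 * rhoA) :
    ‖sheetPsi b0 c0 a b - b0‖ ≤ 16 * rhoA := by
  obtain ⟨hab4, -, -, -, -, -, hC, hbc7, -⟩ := sheet_region hb0 hc0 hbc ha hb
  have hρ0 : (0 : ℝ) < rhoA := rhoA_pos
  have h1 : ‖efield (b - a) - efield b0‖ ≤ 1 / 16 * ‖(b - a) - b0‖ :=
    efield_lip4 (by rw [norm_sub_rev]; exact hab4) (by rw [hb0]; norm_num)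
  have h2 : ‖(b - a) - b0‖ ≤ ‖b - b0‖ + ‖a‖ := by
    have e : (b - a) - b0 = (b - b0) - a := by abel
    rw [e]; exact norm_sub_le _ _
  have h3 : ‖efield (b - sheetC b0 c0 a b) - efield (b0 - c0)‖
      ≤ 1 / 16 * ‖(b - sheetC b0 c0 a b) - (b0 - c0)‖ :=
    efield_lip4 (by linarith) (by rw [hbc]; norm_num)
  have h4 : ‖(b - sheetC b0 c0 a b) - (b0 - c0)‖ ≤ ‖b - b0‖ + ‖sheetC b0 c0 a b - c0‖ := by
    have e : (b - sheetC b0 c0 a b) - (b0 - c0) = (b - b0) - (sheetC b0 c0 a b - c0) := by abel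
    rw [e]; exact norm_sub_le _ _
  rw [sheetPsi_sub, norm_smul]
  have h5 : ‖(10 : ℝ)⁻¹‖ = 1 / 10 := by rw [Real.norm_eq_abs]; norm_num [abs_of_pos]
  rw [h5]
  have h6 := norm_add_le (efield (b - a) - efield b0)
    (efield (b - sheetC b0 c0 a b) - efield (b0 - c0))
  nlinarith

theorem sheetC_sub_le (hb0 : ‖b0‖ = 5) (hc0 : ‖c0‖ = 5) (hbc : ‖b0 - c0‖ = 8) {a a' b b' : V}
    (ha : ‖a‖ ≤ rhoA) (hb : ‖b - b0‖ ≤ 16 * rhoA) (ha' : ‖a'‖ ≤ rhoA)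
    (hb' : ‖b' - b0‖ ≤ 16 * rhoA) :
    ‖(sheetC b0 c0 a b - a) - (sheetC b0 c0 a' b' - a')‖
      ≤ 216 * (10 * ‖a - a'‖ + 1 / 16 * (‖a - a'‖ + ‖b - b'‖)) := by
  obtain ⟨hab4, -, -, hVne, hI4, hI6, -, -, -⟩ := sheet_region hb0 hc0 hbc ha hb
  obtain ⟨hab4', -, -, hVne', hI4', hI6', -, -, -⟩ := sheet_region hb0 hc0 hbc ha' hb'
  have e1 : (sheetC b0 c0 a b - a) - (sheetC b0 c0 a' b' - a')
      = efieldInv (sheetV b0 c0 a b) - efieldInv (sheetV b0 c0 a' b') := by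
    rw [sheetC, sheetC]; abel
  have h1 := efield_anti46 hI4 hI6 hI4' hI6'
  rw [efield_efieldInv hVne, efield_efieldInv hVne'] at h1
  have e2 : sheetV b0 c0 a b - sheetV b0 c0 a' b'
      = -((10 : ℝ) • (a - a')) + (efield (a - b) - efield (a' - b')) := by
    rw [sheetV, sheetV, smul_sub]; abel
  have h2 : ‖efield (a - b) - efield (a' - b')‖ ≤ 1 / 16 * ‖(a - b) - (a' - b')‖ :=
    efield_lip4 hab4 hab4'
  have h3 : ‖(a - b) - (a' - b')‖ ≤ ‖a - a'‖ + ‖b - b'‖ := by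
    have e : (a - b) - (a' - b') = (a - a') - (b - b') := by abel
    rw [e]; exact norm_sub_le _ _
  have h4 : ‖(10 : ℝ) • (a - a')‖ = 10 * ‖a - a'‖ := by rw [norm_smul]; norm_num
  have h5 : ‖sheetV b0 c0 a b - sheetV b0 c0 a' b'‖
      ≤ 10 * ‖a - a'‖ + 1 / 16 * (‖a - a'‖ + ‖b - b'‖) := by
    rw [e2]
    calc ‖-((10 : ℝ) • (a - a')) + (efield (a - b) - efield (a' - b'))‖
        ≤ ‖-((10 : ℝ) • (a - a'))‖ + ‖efield (a - b) - efield (a' - b')‖ := norm_add_le _ _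
      _ = 10 * ‖a - a'‖ + ‖efield (a - b) - efield (a' - b')‖ := by rw [norm_neg, h4]
      _ ≤ _ := by linarith
  rw [e1]
  linarith

theorem sheetPsi_contract (hb0 : ‖b0‖ = 5) (hc0 : ‖c0‖ = 5) (hbc : ‖b0 - c0‖ = 8) {a b b' : V}
    (ha : ‖a‖ ≤ rhoA) (hb : ‖b - b0‖ ≤ 16 * rhoA) (hb' : ‖b' - b0‖ ≤ 16 * rhoA) :
    ‖sheetPsi b0 c0 a b - sheetPsi b0 c0 a b'‖ ≤ 1 / 10 * ‖b - b'‖ := by
  obtain ⟨hab4, -, -, -, -, -, -, hbc7, -⟩ := sheet_region hb0 hc0 hbc ha hb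
  obtain ⟨hab4', -, -, -, -, -, -, hbc7', -⟩ := sheet_region hb0 hc0 hbc ha hb'
  have hC := sheetC_sub_le hb0 hc0 hbc ha hb ha hb'
  rw [sub_self, norm_zero] at hC
  have e0 : (sheetC b0 c0 a b - a) - (sheetC b0 c0 a b' - a)
      = sheetC b0 c0 a b - sheetC b0 c0 a b' := by abel
  rw [e0] at hC
  have e1 : sheetPsi b0 c0 a b - sheetPsi b0 c0 a b'
      = (10 : ℝ)⁻¹ • ((efield (b - a) - efield (b' - a))
        + (efield (b - sheetC b0 c0 a b) - efield (b' - sheetC b0 c0 a b'))) := by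
    rw [sheetPsi, sheetPsi, add_sub_add_left_eq_sub, ← smul_sub]
    congr 1
    abel
  have h1 : ‖efield (b - a) - efield (b' - a)‖ ≤ 1 / 16 * ‖(b - a) - (b' - a)‖ :=
    efield_lip4 (by rw [norm_sub_rev]; exact hab4) (by rw [norm_sub_rev]; exact hab4')
  have e2 : (b - a) - (b' - a) = b - b' := by abel
  rw [e2] at h1
  have h3 : ‖efield (b - sheetC b0 c0 a b) - efield (b' - sheetC b0 c0 a b')‖
      ≤ 1 / 16 * ‖(b - sheetC b0 c0 a b) - (b' - sheetC b0 c0 a b')‖ :=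
    efield_lip4 (by linarith) (by linarith)
  have h4 : ‖(b - sheetC b0 c0 a b) - (b' - sheetC b0 c0 a b')‖
      ≤ ‖b - b'‖ + ‖sheetC b0 c0 a b - sheetC b0 c0 a b'‖ := by
    have e : (b - sheetC b0 c0 a b) - (b' - sheetC b0 c0 a b')
        = (b - b') - (sheetC b0 c0 a b - sheetC b0 c0 a b') := by abel
    rw [e]; exact norm_sub_le _ _
  rw [e1, norm_smul]
  have h5 : ‖(10 : ℝ)⁻¹‖ = 1 / 10 := by rw [Real.norm_eq_abs]; norm_num [abs_of_pos]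
  rw [h5]
  have h6 := norm_add_le (efield (b - a) - efield (b' - a))
    (efield (b - sheetC b0 c0 a b) - efield (b' - sheetC b0 c0 a b'))
  have h7 := norm_nonneg (b - b')
  nlinarith

theorem sheet_eqs (hb0 : ‖b0‖ = 5) (hc0 : ‖c0‖ = 5) (hbc : ‖b0 - c0‖ = 8) {a b : V}
    (ha : ‖a‖ ≤ rhoA) (hb : ‖b - b0‖ ≤ 16 * rhoA) (hfix : sheetPsi b0 c0 a b = b) :
    (10 : ℝ) • a = (efield b0 + efield c0) + efield (a - b) + efield (a - sheetC b0 c0 a b) ∧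
    (10 : ℝ) • (b - b0) = (-efield b0 - efield (b0 - c0)) + efield (b - a)
      + efield (b - sheetC b0 c0 a b) := by
  obtain ⟨-, -, -, hVne, -, -, -, -, -⟩ := sheet_region hb0 hc0 hbc ha hb
  constructor
  · have e1 : a - sheetC b0 c0 a b = -efieldInv (sheetV b0 c0 a b) := by rw [sheetC]; abel
    rw [e1, efield_neg, efield_efieldInv hVne, sheetV]
    abel
  · have e2 : b - b0 = (10 : ℝ)⁻¹ • ((-efield b0 - efield (b0 - c0)) + efield (b - a)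
        + efield (b - sheetC b0 c0 a b)) := by
      conv_lhs => rw [← hfix]
      rw [sheetPsi, add_sub_cancel_left]
    rw [e2, smul_smul]
    norm_num

theorem exists_sheet_point [CompleteSpace V] (hb0 : ‖b0‖ = 5) (hc0 : ‖c0‖ = 5)
    (hbc : ‖b0 - c0‖ = 8) {a : V} (ha : ‖a‖ ≤ rhoA) :
    ∃ b : V, ‖b - b0‖ ≤ 16 * rhoA ∧ sheetPsi b0 c0 a b = b := by
  have hmaps : Set.MapsTo (sheetPsi b0 c0 a) (Metric.closedBall b0 (16 * rhoA))
      (Metric.closedBall b0 (16 * rhoA)) := by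
    intro b hb
    rw [Metric.mem_closedBall, dist_eq_norm] at hb ⊢
    exact sheetPsi_mapsTo hb0 hc0 hbc ha hb
  have hcontr : ContractingWith (1 / 10 : NNReal)
      (hmaps.restrict (sheetPsi b0 c0 a) _ _) := by
    refine ⟨by norm_num, LipschitzWith.of_dist_le_mul ?_⟩
    rintro ⟨b, hb⟩ ⟨b', hb'⟩
    rw [Metric.mem_closedBall, dist_eq_norm] at hb hb'
    rw [Subtype.dist_eq, Subtype.dist_eq, dist_eq_norm, dist_eq_norm]
    have h := sheetPsi_contract hb0 hc0 hbc ha hb hb'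
    simpa using h
  have hmem : b0 ∈ Metric.closedBall b0 (16 * rhoA) := by
    rw [Metric.mem_closedBall, dist_self]
    have := rhoA_pos
    positivity
  obtain ⟨b, hb, hfix, -⟩ := hcontr.exists_fixedPoint' Metric.isClosed_closedBall.isComplete
    hmaps hmem (edist_ne_top _ _)
  rw [Metric.mem_closedBall, dist_eq_norm] at hb
  exact ⟨b, hb, hfix⟩

theorem sheet_two_point (hb0 : ‖b0‖ = 5) (hc0 : ‖c0‖ = 5) (hbc : ‖b0 - c0‖ = 8)
    {a a' b b' : V} (ha : ‖a‖ ≤ rhoA) (hb : ‖b - b0‖ ≤ 16 * rhoA) (ha' : ‖a'‖ ≤ rhoA)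
    (hb' : ‖b' - b0‖ ≤ 16 * rhoA) (hfix : sheetPsi b0 c0 a b = b)
    (hfix' : sheetPsi b0 c0 a' b' = b') :
    ‖b - b'‖ ≤ 16 * ‖a - a'‖ ∧
    ‖sheetC b0 c0 a b - sheetC b0 c0 a' b'‖ ≤ 3000 * ‖a - a'‖ ∧
    1 / 100 * ‖a - a'‖ ≤ ‖b - b'‖ ∧
    100 * ‖a - a'‖ ≤ ‖sheetC b0 c0 a b - sheetC b0 c0 a' b'‖ := by
  obtain ⟨hab4, -, -, -, hI4, -, -, hbc7, hbc9⟩ := sheet_region hb0 hc0 hbc ha hb
  obtain ⟨hab4', -, -, -, hI4', -, -, hbc7', hbc9'⟩ := sheet_region hb0 hc0 hbc ha' hb'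
  obtain ⟨eq1, eq2⟩ := sheet_eqs hb0 hc0 hbc ha hb hfix
  obtain ⟨eq1', eq2'⟩ := sheet_eqs hb0 hc0 hbc ha' hb' hfix'
  set c := sheetC b0 c0 a b with hc
  set c' := sheetC b0 c0 a' b' with hc'
  have hx := norm_nonneg (a - a')
  have hy := norm_nonneg (b - b')
  have hz := norm_nonneg (c - c')
  -- H1
  have H1a := sheetC_sub_le hb0 hc0 hbc ha hb ha' hb'
  have H1 : ‖c - c'‖ ≤ ‖a - a'‖ + 216 * (10 * ‖a - a'‖ + 1 / 16 * (‖a - a'‖ + ‖b - b'‖)) := by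
    have e : c - c' = (a - a') + ((c - a) - (c' - a')) := by abel
    calc ‖c - c'‖ = ‖(a - a') + ((c - a) - (c' - a'))‖ := by rw [← e]
      _ ≤ ‖a - a'‖ + ‖(c - a) - (c' - a')‖ := norm_add_le _ _
      _ ≤ _ := by linarith
  -- norms of differences of differences
  have n1 : ‖(a - b) - (a' - b')‖ ≤ ‖a - a'‖ + ‖b - b'‖ := by
    have e : (a - b) - (a' - b') = (a - a') - (b - b') := by abel
    rw [e]; exact norm_sub_le _ _
  have n2 : ‖(a - c) - (a' - c')‖ ≤ ‖a - a'‖ + ‖c - c'‖ := by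
    have e : (a - c) - (a' - c') = (a - a') - (c - c') := by abel
    rw [e]; exact norm_sub_le _ _
  have n3 : ‖(b - a) - (b' - a')‖ ≤ ‖b - b'‖ + ‖a - a'‖ := by
    have e : (b - a) - (b' - a') = (b - b') - (a - a') := by abel
    rw [e]; exact norm_sub_le _ _
  have n4 : ‖(b - c) - (b' - c')‖ ≤ ‖b - b'‖ + ‖c - c'‖ := by
    have e : (b - c) - (b' - c') = (b - b') - (c - c') := by abel
    rw [e]; exact norm_sub_le _ _
  have n5 : ‖c - c'‖ ≤ ‖(b - c) - (b' - c')‖ + ‖b - b'‖ := by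
    have e : c - c' = (b - b') - ((b - c) - (b' - c')) := by abel
    calc ‖c - c'‖ = ‖(b - b') - ((b - c) - (b' - c'))‖ := by rw [← e]
      _ ≤ ‖b - b'‖ + ‖(b - c) - (b' - c')‖ := norm_sub_le _ _
      _ = _ := add_comm _ _
  have hac4 : 4 ≤ ‖a - c‖ := by
    have e : a - c = -efieldInv (sheetV b0 c0 a b) := by rw [hc, sheetC]; abel
    rw [e, norm_neg]; exact hI4
  have hac4' : 4 ≤ ‖a' - c'‖ := by
    have e : a' - c' = -efieldInv (sheetV b0 c0 a' b') := by rw [hc', sheetC]; abel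
    rw [e, norm_neg]; exact hI4'
  -- field differences
  have f1 : ‖efield (a - b) - efield (a' - b')‖ ≤ 1 / 16 * ‖(a - b) - (a' - b')‖ :=
    efield_lip4 hab4 hab4'
  have f2 : ‖efield (a - c) - efield (a' - c')‖ ≤ 1 / 16 * ‖(a - c) - (a' - c')‖ :=
    efield_lip4 hac4 hac4'
  have f3 : ‖efield (b - a) - efield (b' - a')‖ ≤ 1 / 16 * ‖(b - a) - (b' - a')‖ :=
    efield_lip4 (by rw [norm_sub_rev]; exact hab4) (by rw [norm_sub_rev]; exact hab4')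
  have f4 : ‖efield (b - c) - efield (b' - c')‖ ≤ 1 / 16 * ‖(b - c) - (b' - c')‖ :=
    efield_lip4 (by linarith) (by linarith)
  have f5 : ‖(b - c) - (b' - c')‖ ≤ 729 * ‖efield (b - c) - efield (b' - c')‖ :=
    efield_anti79 hbc7 hbc9 hbc7' hbc9'
  -- differences of the two equations
  have d1 : (10 : ℝ) • (a - a') = (efield (a - b) - efield (a' - b'))
      + (efield (a - c) - efield (a' - c')) := by
    rw [smul_sub, eq1, eq1']; abel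
  have d2 : (10 : ℝ) • (b - b') = (efield (b - a) - efield (b' - a'))
      + (efield (b - c) - efield (b' - c')) := by
    have e : b - b' = (b - b0) - (b' - b0) := by abel
    rw [e, smul_sub, eq2, eq2']; abel
  have t1 : ‖(10 : ℝ) • (a - a')‖ = 10 * ‖a - a'‖ := by rw [norm_smul]; norm_num
  have t2 : ‖(10 : ℝ) • (b - b')‖ = 10 * ‖b - b'‖ := by rw [norm_smul]; norm_num
  have H4 : 10 * ‖a - a'‖ ≤ 1 / 16 * (‖a - a'‖ + ‖b - b'‖) + 1 / 16 * (‖a - a'‖ + ‖c - c'‖) := by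
    rw [← t1, d1]
    refine (norm_add_le _ _).trans ?_
    linarith
  have H2 : 10 * ‖b - b'‖ ≤ 1 / 16 * (‖b - b'‖ + ‖a - a'‖) + 1 / 16 * (‖b - b'‖ + ‖c - c'‖) := by
    rw [← t2, d2]
    refine (norm_add_le _ _).trans ?_
    linarith
  have H3 : ‖efield (b - c) - efield (b' - c')‖
      ≤ 10 * ‖b - b'‖ + 1 / 16 * (‖b - b'‖ + ‖a - a'‖) := by
    have e : efield (b - c) - efield (b' - c')
        = (10 : ℝ) • (b - b') - (efield (b - a) - efield (b' - a')) := by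
      rw [d2]; abel
    rw [e]
    refine (norm_sub_le _ _).trans ?_
    rw [t2]
    linarith
  refine ⟨by linarith, by linarith, by linarith, by linarith⟩

/-- the sheet maps. -/
theorem exists_sheet [CompleteSpace V] (hb0 : ‖b0‖ = 5) (hc0 : ‖c0‖ = 5)
    (hbc : ‖b0 - c0‖ = 8) :
    ∃ b c : V → V,
      (∀ a : V, ‖a‖ ≤ rhoA → ‖b a - b0‖ ≤ 16 * rhoA ∧ ‖c a - c0‖ ≤ 2400 * rhoA ∧
        4 ≤ ‖a - b a‖ ∧ 4 ≤ ‖a - c a‖ ∧ 4 ≤ ‖b a - c a‖ ∧
        (10 : ℝ) • a = (efield b0 + efield c0) + efield (a - b a) + efield (a - c a) ∧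
        (10 : ℝ) • (b a - b0) = (-efield b0 - efield (b0 - c0)) + efield (b a - a)
          + efield (b a - c a)) ∧
      (∀ a a' : V, ‖a‖ ≤ rhoA → ‖a'‖ ≤ rhoA →
        ‖b a - b a'‖ ≤ 16 * ‖a - a'‖ ∧ ‖c a - c a'‖ ≤ 3000 * ‖a - a'‖ ∧
        1 / 100 * ‖a - a'‖ ≤ ‖b a - b a'‖ ∧ 100 * ‖a - a'‖ ≤ ‖c a - c a'‖) := by
  classical
  have hex : ∀ a : V, ∃ b : V, ‖a‖ ≤ rhoA → ‖b - b0‖ ≤ 16 * rhoA ∧ sheetPsi b0 c0 a b = b := by
    intro a
    by_cases ha : ‖a‖ ≤ rhoA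
    · obtain ⟨b, hb, hfix⟩ := exists_sheet_point hb0 hc0 hbc ha
      exact ⟨b, fun _ => ⟨hb, hfix⟩⟩
    · exact ⟨b0, fun h => absurd h ha⟩
  choose b hbspec using hex
  refine ⟨b, fun a => sheetC b0 c0 a (b a), ?_, ?_⟩
  · intro a ha
    obtain ⟨hb, hfix⟩ := hbspec a ha
    obtain ⟨hab4, -, -, -, hI4, -, hC, hbc7, -⟩ := sheet_region hb0 hc0 hbc ha hb
    obtain ⟨eq1, eq2⟩ := sheet_eqs hb0 hc0 hbc ha hb hfix
    have hac4 : 4 ≤ ‖a - sheetC b0 c0 a (b a)‖ := by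
      have e : a - sheetC b0 c0 a (b a) = -efieldInv (sheetV b0 c0 a (b a)) := by
        rw [sheetC]; abel
      rw [e, norm_neg]; exact hI4
    exact ⟨hb, hC, hab4, hac4, by linarith, eq1, eq2⟩
  · intro a a' ha ha'
    obtain ⟨hb, hfix⟩ := hbspec a ha
    obtain ⟨hb', hfix'⟩ := hbspec a' ha'
    exact sheet_two_point hb0 hc0 hbc ha hb ha' hb' hfix hfix'

end

end Vale.Agent.Lib.P121
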