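import Vale.Agent.Lib.P121.Family

namespace Vale.Agent.Lib.P121

open MeasureTheory
open scoped ENNReal

/-- the hypotheses of the family theorem are satisfiable: the normalised Lebesgue measure on a
small ball around `(3/2) e` is an example. -/
theorem exists_admissible (e : E3) (he : ‖e‖ = 1) :
    ∃ ν : Measure E3, IsProbabilityMeasure ν ∧ ν ≪ volume ∧
      ∀ᵐ x ∂ν, 1 ≤ ‖x‖ ∧ ‖x‖ ≤ 2 ∧ ‖x - ‖x‖ • e‖ ≤ ‖x‖ / 100 := by
  set c : E3 := (3 / 2 : ℝ) • e with hc
  set B : Set E3 := Metric.closedBall c (1 / 400) with hB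
  have hB0 : (volume : Measure E3) B ≠ 0 :=
    (Metric.measure_closedBall_pos volume c (by norm_num)).ne'
  have hBtop : (volume : Measure E3) B ≠ ∞ := measure_closedBall_lt_top.ne
  have nc : ‖c‖ = 3 / 2 := by
    rw [hc, norm_smul, he, mul_one, Real.norm_eq_abs, abs_of_pos (by norm_num)]
  refine ⟨ProbabilityTheory.cond volume B,
    ProbabilityTheory.cond_isProbabilityMeasure_of_finite hB0 hBtop, ?_, ?_⟩
  · exact (Measure.absolutelyContinuous_of_le Measure.restrict_le_self).smul_left _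
  · have hmem : ∀ᵐ x ∂(ProbabilityTheory.cond volume B), x ∈ B :=
      Measure.ae_smul_measure (ae_restrict_mem Metric.isClosed_closedBall.measurableSet) _
    filter_upwards [hmem] with x hx
    have hd : ‖x - c‖ ≤ 1 / 400 := by
      have := Metric.mem_closedBall.1 hx
      rwa [dist_eq_norm] at this
    have h1 : ‖x‖ ≤ ‖c‖ + ‖x - c‖ := by
      have := norm_add_le c (x - c)
      rwa [add_sub_cancel] at this
    have h2 : ‖c‖ ≤ ‖x‖ + ‖x - c‖ := by
      have := norm_sub_le x (x - c)
      rwa [sub_sub_cancel] at this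
    have h3 : ‖x - ‖x‖ • e‖ ≤ ‖x - c‖ + ‖c - ‖x‖ • e‖ := by
      have := norm_add_le (x - c) (c - ‖x‖ • e)
      rwa [sub_add_sub_cancel] at this
    have h4 : ‖c - ‖x‖ • e‖ ≤ 1 / 400 := by
      rw [hc, ← sub_smul, norm_smul, he, mul_one, Real.norm_eq_abs, abs_le]
      constructor <;> linarith
    refine ⟨by linarith, by linarith, by linarith⟩

end Vale.Agent.Lib.P121
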